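import Mathlib

/-!
# Memory-bounded learners for noiseless Gaussian linear regression

A signal `s` on the unit sphere of `ℝ^d` is observed through rows `x_1, x_2, …` (independent,
`N(0, I_d)`) with exact labels `y_t = ⟪x_t, s⟫`.
-/

namespace Vale.Agent.P309

open MeasureTheory ProbabilityTheory Metric Set
open scoped ENNReal RealInnerProductSpace

/-- The law of the signal: the uniform distribution on the unit sphere of `ℝ^d`, that is the
normalised surface measure. -/
noncomputable def signalLaw (d : ℕ) : Measure (sphere (0 : EuclideanSpace ℝ (Fin d)) 1) :=
  ((volume : Measure (EuclideanSpace ℝ (Fin d))).toSphere univ)⁻¹ •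
    (volume : Measure (EuclideanSpace ℝ (Fin d))).toSphere

/-- The joint law of `T` rows: independent, each standard Gaussian `N(0, I_d)`. -/
noncomputable def rowLaw (d T : ℕ) : Measure (Fin T → EuclideanSpace ℝ (Fin d)) :=
  Measure.pi fun _ => stdGaussian (EuclideanSpace ℝ (Fin d))

/-- A randomized learner whose persistent state lies in a set of `N` elements. All its randomness
comes from a seed (drawn once, independently of the signal and of the rows, and available at no
memory cost at every later step; fresh private randomness at every step is a special case).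
The rules may depend on the number `t` of samples read so far. -/
structure Learner (d N : ℕ) where
  /-- the seed space -/
  Seed : Type
  [mSeed : MeasurableSpace Seed]
  /-- the law of the seed -/
  seedLaw : Measure Seed
  [seedProb : IsProbabilityMeasure seedLaw]
  /-- the initial state -/
  init : Seed → Fin N
  /-- the new state, computed from the index, the seed, the current state, the row, the label -/
  step : ℕ → Seed → Fin N → EuclideanSpace ℝ (Fin d) → ℝ → Fin N
  /-- the decision to stop, computed from the same data -/
  stop : ℕ → Seed → Fin N → EuclideanSpace ℝ (Fin d) → ℝ → Bool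
  /-- the output, computed from the number of samples read, the seed and the final state -/
  out : ℕ → Seed → Fin N → sphere (0 : EuclideanSpace ℝ (Fin d)) 1
  init_meas : Measurable init
  step_meas : ∀ t m, Measurable fun p : Seed × EuclideanSpace ℝ (Fin d) × ℝ =>
    step t p.1 m p.2.1 p.2.2
  stop_meas : ∀ t m, Measurable fun p : Seed × EuclideanSpace ℝ (Fin d) × ℝ =>
    stop t p.1 m p.2.1 p.2.2
  out_meas : ∀ t m, Measurable fun ω : Seed => out t ω m

attribute [instance] Learner.mSeed Learner.seedProb

namespace Learner

variable {d N : ℕ} (L : Learner d N)

/-- One sample. A configuration consists of the memory state, the number of samples read so far,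
and a flag that tells whether the learner has stopped. A stopped learner does nothing. -/
noncomputable def advance (ω : L.Seed) (s x : EuclideanSpace ℝ (Fin d))
    (c : Fin N × ℕ × Bool) : Fin N × ℕ × Bool :=
  if c.2.2 then c
  else (L.step c.2.1 ω c.1 x ⟪x, s⟫, c.2.1 + 1, L.stop c.2.1 ω c.1 x ⟪x, s⟫)

/-- The configuration reached from `c` when the rows `x 0, …, x (n-1)` are presented in order
and the signal is `s`. -/
noncomputable def run (ω : L.Seed) (s : EuclideanSpace ℝ (Fin d)) :
    (n : ℕ) → (Fin n → EuclideanSpace ℝ (Fin d)) → Fin N × ℕ × Bool → Fin N × ℕ × Bool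
  | 0, _, c => c
  | n + 1, x, c => run ω s n (Fin.tail x) (L.advance ω s (x 0) c)

/-- The output of the learner with horizon `T`. -/
noncomputable def output (T : ℕ) (ω : L.Seed) (s : EuclideanSpace ℝ (Fin d))
    (x : Fin T → EuclideanSpace ℝ (Fin d)) : sphere (0 : EuclideanSpace ℝ (Fin d)) 1 :=
  L.out (L.run ω s T x (L.init ω, 0, false)).2.1 ω (L.run ω s T x (L.init ω, 0, false)).1

/-- The learner with horizon `T` succeeds at accuracy `ε`: with probability at least `2/3` over
the seed, a uniformly random signal and the rows (all independent), the angle between the output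
and the signal is at most `ε`. -/
def Succeeds (T : ℕ) (ε : ℝ) : Prop :=
  2 / 3 ≤ (L.seedLaw.prod ((signalLaw d).prod (rowLaw d T)))
    {p | Real.arccos ⟪(L.output T p.1 (p.2.1 : EuclideanSpace ℝ (Fin d)) p.2.2 :
      EuclideanSpace ℝ (Fin d)), (p.2.1 : EuclideanSpace ℝ (Fin d))⟫ ≤ ε}

end Learner

end Vale.Agent.P309
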