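import Mathlib

/-!
# P309: facts on the standard Gaussian measure
-/

namespace Vale.Agent.P309

open MeasureTheory ProbabilityTheory Metric Set Module
open scoped ENNReal NNReal RealInnerProductSpace

/-- small ball estimate for the standard normal law on the line -/
lemma gaussian_small (c b τ : ℝ) (hb : 0 < b) :
    gaussianReal 0 1 {t : ℝ | |c + t * b| < τ} ≤ ENNReal.ofReal (τ / b) := by
  have hsub : {t : ℝ | |c + t * b| < τ} ⊆ Metric.closedBall (-c / b) (τ / b) := by
    intro t ht
    simp only [Set.mem_ofPred_eq] at ht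
    rw [Metric.mem_closedBall, Real.dist_eq, le_div_iff₀ hb, ← abs_of_pos hb, ← abs_mul,
      abs_of_pos hb]
    have : (t - -c / b) * b = c + t * b := by field_simp; ring
    rw [this]
    exact ht.le
  have hdens : ∀ x, gaussianPDF 0 1 x ≤ ENNReal.ofReal (1 / 2) := by
    intro x
    rw [gaussianPDF]
    apply ENNReal.ofReal_le_ofReal
    rw [gaussianPDFReal]
    have h1 : Real.exp (-(x - 0) ^ 2 / (2 * ((1 : ℝ≥0) : ℝ))) ≤ 1 := by
      rw [Real.exp_le_one_iff]
      have : (0 : ℝ) ≤ (x - 0) ^ 2 := sq_nonneg _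
      simp only [NNReal.coe_one, mul_one]
      linarith
    have h2 : (√(2 * Real.pi * ((1 : ℝ≥0) : ℝ)))⁻¹ ≤ 1 / 2 := by
      rw [one_div]
      apply inv_anti₀ (by norm_num)
      apply Real.le_sqrt_of_sq_le
      simp only [NNReal.coe_one, mul_one]
      have := Real.pi_gt_three
      linarith
    have h3 : (0 : ℝ) ≤ Real.exp (-(x - 0) ^ 2 / (2 * ((1 : ℝ≥0) : ℝ))) := (Real.exp_pos _).le
    calc _ ≤ (1 / 2 : ℝ) * 1 := mul_le_mul h2 h1 h3 (by norm_num)
      _ = 1 / 2 := mul_one _
  calc gaussianReal 0 1 {t : ℝ | |c + t * b| < τ}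
      ≤ gaussianReal 0 1 (Metric.closedBall (-c / b) (τ / b)) := measure_mono hsub
    _ = ∫⁻ x in Metric.closedBall (-c / b) (τ / b), gaussianPDF 0 1 x :=
        gaussianReal_apply 0 (by norm_num) _
    _ ≤ ∫⁻ _ in Metric.closedBall (-c / b) (τ / b), ENNReal.ofReal (1 / 2) :=
        lintegral_mono fun x => hdens x
    _ = ENNReal.ofReal (1 / 2) * volume (Metric.closedBall (-c / b) (τ / b)) := by
        rw [setLIntegral_const]
    _ = ENNReal.ofReal (τ / b) := by
        rw [Real.volume_closedBall, ← ENNReal.ofReal_mul (by norm_num)]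
        congr 1; ring

variable {E : Type*} [NormedAddCommGroup E] [InnerProductSpace ℝ E] [FiniteDimensional ℝ E]
  [MeasurableSpace E] [BorelSpace E]

/-- replacing the coordinate in a unit direction `u` by a fresh standard normal variable does not
change the standard Gaussian law -/
lemma resample (u : E) (hu : ‖u‖ = 1) :
    ((stdGaussian E).prod (gaussianReal 0 1)).map (fun p : E × ℝ => p.1 - ⟪u, p.1⟫ • u + p.2 • u)
      = stdGaussian E := by
  have hmeas : Measurable (fun p : E × ℝ => p.1 - ⟪u, p.1⟫ • u + p.2 • u) := by fun_prop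
  have : IsProbabilityMeasure (((stdGaussian E).prod (gaussianReal 0 1)).map
    (fun p : E × ℝ => p.1 - ⟪u, p.1⟫ • u + p.2 • u)) :=
    Measure.isProbabilityMeasure_map hmeas.aemeasurable
  apply Measure.ext_of_charFun
  ext t
  rw [charFun_stdGaussian, charFun_apply, integral_map hmeas.aemeasurable (by fun_prop)]
  have hkey : ∀ p : E × ℝ, Complex.exp (⟪p.1 - ⟪u, p.1⟫ • u + p.2 • u, t⟫ * Complex.I)
      = Complex.exp (⟪p.1, t - ⟪u, t⟫ • u⟫ * Complex.I)
        * Complex.exp (⟪p.2, ⟪u, t⟫⟫ * Complex.I) := by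
    intro p
    rw [← Complex.exp_add]
    congr 1
    rw [← add_mul]
    congr 1
    have : ⟪p.1 - ⟪u, p.1⟫ • u + p.2 • u, t⟫ = ⟪p.1, t - ⟪u, t⟫ • u⟫ + ⟪p.2, ⟪u, t⟫⟫ := by
      simp only [inner_add_left, inner_sub_left, inner_sub_right, real_inner_smul_left,
        real_inner_smul_right, real_inner_comm u p.1]
      simp only [inner, star_trivial, RCLike.re_to_real]
      ring
    rw [this]
    push_cast
    rfl
  simp_rw [hkey]
  rw [integral_prod_mul (μ := stdGaussian E) (ν := gaussianReal 0 1)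
    (fun x : E => Complex.exp (⟪x, t - ⟪u, t⟫ • u⟫ * Complex.I))
    (fun y : ℝ => Complex.exp (⟪y, ⟪u, t⟫⟫ * Complex.I)),
    ← charFun_apply, ← charFun_apply, charFun_stdGaussian, charFun_gaussianReal,
    ← Complex.exp_add]
  congr 1
  have h1 : ‖t - ⟪u, t⟫ • u‖ ^ 2 = ‖t‖ ^ 2 - ⟪u, t⟫ ^ 2 := by
    rw [@norm_sub_sq_real, norm_smul, hu, real_inner_smul_right, real_inner_comm u t]
    simp only [Real.norm_eq_abs, mul_one, sq_abs]
    ring
  have h2 : ((‖t - ⟪u, t⟫ • u‖ : ℝ) : ℂ) ^ 2 = (‖t‖ : ℂ) ^ 2 - ((⟪u, t⟫ : ℝ) : ℂ) ^ 2 := by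
    rw [← Complex.ofReal_pow, h1]; push_cast; rfl
  rw [h2]
  push_cast
  ring

/-- the law of an inner product -/
lemma map_inner_stdGaussian (v : E) :
    (stdGaussian E).map (fun x => ⟪v, x⟫) = gaussianReal 0 (‖v‖ ^ 2).toNNReal := by
  have h := IsGaussian.map_eq_gaussianReal (μ := stdGaussian E) (innerSL ℝ v)
  have h1 : ((stdGaussian E)[innerSL ℝ v]) = 0 := integral_strongDual_stdGaussian _
  rw [variance_dual_stdGaussian] at h
  rw [h1] at h
  rw [innerSL_apply_norm] at h
  exact h

/-- small ball estimate for generic tuples -/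
lemma gaussian_tuple {n : ℕ} (v : Fin n → E) (τ ρ : ℝ) (hτ : 0 ≤ τ) (hρ : 0 < ρ)
    (hgen : ∀ l : Fin n, ∀ p ∈ Submodule.span ℝ (v '' {i | i < l}), ρ ≤ ‖v l - p‖) :
    stdGaussian E {x | ∀ l, |⟪v l, x⟫| < τ} ≤ ENNReal.ofReal (τ / ρ) ^ n := by
  induction n with
  | zero => simp
  | succ n ih =>
    -- the unit vector orthogonal to the previous ones
    set V : Submodule ℝ E := Submodule.span ℝ (v '' {i | i < Fin.last n}) with hV
    set w : E := v (Fin.last n) - V.starProjection (v (Fin.last n)) with hw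
    have hwn : ρ ≤ ‖w‖ := hgen (Fin.last n) _ (Submodule.starProjection_apply_mem _ _)
    have hw0 : 0 < ‖w‖ := lt_of_lt_of_le hρ hwn
    set u : E := (‖w‖⁻¹) • w with hu
    have hu1 : ‖u‖ = 1 := by
      rw [hu, norm_smul, norm_inv, norm_norm, inv_mul_cancel₀ hw0.ne']
    have hwV : ∀ p ∈ V, ⟪w, p⟫ = 0 := by
      intro p hp
      have := V.sub_starProjection_mem_orthogonal (v (Fin.last n))
      rw [Submodule.mem_orthogonal'] at this
      exact this p hp
    have huV : ∀ p ∈ V, ⟪u, p⟫ = 0 := by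
      intro p hp
      rw [hu, real_inner_smul_left, hwV p hp, mul_zero]
    have hulast : ⟪u, v (Fin.last n)⟫ = ‖w‖ := by
      have h1 : v (Fin.last n) = w + V.starProjection (v (Fin.last n)) := by rw [hw]; abel
      rw [h1, inner_add_right, huV _ (Submodule.starProjection_apply_mem _ _), add_zero, hu,
        real_inner_smul_left, real_inner_self_eq_norm_sq]
      field_simp
    have hmeas : Measurable (fun p : E × ℝ => p.1 - ⟪u, p.1⟫ • u + p.2 • u) := by fun_prop
    have hSm : MeasurableSet {x : E | ∀ l, |⟪v l, x⟫| < τ} := by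
      have : {x : E | ∀ l, |⟪v l, x⟫| < τ} = ⋂ l, {x : E | |⟪v l, x⟫| < τ} := by
        ext; simp
      rw [this]
      refine MeasurableSet.iInter fun l => ?_
      exact measurableSet_lt (by fun_prop) measurable_const
    rw [← resample u hu1, Measure.map_apply hmeas hSm, Measure.prod_apply (hmeas hSm)]
    have hsec : ∀ x : E, gaussianReal 0 1 (Prod.mk x ⁻¹' ((fun p : E × ℝ =>
        p.1 - ⟪u, p.1⟫ • u + p.2 • u) ⁻¹' {x : E | ∀ l, |⟪v l, x⟫| < τ}))
        ≤ {x : E | ∀ l : Fin n, |⟪v l.castSucc, x⟫| < τ}.indicator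
          (fun _ => ENNReal.ofReal (τ / ρ)) x := by
      intro x
      by_cases hx : x ∈ {x : E | ∀ l : Fin n, |⟪v l.castSucc, x⟫| < τ}
      · rw [Set.indicator_of_mem hx]
        refine le_trans (measure_mono (t := {t : ℝ | |⟪v (Fin.last n), x - ⟪u, x⟫ • u⟫ + t * ‖w‖|
          < τ}) ?_) ?_
        · intro t ht
          have h2 := ht (Fin.last n)
          simp only [Set.mem_ofPred_eq]
          convert h2 using 2
          rw [inner_add_right, real_inner_smul_right, real_inner_comm u, hulast]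
        · refine le_trans (gaussian_small _ _ _ hw0) ?_
          apply ENNReal.ofReal_le_ofReal
          gcongr
      · rw [Set.indicator_of_notMem hx]
        simp only [Set.mem_ofPred_eq, not_forall] at hx
        obtain ⟨l, hl⟩ := hx
        have : Prod.mk x ⁻¹' ((fun p : E × ℝ =>
            p.1 - ⟪u, p.1⟫ • u + p.2 • u) ⁻¹' {x : E | ∀ l, |⟪v l, x⟫| < τ}) = ∅ := by
          ext t
          simp only [Set.mem_preimage, Set.mem_ofPred_eq, Set.mem_empty_iff_false, iff_false,
            not_forall]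
          refine ⟨l.castSucc, ?_⟩
          have hvl : v l.castSucc ∈ V := by
            rw [hV]
            exact Submodule.subset_span ⟨l.castSucc, Fin.castSucc_lt_last l, rfl⟩
          have h3 : ⟪v l.castSucc, u⟫ = 0 := by rw [real_inner_comm]; exact huV _ hvl
          have h4 : ⟪v l.castSucc, x - ⟪u, x⟫ • u + t • u⟫ = ⟪v l.castSucc, x⟫ := by
            rw [inner_add_right, inner_sub_right, real_inner_smul_right _ u ⟪u, x⟫,
              real_inner_smul_right _ u t, h3]
            ring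
          rw [h4]
          exact hl
        rw [this]; simp
    refine le_trans (lintegral_mono hsec) ?_
    have hSm' : MeasurableSet {x : E | ∀ l : Fin n, |⟪v l.castSucc, x⟫| < τ} := by
      have : {x : E | ∀ l : Fin n, |⟪v l.castSucc, x⟫| < τ}
          = ⋂ l : Fin n, {x : E | |⟪v l.castSucc, x⟫| < τ} := by
        ext; simp
      rw [this]
      refine MeasurableSet.iInter fun l => ?_
      exact measurableSet_lt (by fun_prop) measurable_const
    rw [lintegral_indicator_const hSm', pow_succ']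
    gcongr
    refine ih (fun l => v l.castSucc) ?_
    intro l p hp
    refine hgen l.castSucc p ?_
    refine Submodule.span_mono ?_ hp
    rintro _ ⟨i, hi, rfl⟩
    exact ⟨i.castSucc, by simpa using hi, rfl⟩

/-- small ball estimate for one vector -/
lemma gaussian_single (v : E) (τ : ℝ) (hτ : 0 ≤ τ) (hv : 0 < ‖v‖) :
    stdGaussian E {x | |⟪v, x⟫| < τ} ≤ ENNReal.ofReal (τ / ‖v‖) := by
  have h := gaussian_tuple (n := 1) (fun _ => v) τ ‖v‖ hτ hv (by
    intro l p hp
    have : {i : Fin 1 | i < l} = ∅ := by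
      ext i; simp [Subsingleton.elim i l]
    rw [this] at hp
    simp only [Set.image_empty, Submodule.span_empty, Submodule.mem_bot] at hp
    rw [hp, sub_zero])
  simpa using h

/-- exponential moment of an inner product -/
lemma gaussian_exp (v : E) (hv : ‖v‖ ≤ 1) :
    ∫⁻ x, ENNReal.ofReal (Real.exp |⟪v, x⟫|) ∂(stdGaussian E) ≤ ENNReal.ofReal (2 * Real.exp (1 / 2)) := by
  have h0 : ∀ c : ℝ, (c = 1 ∨ c = -1) →
      ∫⁻ x, ENNReal.ofReal (Real.exp (c * ⟪v, x⟫)) ∂(stdGaussian E)
        ≤ ENNReal.ofReal (Real.exp (1 / 2)) := by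
    intro c hc
    have h1 : ∫⁻ x, ENNReal.ofReal (Real.exp (c * ⟪v, x⟫)) ∂(stdGaussian E)
        = ∫⁻ y, ENNReal.ofReal (Real.exp (c * y)) ∂(gaussianReal 0 (‖v‖ ^ 2).toNNReal) := by
      rw [← map_inner_stdGaussian, lintegral_map (by fun_prop) (by fun_prop)]
    rw [h1, ← ofReal_integral_eq_lintegral_ofReal]
    · apply ENNReal.ofReal_le_ofReal
      have h2 := mgf_gaussianReal (X := id) (p := gaussianReal 0 (‖v‖ ^ 2).toNNReal) (μ := 0)
        (v := (‖v‖ ^ 2).toNNReal) (by simp) c
      rw [mgf] at h2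
      simp only [id] at h2
      rw [h2]
      apply Real.exp_le_exp.2
      have h3 : (((‖v‖ ^ 2).toNNReal : ℝ≥0) : ℝ) = ‖v‖ ^ 2 := Real.coe_toNNReal _ (sq_nonneg _)
      rw [h3]
      have h4 : c ^ 2 = 1 := by rcases hc with h | h <;> rw [h] <;> norm_num
      rw [h4]
      have h5 : ‖v‖ ^ 2 ≤ 1 := by
        have := norm_nonneg v
        nlinarith
      linarith
    · exact integrable_exp_mul_gaussianReal c
    · exact Filter.Eventually.of_forall fun y => (Real.exp_pos _).le
  calc ∫⁻ x, ENNReal.ofReal (Real.exp |⟪v, x⟫|) ∂(stdGaussian E)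
      ≤ ∫⁻ x, (ENNReal.ofReal (Real.exp (1 * ⟪v, x⟫))
          + ENNReal.ofReal (Real.exp ((-1) * ⟪v, x⟫))) ∂(stdGaussian E) := by
        apply lintegral_mono
        intro x
        simp only
        rw [← ENNReal.ofReal_add (Real.exp_pos _).le (Real.exp_pos _).le]
        apply ENNReal.ofReal_le_ofReal
        rcases abs_cases ⟪v, x⟫ with ⟨h, _⟩ | ⟨h, _⟩
        · rw [h, one_mul]
          have := (Real.exp_pos (-1 * ⟪v, x⟫)).le
          linarith
        · rw [h]
          have := (Real.exp_pos (1 * ⟪v, x⟫)).le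
          rw [neg_one_mul]
          linarith
    _ = ∫⁻ x, ENNReal.ofReal (Real.exp (1 * ⟪v, x⟫)) ∂(stdGaussian E)
          + ∫⁻ x, ENNReal.ofReal (Real.exp ((-1) * ⟪v, x⟫)) ∂(stdGaussian E) :=
        lintegral_add_left (by fun_prop) _
    _ ≤ ENNReal.ofReal (Real.exp (1 / 2)) + ENNReal.ofReal (Real.exp (1 / 2)) :=
        add_le_add (h0 1 (Or.inl rfl)) (h0 (-1) (Or.inr rfl))
    _ = ENNReal.ofReal (2 * Real.exp (1 / 2)) := by
        rw [← ENNReal.ofReal_add (Real.exp_pos _).le (Real.exp_pos _).le]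
        congr 1; ring

end Vale.Agent.P309
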