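import Mathlib

/-!
# P309: separated sets near a subspace, and generic tuples
-/

namespace Vale.Agent.P309

open MeasureTheory Metric Set Module
open scoped ENNReal NNReal RealInnerProductSpace

/-- volume bound for separated sets -/
lemma card_separated {F : Type*} [NormedAddCommGroup F] [NormedSpace ℝ F] [FiniteDimensional ℝ F]
    (T : Finset F) (R δ : ℝ) (hδ : 0 < δ) (hR : 0 ≤ R) (hT : ∀ t ∈ T, ‖t‖ ≤ R)
    (hsep : ∀ t ∈ T, ∀ t' ∈ T, t ≠ t' → 2 * δ ≤ ‖t - t'‖) :
    (T.card : ℝ) * δ ^ finrank ℝ F ≤ (R + δ) ^ finrank ℝ F := by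
  borelize F
  let μ : Measure F := Measure.addHaar
  have hpos : 0 < R + δ := by linarith
  have D : Set.Pairwise (T : Set F) (Function.onFun Disjoint fun c => ball (c : F) δ) := by
    rintro c hc d hd hcd
    apply ball_disjoint_ball
    rw [dist_eq_norm]
    have := hsep c hc d hd hcd
    linarith
  have A_subset : (⋃ c ∈ T, ball (c : F) δ) ⊆ ball (0 : F) (R + δ) := by
    refine iUnion₂_subset fun x hx => ?_
    apply ball_subset_ball'
    rw [dist_zero_right]
    have := hT x hx
    linarith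
  have I : (T.card : ℝ≥0∞) * ENNReal.ofReal (δ ^ finrank ℝ F) * μ (ball 0 1) ≤
      ENNReal.ofReal ((R + δ) ^ finrank ℝ F) * μ (ball 0 1) :=
    calc
      (T.card : ℝ≥0∞) * ENNReal.ofReal (δ ^ finrank ℝ F) * μ (ball 0 1)
          = μ (⋃ c ∈ T, ball (c : F) δ) := by
        rw [measure_biUnion_finset D fun c _ => measurableSet_ball]
        simp only [μ.addHaar_ball_of_pos _ hδ]
        simp only [Finset.sum_const, nsmul_eq_mul, mul_assoc]
      _ ≤ μ (ball (0 : F) (R + δ)) := measure_mono A_subset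
      _ = ENNReal.ofReal ((R + δ) ^ finrank ℝ F) * μ (ball 0 1) := by
        simp only [μ.addHaar_ball_of_pos _ hpos]
  have J : (T.card : ℝ≥0∞) * ENNReal.ofReal (δ ^ finrank ℝ F)
      ≤ ENNReal.ofReal ((R + δ) ^ finrank ℝ F) :=
    (ENNReal.mul_le_mul_iff_left (measure_ball_pos _ _ zero_lt_one).ne' measure_ball_lt_top.ne).1 I
  have := ENNReal.toReal_le_of_le_ofReal (pow_nonneg hpos.le _) J
  rw [ENNReal.toReal_mul, ENNReal.toReal_natCast, ENNReal.toReal_ofReal (by positivity)] at this
  exact this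

variable {E : Type*} [NormedAddCommGroup E] [InnerProductSpace ℝ E] [FiniteDimensional ℝ E]

/-- separated sets near a subspace of small dimension have few elements -/
lemma card_near (V : Submodule ℝ E) (r : ℕ) (hV : finrank ℝ V ≤ r) (ρ : ℝ) (hρ : 0 < ρ)
    (hρ1 : ρ ≤ 1) (T : Finset E) (hT : ∀ t ∈ T, ‖t‖ ≤ 1)
    (hnear : ∀ t ∈ T, ∃ p ∈ V, ‖t - p‖ < ρ / 4)
    (hsep : ∀ t ∈ T, ∀ t' ∈ T, t ≠ t' → ρ < ‖t - t'‖) :
    (T.card : ℝ) ≤ (8 / ρ) ^ r := by
  classical
  have hproj : ∀ t ∈ T, ‖t - V.starProjection t‖ < ρ / 4 := by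
    intro t ht
    obtain ⟨p, hp, hlt⟩ := hnear t ht
    refine lt_of_le_of_lt ?_ hlt
    rw [← dist_eq_norm, ← dist_eq_norm]
    have h := Submodule.starProjection_minimal (U := V) (y := t)
    have h2 : ‖t - V.starProjection t‖ ≤ ‖t - (⟨p, hp⟩ : V)‖ := by
      rw [h]
      exact ciInf_le ⟨0, by rintro _ ⟨x, rfl⟩; exact norm_nonneg _⟩ (⟨p, hp⟩ : V)
    simpa [dist_eq_norm] using h2
  have hsep' : ∀ t ∈ T, ∀ t' ∈ T, t ≠ t' →
      2 * (ρ / 4) ≤ ‖V.orthogonalProjectionOnto t - V.orthogonalProjectionOnto t'‖ := by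
    intro t ht t' ht' hne
    have h1 := hproj t ht
    have h2 := hproj t' ht'
    have h3 := hsep t ht t' ht' hne
    have h4 : t - t' = (t - V.starProjection t) - (t' - V.starProjection t')
        + (V.starProjection t - V.starProjection t') := by abel
    have h5 : ‖t - t'‖ ≤ ‖t - V.starProjection t‖ + ‖t' - V.starProjection t'‖
        + ‖V.starProjection t - V.starProjection t'‖ := by
      rw [h4]
      refine le_trans (norm_add_le _ _) ?_
      gcongr
      exact norm_sub_le _ _
    have h6 : ‖V.starProjection t - V.starProjection t'‖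
        = ‖V.orthogonalProjectionOnto t - V.orthogonalProjectionOnto t'‖ := by
      change _ = ‖((V.orthogonalProjectionOnto t - V.orthogonalProjectionOnto t' : V) : E)‖
      rw [Submodule.coe_sub]
      rfl
    rw [← h6]
    linarith
  have hinj : Set.InjOn (fun t => V.orthogonalProjectionOnto t) (T : Set E) := by
    intro t ht t' ht' heq
    by_contra hne
    have := hsep' t ht t' ht' hne
    simp only at heq
    rw [heq, sub_self, norm_zero] at this
    linarith
  have hcard : (T.image (fun t => V.orthogonalProjectionOnto t)).card = T.card :=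
    Finset.card_image_of_injOn hinj
  have hmain := card_separated (F := V) (T.image (fun t => V.orthogonalProjectionOnto t)) 1 (ρ / 4)
    (by positivity) (by norm_num) (by
      intro t ht
      rw [Finset.mem_image] at ht
      obtain ⟨s, hs, rfl⟩ := ht
      exact le_trans (V.norm_orthogonalProjectionOnto_apply_le s) (hT s hs)) (by
      intro t ht t' ht' hne
      rw [Finset.mem_image] at ht ht'
      obtain ⟨s, hs, rfl⟩ := ht
      obtain ⟨s', hs', rfl⟩ := ht'
      exact hsep' s hs s' hs' (fun h => hne (by rw [h])))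
  rw [hcard] at hmain
  have h1 : (T.card : ℝ) ≤ (8 / ρ) ^ finrank ℝ V := by
    have hpos : (0 : ℝ) < (ρ / 4) ^ finrank ℝ V := by positivity
    rw [← mul_le_mul_iff_left₀ hpos]
    refine le_trans hmain ?_
    rw [← mul_pow]
    apply pow_le_pow_left₀ (by positivity)
    have : 8 / ρ * (ρ / 4) = 2 := by field_simp; norm_num
    rw [this]
    linarith
  refine le_trans h1 ?_
  apply pow_le_pow_right₀ _ hV
  rw [le_div_iff₀ hρ]
  linarith

variable [MeasurableSpace E] [BorelSpace E]

omit [BorelSpace E] in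
/-- a set whose points have small local mass has small mass near a low-dimensional subspace -/
lemma measure_near (P : Measure E) (V : Submodule ℝ E) (r : ℕ) (hV : finrank ℝ V ≤ r) (ρ : ℝ)
    (hρ : 0 < ρ) (hρ1 : ρ ≤ 1) (W S : Set E) (hWS : W ⊆ S) (hW1 : ∀ s ∈ W, ‖s‖ ≤ 1) (β : ℝ≥0∞)
    (hβ : ∀ s ∈ W, P (closedBall s ρ ∩ S) ≤ β) :
    P (W ∩ {s | ∃ p ∈ V, ‖s - p‖ < ρ / 4}) ≤ ENNReal.ofReal ((8 / ρ) ^ r) * β := by
  classical
  set A : Set E := W ∩ {s | ∃ p ∈ V, ‖s - p‖ < ρ / 4} with hA
  -- a finite covering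
  have hcov : ∃ T : Finset E, (∀ t ∈ T, t ∈ A) ∧
      (∀ t ∈ T, ∀ t' ∈ T, t ≠ t' → ρ < ‖t - t'‖) ∧ A ⊆ ⋃ t ∈ T, closedBall t ρ := by
    by_contra hcon
    have hall : ∀ n : ℕ, ∃ T : Finset E, T.card = n ∧ (∀ t ∈ T, t ∈ A) ∧
        (∀ t ∈ T, ∀ t' ∈ T, t ≠ t' → ρ < ‖t - t'‖) := by
      intro n
      induction n with
      | zero => exact ⟨∅, by simp⟩
      | succ n ih =>
        obtain ⟨T, hc, hTA, hsep⟩ := ih
        have hnot : ¬ (A ⊆ ⋃ t ∈ T, closedBall t ρ) := fun h => hcon ⟨T, hTA, hsep, h⟩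
        rw [Set.not_subset] at hnot
        obtain ⟨s, hs, hsn⟩ := hnot
        simp only [mem_iUnion, not_exists] at hsn
        have hfar : ∀ t ∈ T, ρ < ‖s - t‖ := by
          intro t ht
          have := hsn t ht
          rw [mem_closedBall, dist_eq_norm, not_le] at this
          exact this
        have hsT : s ∉ T := by
          intro h
          have := hfar s h
          rw [sub_self, norm_zero] at this
          linarith
        refine ⟨insert s T, by rw [Finset.card_insert_of_notMem hsT, hc], ?_, ?_⟩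
        · intro t ht
          rcases Finset.mem_insert.1 ht with rfl | ht
          · exact hs
          · exact hTA t ht
        · intro t ht t' ht' hne
          rcases Finset.mem_insert.1 ht with hs1 | hs1 <;>
            rcases Finset.mem_insert.1 ht' with hs2 | hs2
          · exact absurd (hs1.trans hs2.symm) hne
          · rw [hs1]; exact hfar t' hs2
          · rw [hs2, norm_sub_rev]; exact hfar t hs1
          · exact hsep t hs1 t' hs2 hne
    obtain ⟨n, hn⟩ := exists_nat_gt ((8 / ρ) ^ r)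
    obtain ⟨T, hc, hTA, hsep⟩ := hall n
    have := card_near V r hV ρ hρ hρ1 T (fun t ht => hW1 t (hTA t ht).1)
      (fun t ht => (hTA t ht).2) hsep
    rw [hc] at this
    linarith
  obtain ⟨T, hTA, hsep, hcov⟩ := hcov
  have hcard := card_near V r hV ρ hρ hρ1 T (fun t ht => hW1 t (hTA t ht).1)
    (fun t ht => (hTA t ht).2) hsep
  calc P A ≤ P (⋃ t ∈ T, (closedBall t ρ ∩ S)) := by
        apply measure_mono
        intro s hs
        have := hcov hs
        simp only [mem_iUnion] at this ⊢
        obtain ⟨t, ht, hst⟩ := this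
        exact ⟨t, ht, hst, hWS hs.1⟩
    _ ≤ ∑ t ∈ T, P (closedBall t ρ ∩ S) := measure_biUnion_finset_le _ _
    _ ≤ ∑ _t ∈ T, β := Finset.sum_le_sum fun t ht => hβ t (hTA t ht).1
    _ = (T.card : ℝ≥0∞) * β := by simp
    _ ≤ ENNReal.ofReal ((8 / ρ) ^ r) * β := by
        gcongr
        rw [← ENNReal.ofReal_natCast]
        exact ENNReal.ofReal_le_ofReal hcard

/-- a tuple is `ρ`-generic if each member has distance at least `ρ` from the span of the previous
ones -/
def Gen (ρ : ℝ) {n : ℕ} (t : Fin n → E) : Prop :=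
  ∀ l : Fin n, ∀ p ∈ Submodule.span ℝ (t '' {i | i < l}), ρ ≤ ‖t l - p‖

omit [FiniteDimensional ℝ E] [MeasurableSpace E] [BorelSpace E] in
lemma mem_span_lt {n : ℕ} (t : Fin n → E) (l : Fin n) (p : E) :
    p ∈ Submodule.span ℝ (t '' {i | i < l}) ↔
      ∃ c : Fin n → ℝ, p = ∑ i, (if i < l then c i else 0) • t i := by
  constructor
  · intro hp
    induction hp using Submodule.span_induction with
    | mem x hx =>
      obtain ⟨i, hi, rfl⟩ := hx
      refine ⟨Pi.single i 1, ?_⟩
      rw [Finset.sum_eq_single i]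
      · have : i < l := hi
        simp [this]
      · intro j _ hj
        simp [hj]
      · intro h; exact absurd (Finset.mem_univ i) h
    | zero => exact ⟨0, by simp⟩
    | add x y _ _ hx hy =>
      obtain ⟨c, rfl⟩ := hx
      obtain ⟨c', rfl⟩ := hy
      refine ⟨c + c', ?_⟩
      rw [← Finset.sum_add_distrib]
      refine Finset.sum_congr rfl fun i _ => ?_
      split_ifs <;> simp [add_smul]
    | smul a x _ hx =>
      obtain ⟨c, rfl⟩ := hx
      refine ⟨a • c, ?_⟩
      rw [Finset.smul_sum]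
      refine Finset.sum_congr rfl fun i _ => ?_
      split_ifs <;> simp [mul_smul]
  · rintro ⟨c, rfl⟩
    refine Submodule.sum_mem _ fun i _ => ?_
    split_ifs with h
    · exact Submodule.smul_mem _ _ (Submodule.subset_span ⟨i, h, rfl⟩)
    · simp

omit [FiniteDimensional ℝ E] [MeasurableSpace E] [BorelSpace E] in
lemma isClosed_gen (ρ : ℝ) (n : ℕ) : IsClosed {t : Fin n → E | Gen ρ t} := by
  have : {t : Fin n → E | Gen ρ t} = ⋂ l : Fin n, ⋂ c : Fin n → ℝ,
      {t : Fin n → E | ρ ≤ ‖t l - ∑ i, (if i < l then c i else 0) • t i‖} := by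
    ext t
    simp only [mem_ofPred_eq, mem_iInter]
    constructor
    · intro h l c
      exact h l _ ((mem_span_lt t l _).2 ⟨c, rfl⟩)
    · intro h l p hp
      obtain ⟨c, rfl⟩ := (mem_span_lt t l p).1 hp
      exact h l c
  rw [this]
  refine isClosed_iInter fun l => isClosed_iInter fun c => ?_
  exact isClosed_le continuous_const (by fun_prop)

/-- lower bound for the mass of generic tuples -/
lemma generic_mass (P : Measure E) [IsFiniteMeasure P] (r : ℕ) (ρ : ℝ) (W : Set E)
    (hWm : MeasurableSet W)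
    (hW : ∀ V : Submodule ℝ E, finrank ℝ V ≤ r → P (W ∩ {s | ∃ p ∈ V, ‖s - p‖ < ρ}) ≤ P W / 2) :
    ∀ n : ℕ, n ≤ r + 1 → (P W / 2) ^ n ≤
      (Measure.pi fun _ : Fin n => P) {t | (∀ l, t l ∈ W) ∧ Gen ρ t} := by
  intro n
  induction n with
  | zero =>
    intro _
    rw [pow_zero]
    have : {t : Fin 0 → E | (∀ l, t l ∈ W) ∧ Gen ρ t} = univ := by
      ext t
      simp [Gen]
    rw [this]
    simp
  | succ n ih =>
    intro hn
    have ih := ih (by omega)
    have hGm : ∀ m : ℕ, MeasurableSet {t : Fin m → E | (∀ l, t l ∈ W) ∧ Gen ρ t} := by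
      intro m
      have h1 : {t : Fin m → E | (∀ l, t l ∈ W) ∧ Gen ρ t}
          = (⋂ l, (fun t : Fin m → E => t l) ⁻¹' W) ∩ {t : Fin m → E | Gen ρ t} := by
        ext; simp
      rw [h1]
      exact (MeasurableSet.iInter fun l => (measurable_pi_apply l) hWm).inter
        (isClosed_gen ρ m).measurableSet
    have hmp := measurePreserving_piFinSuccAbove (fun _ : Fin (n + 1) => P) (Fin.last n)
    have hset : {t : Fin (n + 1) → E | (∀ l, t l ∈ W) ∧ Gen ρ t}
        = (MeasurableEquiv.piFinSuccAbove (fun _ => E) (Fin.last n)) ⁻¹'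
          {q : E × (Fin n → E) | (q.1 ∈ W ∧ ∀ p ∈ Submodule.span ℝ (Set.range q.2), ρ ≤ ‖q.1 - p‖)
            ∧ ((∀ l, q.2 l ∈ W) ∧ Gen ρ q.2)} := by
      ext t
      have hval : (MeasurableEquiv.piFinSuccAbove (fun _ => E) (Fin.last n)) t
          = (t (Fin.last n), fun j => t j.castSucc) := by
        ext
        · simp [MeasurableEquiv.piFinSuccAbove, Fin.insertNthEquiv]
        · simp [MeasurableEquiv.piFinSuccAbove, Fin.insertNthEquiv, Fin.init]
      rw [mem_preimage, hval]
      simp only [mem_ofPred_eq]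
      have himg : ∀ l : Fin n, t '' {i | i < l.castSucc}
          = (fun j : Fin n => t j.castSucc) '' {i | i < l} := by
        intro l
        ext x
        constructor
        · rintro ⟨i, hi, rfl⟩
          have hi' : (i : ℕ) < l := hi
          refine ⟨⟨i, by omega⟩, hi', rfl⟩
        · rintro ⟨i, hi, rfl⟩
          exact ⟨i.castSucc, by simpa using hi, rfl⟩
      have himg2 : t '' {i | i < Fin.last n} = Set.range (fun j : Fin n => t j.castSucc) := by
        ext x
        constructor
        · rintro ⟨i, hi, rfl⟩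
          have hi' : (i : ℕ) < n := hi
          exact ⟨⟨i, hi'⟩, rfl⟩
        · rintro ⟨i, rfl⟩
          exact ⟨i.castSucc, Fin.castSucc_lt_last i, rfl⟩
      constructor
      · rintro ⟨h1, h2⟩
        refine ⟨⟨h1 _, ?_⟩, fun l => h1 _, ?_⟩
        · intro p hp
          rw [← himg2] at hp
          exact h2 _ p hp
        · intro l p hp
          rw [← himg l] at hp
          exact h2 _ p hp
      · rintro ⟨⟨h1, h2⟩, h3, h4⟩
        refine ⟨?_, ?_⟩
        · intro l
          refine Fin.lastCases h1 (fun i => h3 i) l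
        · intro l
          refine Fin.lastCases ?_ (fun i => ?_) l
          · intro p hp
            rw [himg2] at hp
            exact h2 p hp
          · intro p hp
            rw [himg i] at hp
            exact h4 i p hp
    have hQm : MeasurableSet {q : E × (Fin n → E) | (q.1 ∈ W ∧
        ∀ p ∈ Submodule.span ℝ (Set.range q.2), ρ ≤ ‖q.1 - p‖)
            ∧ ((∀ l, q.2 l ∈ W) ∧ Gen ρ q.2)} := by
      rw [← MeasurableEquiv.measurableSet_preimage
        (MeasurableEquiv.piFinSuccAbove (fun _ => E) (Fin.last n)), ← hset]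
      exact hGm (n + 1)
    rw [hset, hmp.measure_preimage hQm.nullMeasurableSet, Measure.prod_apply_symm hQm]
    have hlow : ∀ t : Fin n → E,
        {t : Fin n → E | (∀ l, t l ∈ W) ∧ Gen ρ t}.indicator (fun _ => P W / 2) t
        ≤ P ((fun x => (x, t)) ⁻¹' {q : E × (Fin n → E) | (q.1 ∈ W ∧
        ∀ p ∈ Submodule.span ℝ (Set.range q.2), ρ ≤ ‖q.1 - p‖)
            ∧ ((∀ l, q.2 l ∈ W) ∧ Gen ρ q.2)}) := by
      intro t
      by_cases ht : t ∈ {t : Fin n → E | (∀ l, t l ∈ W) ∧ Gen ρ t}
      · rw [indicator_of_mem ht]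
        set V := Submodule.span ℝ (Set.range t) with hV
        have hfr : finrank ℝ V ≤ r := by
          refine le_trans (finrank_range_le_card t) ?_
          simp only [Fintype.card_fin]
          omega
        have hsub : W \ (W ∩ {s | ∃ p ∈ V, ‖s - p‖ < ρ}) ⊆
            ((fun x => (x, t)) ⁻¹' {q : E × (Fin n → E) | (q.1 ∈ W ∧
              ∀ p ∈ Submodule.span ℝ (Set.range q.2), ρ ≤ ‖q.1 - p‖)
              ∧ ((∀ l, q.2 l ∈ W) ∧ Gen ρ q.2)}) := by
          rintro s ⟨hs, hns⟩
          refine ⟨⟨hs, fun p hp => ?_⟩, ht⟩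
          by_contra hlt
          exact hns ⟨hs, p, hp, not_le.1 hlt⟩
        refine le_trans ?_ (measure_mono hsub)
        refine le_trans ?_ (le_measure_sdiff)
        have h1 := hW V hfr
        have h2 : P W ≠ ⊤ := measure_ne_top P W
        calc P W / 2 = P W - P W / 2 := by
              rw [ENNReal.sub_half h2]
          _ ≤ P W - P (W ∩ {s | ∃ p ∈ V, ‖s - p‖ < ρ}) := by gcongr
      · rw [indicator_of_notMem ht]
        exact zero_le
    refine le_trans ?_ (lintegral_mono hlow)
    rw [lintegral_indicator_const (hGm n), pow_succ']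
    gcongr

end Vale.Agent.P309
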