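import Mathlib
import Vale.Agent.P309.Gauss
import Vale.Agent.P309.Generic

/-!
# P309: cells of the label vector
-/

namespace Vale.Agent.P309

open MeasureTheory ProbabilityTheory Metric Set Module
open scoped ENNReal NNReal RealInnerProductSpace

variable {E : Type*} [NormedAddCommGroup E] [InnerProductSpace ℝ E] [FiniteDimensional ℝ E]
  [MeasurableSpace E] [BorelSpace E]

/-- law of `k` independent standard Gaussian rows -/
noncomputable def rows (E : Type*) [NormedAddCommGroup E] [InnerProductSpace ℝ E]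
    [FiniteDimensional ℝ E] [MeasurableSpace E] [BorelSpace E] (k : ℕ) : Measure (Fin k → E) :=
  Measure.pi fun _ => stdGaussian E

instance (k : ℕ) : IsProbabilityMeasure (rows E k) := by unfold rows; infer_instance

/-- the cell of the label vector -/
noncomputable def cell (τ : ℝ) {k : ℕ} (X : Fin k → E) (s : E) : Fin k → ℤ :=
  fun j => ⌊⟪X j, s⟫ / τ⌋

omit [FiniteDimensional ℝ E] in
lemma measurable_cell [SecondCountableTopology E] (τ : ℝ) (k : ℕ) :
    Measurable (fun q : (Fin k → E) × E => cell τ q.1 q.2) := by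
  rw [measurable_pi_iff]
  intro j
  unfold cell
  apply Int.measurable_floor.comp
  fun_prop

omit [FiniteDimensional ℝ E] [MeasurableSpace E] [BorelSpace E] in
lemma cell_eq {τ : ℝ} (hτ : 0 < τ) {k : ℕ} {X : Fin k → E} {s s' : E}
    (h : cell τ X s = cell τ X s') (j : Fin k) : |⟪s - s', X j⟫| < τ := by
  have h1 : ⌊⟪X j, s⟫ / τ⌋ = ⌊⟪X j, s'⟫ / τ⌋ := congrFun h j
  have h2 := Int.abs_sub_lt_one_of_floor_eq_floor h1
  rw [← sub_div, abs_div, abs_of_pos hτ, div_lt_one hτ, ← inner_sub_right] at h2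
  rw [real_inner_comm]
  exact h2

/-- generic points are rarely in the same cell -/
lemma cell_prob_tuple {k n : ℕ} (t : Fin (n + 1) → E) (τ ρ : ℝ) (hτ : 0 < τ) (hρ : 0 < ρ)
    (hgen : Gen ρ t) :
    rows E k {X | ∀ l, cell τ X (t l) = cell τ X (t 0)} ≤ ENNReal.ofReal (τ / ρ) ^ (n * k) := by
  have hsub : {X : Fin k → E | ∀ l, cell τ X (t l) = cell τ X (t 0)} ⊆
      Set.univ.pi (fun _ : Fin k => {x : E | ∀ l : Fin n, |⟪t l.succ - t 0, x⟫| < τ}) := by
    intro X hX j _ l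
    exact cell_eq hτ (hX l.succ) j
  refine le_trans (measure_mono hsub) ?_
  unfold rows
  rw [Measure.pi_pi, Finset.prod_const, Finset.card_univ, Fintype.card_fin, pow_mul]
  gcongr
  refine gaussian_tuple _ τ ρ hτ.le hρ ?_
  intro l p hp
  have h0 : t 0 ∈ Submodule.span ℝ (t '' {i | i < l.succ}) :=
    Submodule.subset_span ⟨0, Fin.succ_pos l, rfl⟩
  have hp' : p ∈ Submodule.span ℝ (t '' {i | i < l.succ}) := by
    refine (Submodule.span_le.2 ?_) hp
    rintro _ ⟨i, hi, rfl⟩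
    have hi' : i.succ < l.succ := Fin.succ_lt_succ_iff.2 hi
    exact Submodule.sub_mem _ (Submodule.subset_span ⟨i.succ, hi', rfl⟩) h0
  have := hgen l.succ (t 0 + p) (Submodule.add_mem _ h0 hp')
  rwa [← sub_sub] at this

/-- two different points are rarely in the same cell -/
lemma cell_prob_single {k : ℕ} (s s' : E) (τ : ℝ) (hτ : 0 < τ) (hne : s ≠ s') :
    rows E k {X | cell τ X s = cell τ X s'} ≤ ENNReal.ofReal (τ / ‖s - s'‖) ^ k := by
  have hsub : {X : Fin k → E | cell τ X s = cell τ X s'} ⊆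
      Set.univ.pi (fun _ : Fin k => {x : E | |⟪s - s', x⟫| < τ}) := by
    intro X hX j _
    exact cell_eq hτ hX j
  refine le_trans (measure_mono hsub) ?_
  unfold rows
  rw [Measure.pi_pi, Finset.prod_const, Finset.card_univ, Fintype.card_fin]
  gcongr
  exact gaussian_single _ τ hτ.le (norm_pos_iff.2 (sub_ne_zero.2 hne))

/-- integral of a product function -/
lemma lintegral_pi_prod {α : Type*} [MeasurableSpace α] (μ : Measure α) [IsProbabilityMeasure μ]
    (f : α → ℝ≥0∞) (hf : Measurable f) (n : ℕ) :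
    ∫⁻ x : Fin n → α, ∏ i, f (x i) ∂(Measure.pi fun _ => μ) = (∫⁻ x, f x ∂μ) ^ n := by
  induction n with
  | zero => simp
  | succ n ih =>
    have hmp := (measurePreserving_piFinSuccAbove (fun _ : Fin (n + 1) => μ) 0).symm
    rw [← hmp.lintegral_comp (by fun_prop)]
    have : ∀ q : α × (Fin n → α), ∏ i, f ((MeasurableEquiv.piFinSuccAbove (fun _ => α) 0).symm q i)
        = f q.1 * ∏ i, f (q.2 i) := by
      intro q
      rw [Fin.prod_univ_succ]
      simp [MeasurableEquiv.piFinSuccAbove, Fin.insertNthEquiv]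
    simp_rw [this]
    have hg : Measurable (fun y : Fin n → α => ∏ i, f (y i)) := by fun_prop
    rw [lintegral_prod_mul (f := f) (g := fun y : Fin n → α => ∏ i, f (y i)) hf.aemeasurable
      hg.aemeasurable, ih, pow_succ']

/-- weights on the integers -/
noncomputable def wt (τ : ℝ) (n : ℤ) : ℝ≥0∞ := ENNReal.ofReal (τ / 4 * Real.exp (-(τ * |(n : ℝ)|)))

lemma wt_nat_sum (τ : ℝ) (hτ : 0 < τ) (hτ1 : τ ≤ 1) :
    ∑' n : ℕ, ENNReal.ofReal (τ / 4 * Real.exp (-(τ * n))) ≤ 2⁻¹ := by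
  have hterm : ∀ n : ℕ, ENNReal.ofReal (τ / 4 * Real.exp (-(τ * n)))
      = ENNReal.ofReal (τ / 4) * ENNReal.ofReal (Real.exp (-τ)) ^ n := by
    intro n
    rw [ENNReal.ofReal_mul (by positivity), ← ENNReal.ofReal_pow (Real.exp_pos _).le,
      ← Real.exp_nat_mul]
    congr 3; ring
  simp_rw [hterm]
  rw [ENNReal.tsum_mul_left, ENNReal.tsum_geometric]
  have he : Real.exp (-τ) ≤ 1 / (1 + τ) := by
    rw [Real.exp_neg, ← one_div]
    apply one_div_le_one_div_of_le (by linarith)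
    linarith [Real.add_one_le_exp τ]
  have h1 : ENNReal.ofReal (τ / (1 + τ)) ≤ 1 - ENNReal.ofReal (Real.exp (-τ)) := by
    rw [← ENNReal.ofReal_one, ← ENNReal.ofReal_sub _ (Real.exp_pos _).le]
    apply ENNReal.ofReal_le_ofReal
    have : τ / (1 + τ) = 1 - 1 / (1 + τ) := by field_simp; ring
    linarith
  have h2 : (1 - ENNReal.ofReal (Real.exp (-τ)))⁻¹ ≤ ENNReal.ofReal ((1 + τ) / τ) := by
    refine le_trans (ENNReal.inv_le_inv.2 h1) ?_
    rw [← ENNReal.ofReal_inv_of_pos (by positivity), inv_div]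
  calc ENNReal.ofReal (τ / 4) * (1 - ENNReal.ofReal (Real.exp (-τ)))⁻¹
      ≤ ENNReal.ofReal (τ / 4) * ENNReal.ofReal ((1 + τ) / τ) := by gcongr
    _ = ENNReal.ofReal ((1 + τ) / 4) := by
        rw [← ENNReal.ofReal_mul (by positivity)]
        congr 1; field_simp
    _ ≤ ENNReal.ofReal (1 / 2) := ENNReal.ofReal_le_ofReal (by linarith)
    _ = 2⁻¹ := by
        rw [one_div, ENNReal.ofReal_inv_of_pos (by norm_num)]
        norm_num

lemma wt_sum (τ : ℝ) (hτ : 0 < τ) (hτ1 : τ ≤ 1) : ∑' n : ℤ, wt τ n ≤ 1 := by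
  rw [tsum_of_nat_of_neg_add_one ENNReal.summable ENNReal.summable]
  have h1 : ∑' n : ℕ, wt τ (n : ℤ) ≤ 2⁻¹ := by
    refine le_trans (le_of_eq ?_) (wt_nat_sum τ hτ hτ1)
    congr 1; ext n
    unfold wt
    simp
  have h2 : ∑' n : ℕ, wt τ (-((n : ℤ) + 1)) ≤ 2⁻¹ := by
    refine le_trans (ENNReal.tsum_le_tsum fun n => ?_) (wt_nat_sum τ hτ hτ1)
    unfold wt
    apply ENNReal.ofReal_le_ofReal
    gcongr
    push_cast
    rw [abs_neg, abs_of_nonneg (by positivity)]
    linarith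
  calc _ ≤ (2⁻¹ : ℝ≥0∞) + 2⁻¹ := add_le_add h1 h2
    _ = 1 := ENNReal.inv_two_add_inv_two

lemma wt_prod_sum (τ : ℝ) (hτ : 0 < τ) (hτ1 : τ ≤ 1) (k : ℕ) :
    ∑' c : Fin k → ℤ, ∏ j, wt τ (c j) ≤ 1 := by
  set ν : Measure ℤ := Measure.count.withDensity (wt τ) with hν
  have hν1 : ν univ ≤ 1 := by
    rw [hν, withDensity_apply _ MeasurableSet.univ, Measure.restrict_univ, lintegral_count]
    exact wt_sum τ hτ hτ1
  have hνs : ∀ n : ℤ, ν {n} = wt τ n := by
    intro n
    rw [hν, withDensity_apply _ (measurableSet_singleton n), lintegral_singleton]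
    simp
  have : IsFiniteMeasure ν := ⟨lt_of_le_of_lt hν1 ENNReal.one_lt_top⟩
  have h1 : ∀ c : Fin k → ℤ, ∏ j, wt τ (c j) = (Measure.pi fun _ : Fin k => ν) {c} := by
    intro c
    rw [Measure.pi_singleton]
    simp_rw [hνs]
  simp_rw [h1]
  have h2 := Measure.tsum_indicator_apply_singleton (Measure.pi fun _ : Fin k => ν) univ
    MeasurableSet.univ
  simp only [mem_univ, indicator_of_mem] at h2
  rw [h2, Measure.pi_univ]
  exact Finset.prod_le_one (fun _ _ => zero_le) (fun _ _ => hν1)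

end Vale.Agent.P309
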