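import Mathlib
import Vale.Agent.P309.Cells

/-!
# P309: regular cells
-/

namespace Vale.Agent.P309

open MeasureTheory ProbabilityTheory Metric Set Module
open scoped ENNReal NNReal RealInnerProductSpace

variable {E : Type*} [NormedAddCommGroup E] [InnerProductSpace ℝ E] [FiniteDimensional ℝ E]
  [MeasurableSpace E] [BorelSpace E]

/-- mass of the cell of `s` -/
noncomputable def pc (P : Measure E) (τ : ℝ) {k : ℕ} (q : (Fin k → E) × E) : ℝ≥0∞ :=
  P {s' | cell τ q.1 s' = cell τ q.1 q.2}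

/-- mass of the part of the cell of `s` close to `s` -/
noncomputable def pb (P : Measure E) (τ ρ : ℝ) {k : ℕ} (q : (Fin k → E) × E) : ℝ≥0∞ :=
  P {s' | dist s' q.2 ≤ ρ ∧ cell τ q.1 s' = cell τ q.1 q.2}

lemma measurableSet_same (τ : ℝ) (k : ℕ) :
    MeasurableSet {r : ((Fin k → E) × E) × E | cell τ r.1.1 r.2 = cell τ r.1.1 r.1.2} := by
  have h1 : Measurable (fun r : ((Fin k → E) × E) × E => cell τ r.1.1 r.2) :=
    (measurable_cell τ k).comp (measurable_fst.fst.prodMk measurable_snd)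
  have h2 : Measurable (fun r : ((Fin k → E) × E) × E => cell τ r.1.1 r.1.2) :=
    (measurable_cell τ k).comp measurable_fst
  exact measurableSet_eq_fun h1 h2

lemma measurable_pc (P : Measure E) [SFinite P] (τ : ℝ) (k : ℕ) :
    Measurable (pc P τ : (Fin k → E) × E → ℝ≥0∞) :=
  measurable_measure_prodMk_left (measurableSet_same τ k)

lemma measurable_pb (P : Measure E) [SFinite P] (τ ρ : ℝ) (k : ℕ) :
    Measurable (pb P τ ρ : (Fin k → E) × E → ℝ≥0∞) := by
  have h1 : MeasurableSet {r : ((Fin k → E) × E) × E | dist r.2 r.1.2 ≤ ρ} :=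
    measurableSet_le (by fun_prop) measurable_const
  exact measurable_measure_prodMk_left (h1.inter (measurableSet_same τ k))

/-- exponential tail -/
lemma exp_tail (k : ℕ) (s : E) (hs : ‖s‖ ≤ 1) :
    rows E k {X | 3 * (k : ℝ) < ∑ j, |⟪s, X j⟫|} ≤ (2⁻¹ : ℝ≥0∞) ^ k := by
  have hf : Measurable (fun x : E => ENNReal.ofReal (Real.exp |⟪s, x⟫|)) := by fun_prop
  have hprod : ∀ X : Fin k → E, ∏ j, ENNReal.ofReal (Real.exp |⟪s, X j⟫|)
      = ENNReal.ofReal (Real.exp (∑ j, |⟪s, X j⟫|)) := by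
    intro X
    rw [Real.exp_sum, ENNReal.ofReal_prod_of_nonneg (fun _ _ => (Real.exp_pos _).le)]
  have hint : ∫⁻ X : Fin k → E, ∏ j, ENNReal.ofReal (Real.exp |⟪s, X j⟫|) ∂(rows E k)
      ≤ ENNReal.ofReal (2 * Real.exp (1 / 2)) ^ k := by
    unfold rows
    rw [lintegral_pi_prod _ (fun x : E => ENNReal.ofReal (Real.exp |⟪s, x⟫|)) hf k]
    gcongr
    exact gaussian_exp s hs
  have hm0 : Measurable (fun X : Fin k → E => ∏ j, ENNReal.ofReal (Real.exp |⟪s, X j⟫|)) :=
    Finset.measurable_prod _ fun j _ => hf.comp (measurable_pi_apply j)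
  have hm : AEMeasurable (fun X : Fin k → E => ∏ j, ENNReal.ofReal (Real.exp |⟪s, X j⟫|))
      (rows E k) := hm0.aemeasurable
  have hmarkov := mul_meas_ge_le_lintegral₀ hm (ENNReal.ofReal (Real.exp (3 * (k : ℝ))))
  have hsub : {X : Fin k → E | 3 * (k : ℝ) < ∑ j, |⟪s, X j⟫|} ⊆
      {X | ENNReal.ofReal (Real.exp (3 * (k : ℝ)))
        ≤ ∏ j, ENNReal.ofReal (Real.exp |⟪s, X j⟫|)} := by
    intro X hX
    simp only [mem_ofPred_eq] at hX ⊢
    rw [hprod]
    apply ENNReal.ofReal_le_ofReal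
    exact Real.exp_le_exp.2 hX.le
  have hpos : ENNReal.ofReal (Real.exp (3 * (k : ℝ))) ≠ 0 := by
    rw [Ne, ENNReal.ofReal_eq_zero, not_le]; exact Real.exp_pos _
  have h1 : ENNReal.ofReal (Real.exp (3 * (k : ℝ))) * rows E k {X | 3 * (k : ℝ) < ∑ j, |⟪s, X j⟫|}
      ≤ ENNReal.ofReal (Real.exp (3 * (k : ℝ))) * (2⁻¹ : ℝ≥0∞) ^ k := by
    calc _ ≤ ENNReal.ofReal (Real.exp (3 * (k : ℝ))) * rows E k
          {X | ENNReal.ofReal (Real.exp (3 * (k : ℝ)))
            ≤ ∏ j, ENNReal.ofReal (Real.exp |⟪s, X j⟫|)} := by gcongr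
      _ ≤ _ := hmarkov
      _ ≤ _ := hint
      _ ≤ (ENNReal.ofReal (Real.exp 3) * 2⁻¹) ^ k := by
          gcongr
          have h2 : (2⁻¹ : ℝ≥0∞) = ENNReal.ofReal (1 / 2) := by
            rw [one_div, ENNReal.ofReal_inv_of_pos (by norm_num)]; norm_num
          rw [h2, ← ENNReal.ofReal_mul (Real.exp_pos _).le]
          apply ENNReal.ofReal_le_ofReal
          have h3 : Real.exp 3 = Real.exp (1 / 2) * Real.exp (5 / 2) := by
            rw [← Real.exp_add]; norm_num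
          have h4 : (4 : ℝ) ≤ Real.exp (5 / 2) := by
            have h5 : Real.exp (5 / 2) = Real.exp (1 / 2) * (Real.exp 1 * Real.exp 1) := by
              rw [← Real.exp_add, ← Real.exp_add]; norm_num
            have h6 : (1 : ℝ) ≤ Real.exp (1 / 2) := Real.one_le_exp (by norm_num)
            have h7 := Real.exp_one_gt_d9
            rw [h5]
            nlinarith [mul_pos (Real.exp_pos 1) (Real.exp_pos 1)]
          rw [h3]
          have h8 := Real.exp_pos (1 / 2)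
          nlinarith
      _ = _ := by
          rw [mul_pow, ← ENNReal.ofReal_pow (Real.exp_pos _).le, ← Real.exp_nat_mul, mul_comm (3 : ℝ)]
  exact (ENNReal.mul_le_mul_iff_right hpos ENNReal.ofReal_ne_top).1 h1

omit [FiniteDimensional ℝ E] [MeasurableSpace E] [BorelSpace E] in
/-- lower bound for the weight of a cell -/
lemma weight_low (τ : ℝ) (hτ : 0 < τ) (hτ1 : τ ≤ 1) (k : ℕ) (X : Fin k → E) (s : E)
    (h : ∑ j, |⟪s, X j⟫| ≤ 3 * (k : ℝ)) :
    ENNReal.ofReal (τ / 256) ^ k ≤ ∏ j, wt τ (cell τ X s j) := by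
  unfold wt
  rw [← ENNReal.ofReal_prod_of_nonneg (fun _ _ => by positivity),
    ← ENNReal.ofReal_pow (by positivity)]
  apply ENNReal.ofReal_le_ofReal
  rw [Finset.prod_mul_distrib, Finset.prod_const, Finset.card_univ, Fintype.card_fin,
    ← Real.exp_sum]
  have h1 : ∑ j : Fin k, τ * |((cell τ X s j : ℤ) : ℝ)| ≤ 4 * k := by
    have h2 : ∀ j : Fin k, τ * |((cell τ X s j : ℤ) : ℝ)| ≤ |⟪s, X j⟫| + 1 := by
      intro j
      unfold cell
      have h3 := Int.floor_le (⟪X j, s⟫ / τ)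
      have h4 := Int.lt_floor_add_one (⟪X j, s⟫ / τ)
      have h5 : |((⌊⟪X j, s⟫ / τ⌋ : ℤ) : ℝ)| ≤ |⟪X j, s⟫ / τ| + 1 := by
        have h6 : ((⌊⟪X j, s⟫ / τ⌋ : ℤ) : ℝ) = ⟪X j, s⟫ / τ + (((⌊⟪X j, s⟫ / τ⌋ : ℤ) : ℝ) - ⟪X j, s⟫ / τ) := by
          ring
        rw [h6]
        refine le_trans (abs_add_le _ _) ?_
        gcongr
        rw [abs_le]
        constructor <;> linarith
      calc τ * |((⌊⟪X j, s⟫ / τ⌋ : ℤ) : ℝ)| ≤ τ * (|⟪X j, s⟫ / τ| + 1) := by gcongr
        _ = |⟪X j, s⟫| + τ := by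
            rw [abs_div, abs_of_pos hτ]; field_simp
        _ ≤ |⟪s, X j⟫| + 1 := by rw [real_inner_comm]; gcongr
    calc _ ≤ ∑ j : Fin k, (|⟪s, X j⟫| + 1) := Finset.sum_le_sum fun j _ => h2 j
      _ = ∑ j : Fin k, |⟪s, X j⟫| + k := by simp [Finset.sum_add_distrib]
      _ ≤ 4 * k := by linarith
  have h5 : Real.exp (-(4 * (k : ℝ))) ≤ Real.exp (∑ j : Fin k, -(τ * |((cell τ X s j : ℤ) : ℝ)|)) := by
    apply Real.exp_le_exp.2
    rw [Finset.sum_neg_distrib]
    linarith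
  refine le_trans ?_ (mul_le_mul_of_nonneg_left h5 (by positivity))
  have h6 : Real.exp (-(4 * (k : ℝ))) = (Real.exp (-4)) ^ k := by
    rw [← Real.exp_nat_mul]; congr 1; ring
  rw [h6, ← mul_pow]
  apply pow_le_pow_left₀ (by positivity)
  have h7 : (1 / 64 : ℝ) ≤ Real.exp (-4) := by
    rw [Real.exp_neg, ← one_div]
    apply one_div_le_one_div_of_le (Real.exp_pos _)
    have h8 : Real.exp 4 = Real.exp 1 * Real.exp 1 * (Real.exp 1 * Real.exp 1) := by
      rw [← Real.exp_add, ← Real.exp_add]; norm_num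
    have h9 := Real.exp_one_lt_d9
    have h10 := Real.exp_pos 1
    have h11 : Real.exp 1 * Real.exp 1 ≤ 8 := by nlinarith
    have h12 : 0 < Real.exp 1 * Real.exp 1 := by positivity
    rw [h8]
    nlinarith
  nlinarith

/-- light cells are rare -/
lemma light_cells (P : Measure E) [IsProbabilityMeasure P] (hP : P (closedBall 0 1)ᶜ = 0)
    (τ : ℝ) (hτ : 0 < τ) (hτ1 : τ ≤ 1) (k : ℕ) (θ : ℝ≥0∞) :
    ((rows E k).prod P) {q | pc P τ q < θ * ENNReal.ofReal (τ / 256) ^ k}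
      ≤ θ + (2⁻¹ : ℝ≥0∞) ^ k := by
  set A : Set ((Fin k → E) × E) := {q | pc P τ q < θ * ∏ j, wt τ (cell τ q.1 q.2 j)} with hA
  set B : Set ((Fin k → E) × E) := {q | 3 * (k : ℝ) < ∑ j, |⟪q.2, q.1 j⟫|} with hB
  have hwtm : Measurable (fun q : (Fin k → E) × E => ∏ j, wt τ (cell τ q.1 q.2 j)) := by
    have h1 : Measurable (fun c : Fin k → ℤ => ∏ j, wt τ (c j)) := measurable_of_countable _
    exact h1.comp (measurable_cell τ k)
  have hAm : MeasurableSet A := measurableSet_lt (measurable_pc P τ k) (hwtm.const_mul θ)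
  have hBm : MeasurableSet B := by
    apply measurableSet_lt measurable_const
    fun_prop
  have hsub : {q : (Fin k → E) × E | pc P τ q < θ * ENNReal.ofReal (τ / 256) ^ k} ⊆ A ∪ B := by
    intro q hq
    by_cases hqB : q ∈ B
    · exact Or.inr hqB
    · left
      have h1 : ∑ j, |⟪q.2, q.1 j⟫| ≤ 3 * (k : ℝ) := not_lt.1 hqB
      have h2 := weight_low τ hτ hτ1 k q.1 q.2 h1
      have hq' : pc P τ q < θ * ENNReal.ofReal (τ / 256) ^ k := hq
      refine lt_of_lt_of_le hq' ?_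
      gcongr
  refine le_trans (measure_mono hsub) (le_trans (measure_union_le _ _) ?_)
  gcongr
  · -- part A
    rw [Measure.prod_apply hAm]
    have hX : ∀ X : Fin k → E, P (Prod.mk X ⁻¹' A) ≤ θ := by
      intro X
      have hcover : Prod.mk X ⁻¹' A ⊆ ⋃ c : Fin k → ℤ, {s | cell τ X s = c ∧
          P {s' | cell τ X s' = c} < θ * ∏ j, wt τ (c j)} := by
        intro s hs
        rw [mem_iUnion]
        exact ⟨cell τ X s, rfl, hs⟩
      calc P (Prod.mk X ⁻¹' A) ≤ P (⋃ c : Fin k → ℤ, {s | cell τ X s = c ∧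
          P {s' | cell τ X s' = c} < θ * ∏ j, wt τ (c j)}) := measure_mono hcover
        _ ≤ ∑' c : Fin k → ℤ, P {s | cell τ X s = c ∧
          P {s' | cell τ X s' = c} < θ * ∏ j, wt τ (c j)} := measure_iUnion_le _
        _ ≤ ∑' c : Fin k → ℤ, θ * ∏ j, wt τ (c j) := by
            apply ENNReal.tsum_le_tsum
            intro c
            by_cases hc : P {s' | cell τ X s' = c} < θ * ∏ j, wt τ (c j)
            · exact le_trans (measure_mono fun s hs => hs.1) hc.le
            · have : {s | cell τ X s = c ∧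
                P {s' | cell τ X s' = c} < θ * ∏ j, wt τ (c j)} = ∅ := by
                ext s; simp [hc]
              rw [this, measure_empty]
              exact zero_le
        _ ≤ θ := by
            rw [ENNReal.tsum_mul_left]
            calc θ * _ ≤ θ * 1 := by gcongr; exact wt_prod_sum τ hτ hτ1 k
              _ = θ := mul_one _
    calc ∫⁻ X, P (Prod.mk X ⁻¹' A) ∂(rows E k) ≤ ∫⁻ _, θ ∂(rows E k) := lintegral_mono hX
      _ = θ := by simp
  · -- part B
    rw [Measure.prod_apply_symm hBm]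
    have hae : ∀ᵐ s ∂P, ‖s‖ ≤ 1 := by
      rw [ae_iff]
      convert hP using 2
      ext s; simp
    calc ∫⁻ s, rows E k ((fun X => (X, s)) ⁻¹' B) ∂P ≤ ∫⁻ _, (2⁻¹ : ℝ≥0∞) ^ k ∂P := by
          apply lintegral_mono_ae
          filter_upwards [hae] with s hs
          exact exp_tail k s hs
      _ = _ := by simp

/-- the kernel integral -/
lemma kernel_integral (P : Measure E) [IsProbabilityMeasure P] (k : ℕ) (hk : 1 ≤ k)
    (hF : ∀ y : E, ∀ j : ℕ, P (closedBall y ((1 / 2) ^ j)) ≤ 2 * (2⁻¹ : ℝ≥0∞) ^ (4 * k * j))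
    (τ : ℝ) (hτ : 0 < τ) (s : E) :
    ∫⁻ s' in closedBall s ((1 / 2) ^ 9), rows E k {X | cell τ X s' = cell τ X s} ∂P
      ≤ ENNReal.ofReal τ ^ k * (2 ^ (k + 2) * (2⁻¹ : ℝ≥0∞) ^ (27 * k)) := by
  have hcover : closedBall s ((1 / 2) ^ 9) ⊆ {s} ∪ ⋃ j : ℕ,
      (closedBall s ((1 / 2) ^ (9 + j)) \ closedBall s ((1 / 2) ^ (9 + j + 1))) := by
    intro s' hs'
    by_cases hne : s' = s
    · left; exact hne
    · right
      have hd : 0 < dist s' s := dist_pos.2 hne
      have hex : ∃ j : ℕ, (1 / 2 : ℝ) ^ (9 + j + 1) < dist s' s := by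
        obtain ⟨j, hj⟩ := exists_pow_lt_of_lt_one hd (by norm_num : (1 / 2 : ℝ) < 1)
        refine ⟨j, lt_of_le_of_lt ?_ hj⟩
        exact pow_le_pow_of_le_one (by norm_num) (by norm_num) (by omega)
      classical
      have hspec := Nat.find_spec hex
      rw [mem_iUnion]
      refine ⟨Nat.find hex, ?_, ?_⟩
      · rw [mem_closedBall]
        rcases Nat.eq_zero_or_pos (Nat.find hex) with h0 | h0
        · rw [h0, add_zero]; exact hs'
        · obtain ⟨i, hi⟩ := Nat.exists_eq_succ_of_ne_zero h0.ne'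
          have := Nat.find_min hex (m := i) (by omega)
          rw [not_lt] at this
          rw [hi]
          exact this
      · rw [mem_closedBall, not_le]
        exact hspec
  have hsing : P {s} = 0 := by
    have h1 : ∀ j : ℕ, P {s} ≤ 2 * (2⁻¹ : ℝ≥0∞) ^ j := by
      intro j
      refine le_trans (measure_mono (t := closedBall s ((1 / 2) ^ j)) ?_) (le_trans (hF s j) ?_)
      · intro x hx
        rw [mem_singleton_iff] at hx
        rw [hx]
        exact mem_closedBall_self (by positivity)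
      · refine mul_le_mul_right (pow_le_pow_right_of_le_one' (by simp) ?_) 2
        nlinarith
    by_contra hne
    have hlim : Filter.Tendsto (fun j : ℕ => 2 * (2⁻¹ : ℝ≥0∞) ^ j) Filter.atTop (nhds (2 * 0)) := by
      apply ENNReal.Tendsto.const_mul
      · exact ENNReal.tendsto_pow_atTop_nhds_zero_of_lt_one (by
          rw [ENNReal.inv_lt_one]; exact ENNReal.one_lt_two)
      · right; exact ENNReal.ofNat_ne_top
    rw [mul_zero] at hlim
    exact hne (le_antisymm (ge_of_tendsto' hlim h1) zero_le)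
  calc ∫⁻ s' in closedBall s ((1 / 2) ^ 9), rows E k {X | cell τ X s' = cell τ X s} ∂P
      ≤ ∫⁻ s' in {s} ∪ ⋃ j : ℕ,
        (closedBall s ((1 / 2) ^ (9 + j)) \ closedBall s ((1 / 2) ^ (9 + j + 1))),
          rows E k {X | cell τ X s' = cell τ X s} ∂P := lintegral_mono_set hcover
    _ ≤ ∫⁻ s' in {s}, rows E k {X | cell τ X s' = cell τ X s} ∂P
        + ∫⁻ s' in ⋃ j : ℕ,
        (closedBall s ((1 / 2) ^ (9 + j)) \ closedBall s ((1 / 2) ^ (9 + j + 1))),
          rows E k {X | cell τ X s' = cell τ X s} ∂P := lintegral_union_le _ _ _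
    _ ≤ 0 + ∑' j : ℕ, ∫⁻ s' in
        (closedBall s ((1 / 2) ^ (9 + j)) \ closedBall s ((1 / 2) ^ (9 + j + 1))),
          rows E k {X | cell τ X s' = cell τ X s} ∂P := by
        gcongr
        · rw [setLIntegral_measure_zero _ _ hsing]
        · exact lintegral_iUnion_le _ _
    _ ≤ ∑' j : ℕ, ENNReal.ofReal τ ^ k * (2 ^ (k + 1) * (2⁻¹ : ℝ≥0∞) ^ (27 * k) *
          (2⁻¹ : ℝ≥0∞) ^ j) := by
        rw [zero_add]
        apply ENNReal.tsum_le_tsum
        intro j
        have hb : ∀ s' ∈ (closedBall s ((1 / 2) ^ (9 + j)) \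
            closedBall s ((1 / 2) ^ (9 + j + 1))), rows E k {X | cell τ X s' = cell τ X s}
              ≤ ENNReal.ofReal (τ * 2 ^ (10 + j)) ^ k := by
          rintro s' ⟨-, hs'⟩
          rw [mem_closedBall, not_le] at hs'
          have hne : s' ≠ s := by
            intro h
            rw [h, dist_self] at hs'
            have : (0 : ℝ) < (1 / 2) ^ (9 + j + 1) := by positivity
            linarith
          refine le_trans (cell_prob_single s' s τ hτ hne) ?_
          gcongr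
          rw [dist_eq_norm] at hs'
          have hpos : 0 < ‖s' - s‖ := norm_pos_iff.2 (sub_ne_zero.2 hne)
          rw [div_le_iff₀ hpos]
          have h1 : (1 : ℝ) ≤ 2 ^ (10 + j) * ‖s' - s‖ := by
            have h2 : (2 : ℝ) ^ (10 + j) * (1 / 2) ^ (9 + j + 1) = 1 := by
              rw [show 9 + j + 1 = 10 + j by ring, ← mul_pow]; norm_num
            calc (1 : ℝ) = 2 ^ (10 + j) * (1 / 2) ^ (9 + j + 1) := h2.symm
              _ ≤ 2 ^ (10 + j) * ‖s' - s‖ := by gcongr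
          nlinarith
        calc _ ≤ ∫⁻ _ in (closedBall s ((1 / 2) ^ (9 + j)) \
            closedBall s ((1 / 2) ^ (9 + j + 1))), ENNReal.ofReal (τ * 2 ^ (10 + j)) ^ k ∂P :=
              setLIntegral_mono' (measurableSet_closedBall.diff measurableSet_closedBall) hb
          _ = ENNReal.ofReal (τ * 2 ^ (10 + j)) ^ k * P (closedBall s ((1 / 2) ^ (9 + j)) \
            closedBall s ((1 / 2) ^ (9 + j + 1))) := by rw [setLIntegral_const]
          _ ≤ ENNReal.ofReal (τ * 2 ^ (10 + j)) ^ k * (2 * (2⁻¹ : ℝ≥0∞) ^ (4 * k * (9 + j))) := by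
              gcongr
              exact le_trans (measure_mono sdiff_subset) (hF s (9 + j))
          _ ≤ _ := by
              rw [ENNReal.ofReal_mul hτ.le, mul_pow, mul_assoc]
              refine mul_le_mul_right ?_ _
              have h3 : ENNReal.ofReal ((2 : ℝ) ^ (10 + j)) = (2 : ℝ≥0∞) ^ (10 + j) := by
                rw [ENNReal.ofReal_pow (by norm_num)]; norm_num
              rw [h3, ← pow_mul]
              have h4 : (2 : ℝ≥0∞) ^ ((10 + j) * k) * (2⁻¹ : ℝ≥0∞) ^ ((9 + j) * k) = 2 ^ k := by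
                rw [show (10 + j) * k = k + (9 + j) * k by ring, pow_add, mul_assoc, ← mul_pow,
                  ENNReal.mul_inv_cancel (by norm_num) (by norm_num), one_pow, mul_one]
              have h5 : (2⁻¹ : ℝ≥0∞) ^ (4 * k * (9 + j))
                  = (2⁻¹ : ℝ≥0∞) ^ ((9 + j) * k) * (2⁻¹ : ℝ≥0∞) ^ (3 * k * (9 + j)) := by
                rw [← pow_add]; congr 1; ring
              calc (2 : ℝ≥0∞) ^ ((10 + j) * k) * (2 * (2⁻¹ : ℝ≥0∞) ^ (4 * k * (9 + j)))
                  = ((2 : ℝ≥0∞) ^ ((10 + j) * k) * (2⁻¹ : ℝ≥0∞) ^ ((9 + j) * k)) * 2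
                    * (2⁻¹ : ℝ≥0∞) ^ (3 * k * (9 + j)) := by rw [h5]; ring
                _ = 2 ^ (k + 1) * (2⁻¹ : ℝ≥0∞) ^ (3 * k * (9 + j)) := by rw [h4, pow_succ]
                _ ≤ 2 ^ (k + 1) * ((2⁻¹ : ℝ≥0∞) ^ (27 * k) * (2⁻¹ : ℝ≥0∞) ^ j) := by
                    refine mul_le_mul_right ?_ _
                    rw [← pow_add]
                    refine pow_le_pow_right_of_le_one' (by simp) ?_
                    nlinarith
                _ = 2 ^ (k + 1) * (2⁻¹ : ℝ≥0∞) ^ (27 * k) * (2⁻¹ : ℝ≥0∞) ^ j := by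
                    rw [mul_assoc]
    _ = ENNReal.ofReal τ ^ k * (2 ^ (k + 2) * (2⁻¹ : ℝ≥0∞) ^ (27 * k)) := by
        rw [ENNReal.tsum_mul_left, ENNReal.tsum_mul_left, ENNReal.tsum_geometric_two]
        ring

/-- cells with a heavy small part are rare -/
lemma heavy_balls (P : Measure E) [IsProbabilityMeasure P] (k : ℕ) (hk : 1 ≤ k)
    (hF : ∀ y : E, ∀ j : ℕ, P (closedBall y ((1 / 2) ^ j)) ≤ 2 * (2⁻¹ : ℝ≥0∞) ^ (4 * k * j))
    (τ : ℝ) (hτ : 0 < τ) :
    ((rows E k).prod P) {q | ENNReal.ofReal τ ^ k * (2 ^ (2 * k + 2) * (2⁻¹ : ℝ≥0∞) ^ (27 * k))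
      ≤ pb P τ ((1 / 2) ^ 9) q} ≤ (2⁻¹ : ℝ≥0∞) ^ k := by
  have hint : ∫⁻ q, pb P τ ((1 / 2) ^ 9) q ∂((rows E k).prod P)
      ≤ ENNReal.ofReal τ ^ k * (2 ^ (k + 2) * (2⁻¹ : ℝ≥0∞) ^ (27 * k)) := by
    rw [lintegral_prod_symm' _ (measurable_pb P τ _ k)]
    have hs : ∀ s : E, ∫⁻ X, pb P τ ((1 / 2) ^ 9) (X, s) ∂(rows E k)
        ≤ ENNReal.ofReal τ ^ k * (2 ^ (k + 2) * (2⁻¹ : ℝ≥0∞) ^ (27 * k)) := by
      intro s
      refine le_trans (le_of_eq ?_) (kernel_integral P k hk hF τ hτ s)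
      have hm : MeasurableSet {q : (Fin k → E) × E | dist q.2 s ≤ (1 / 2 : ℝ) ^ 9 ∧
          cell τ q.1 q.2 = cell τ q.1 s} := by
        have h1 : MeasurableSet {q : (Fin k → E) × E | dist q.2 s ≤ (1 / 2 : ℝ) ^ 9} :=
          measurableSet_le (by fun_prop) measurable_const
        have h2 : MeasurableSet {q : (Fin k → E) × E | cell τ q.1 q.2 = cell τ q.1 s} :=
          measurableSet_eq_fun (measurable_cell τ k)
            ((measurable_cell τ k).comp (measurable_fst.prodMk measurable_const))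
        exact h1.inter h2
      calc ∫⁻ X, pb P τ ((1 / 2) ^ 9) (X, s) ∂(rows E k)
          = ((rows E k).prod P) {q : (Fin k → E) × E | dist q.2 s ≤ (1 / 2 : ℝ) ^ 9 ∧
          cell τ q.1 q.2 = cell τ q.1 s} := by
            rw [Measure.prod_apply hm]; rfl
        _ = ∫⁻ s', rows E k ((fun X => (X, s')) ⁻¹' {q : (Fin k → E) × E |
          dist q.2 s ≤ (1 / 2 : ℝ) ^ 9 ∧ cell τ q.1 q.2 = cell τ q.1 s}) ∂P :=
            Measure.prod_apply_symm hm
        _ = ∫⁻ s' in closedBall s ((1 / 2) ^ 9), rows E k {X | cell τ X s' = cell τ X s} ∂P := by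
            rw [← lintegral_indicator measurableSet_closedBall]
            congr 1; ext s'
            by_cases h : s' ∈ closedBall s ((1 / 2) ^ 9)
            · rw [indicator_of_mem h]
              congr 1; ext X
              have h' : dist s' s ≤ (1 / 2 : ℝ) ^ 9 := h
              simp only [mem_preimage, mem_ofPred_eq, h', true_and]
            · rw [indicator_of_notMem h]
              have h' : ¬ dist s' s ≤ (1 / 2 : ℝ) ^ 9 := h
              have : ((fun X => (X, s')) ⁻¹' {q : (Fin k → E) × E |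
                dist q.2 s ≤ (1 / 2 : ℝ) ^ 9 ∧ cell τ q.1 q.2 = cell τ q.1 s}) = ∅ := by
                ext X
                simp only [mem_preimage, mem_ofPred_eq, h', false_and, mem_empty_iff_false]
              rw [this, measure_empty]
    calc _ ≤ ∫⁻ _, ENNReal.ofReal τ ^ k * (2 ^ (k + 2) * (2⁻¹ : ℝ≥0∞) ^ (27 * k)) ∂P :=
          lintegral_mono hs
      _ = _ := by simp
  have hmarkov := mul_meas_ge_le_lintegral (μ := (rows E k).prod P)
    (measurable_pb P τ ((1 / 2) ^ 9) k)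
    (ENNReal.ofReal τ ^ k * (2 ^ (2 * k + 2) * (2⁻¹ : ℝ≥0∞) ^ (27 * k)))
  have hpos : ENNReal.ofReal τ ^ k * (2 ^ (2 * k + 2) * (2⁻¹ : ℝ≥0∞) ^ (27 * k)) ≠ 0 := by
    have h1 : ENNReal.ofReal τ ≠ 0 := by
      rw [Ne, ENNReal.ofReal_eq_zero, not_le]; exact hτ
    refine mul_ne_zero (pow_ne_zero _ h1) (mul_ne_zero (pow_ne_zero _ (by norm_num))
      (pow_ne_zero _ (by simp)))
  have hfin : ENNReal.ofReal τ ^ k * (2 ^ (2 * k + 2) * (2⁻¹ : ℝ≥0∞) ^ (27 * k)) ≠ ⊤ := by
    refine ENNReal.mul_ne_top (ENNReal.pow_ne_top ENNReal.ofReal_ne_top)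
      (ENNReal.mul_ne_top (ENNReal.pow_ne_top (by norm_num)) (ENNReal.pow_ne_top (by simp)))
  rw [← ENNReal.mul_le_mul_iff_right hpos hfin]
  refine le_trans hmarkov (le_trans hint ?_)
  have h4 : (2 : ℝ≥0∞) ^ k * (2⁻¹ : ℝ≥0∞) ^ k = 1 := by
    rw [← mul_pow, ENNReal.mul_inv_cancel (by norm_num) (by norm_num), one_pow]
  apply le_of_eq
  calc ENNReal.ofReal τ ^ k * (2 ^ (k + 2) * (2⁻¹ : ℝ≥0∞) ^ (27 * k))
      = ENNReal.ofReal τ ^ k * (2 ^ (k + 2) * (2⁻¹ : ℝ≥0∞) ^ (27 * k)) * (2 ^ k * (2⁻¹) ^ k) := by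
        rw [h4, mul_one]
    _ = _ := by rw [show 2 * k + 2 = (k + 2) + k by ring, pow_add 2 (k + 2) k]; ring

end Vale.Agent.P309
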