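import Mathlib
import Vale.Agent.P309.Regular

/-!
# P309: the core estimate for a block of samples
-/

namespace Vale.Agent.P309

open MeasureTheory ProbabilityTheory Metric Set Module
open scoped ENNReal NNReal RealInnerProductSpace

lemma two_mul_half_pow (a : ℕ) : (2 : ℝ≥0∞) ^ a * (2⁻¹ : ℝ≥0∞) ^ a = 1 := by
  rw [← mul_pow, ENNReal.mul_inv_cancel (by norm_num) (by norm_num), one_pow]

lemma pow_two_half {a b c : ℕ} (h : a + c ≤ b) :
    (2 : ℝ≥0∞) ^ a * (2⁻¹ : ℝ≥0∞) ^ b ≤ (2⁻¹ : ℝ≥0∞) ^ c := by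
  calc (2 : ℝ≥0∞) ^ a * (2⁻¹ : ℝ≥0∞) ^ b ≤ (2 : ℝ≥0∞) ^ a * (2⁻¹ : ℝ≥0∞) ^ (a + c) :=
        mul_le_mul_right (pow_le_pow_right_of_le_one' (by simp) h) _
    _ = (2⁻¹ : ℝ≥0∞) ^ c := by rw [pow_add, ← mul_assoc, two_mul_half_pow, one_mul]

lemma ofReal_half_pow (m : ℕ) : ENNReal.ofReal ((1 / 2) ^ m) = (2⁻¹ : ℝ≥0∞) ^ m := by
  rw [ENNReal.ofReal_pow (by norm_num)]
  congr 1
  rw [one_div, ENNReal.ofReal_inv_of_pos (by norm_num)]
  norm_num

lemma ofReal_two_pow (m : ℕ) : ENNReal.ofReal (2 ^ m) = (2 : ℝ≥0∞) ^ m := by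
  rw [ENNReal.ofReal_pow (by norm_num)]
  norm_num

variable {E : Type*} [NormedAddCommGroup E] [InnerProductSpace ℝ E] [FiniteDimensional ℝ E]
  [MeasurableSpace E] [BorelSpace E]

/-- the moment computation: a dense cell produces many generic tuples -/
lemma dense_cell (P : Measure E) [IsProbabilityMeasure P] (k m : ℕ) (hk : 1 ≤ k)
    (Wc S : Set E) (hWc : MeasurableSet Wc) (hsub : Wc ⊆ S) (hb : ∀ s ∈ Wc, ‖s‖ ≤ 1)
    (h1 : Wc.Nonempty → (2⁻¹ : ℝ≥0∞) ^ k * ((2⁻¹ : ℝ≥0∞) ^ (m + 8)) ^ k ≤ P S)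
    (h2 : ∀ s ∈ Wc, P (closedBall s ((1 / 2) ^ 9) ∩ S) ≤
      ((2⁻¹ : ℝ≥0∞) ^ m) ^ k * (2 ^ (2 * k + 2) * (2⁻¹ : ℝ≥0∞) ^ (27 * k))) :
    P Wc ≤ (2⁻¹ : ℝ≥0∞) ^ k * P S + 2 ^ (k ^ 2 * (m + 10) + k + 1) *
      (Measure.pi fun _ : Fin (k + 1) => P) {t | (∀ l, t l ∈ Wc) ∧ Gen ((1 / 2) ^ 11) t} := by
  by_cases hd : P Wc ≤ (2⁻¹ : ℝ≥0∞) ^ k * P S
  · exact le_trans hd le_self_add
  rw [not_le] at hd
  have hne : Wc.Nonempty := by
    by_contra hcon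
    rw [Set.not_nonempty_iff_eq_empty] at hcon
    rw [hcon, measure_empty] at hd
    exact not_lt_zero hd
  have hS := h1 hne
  have hlow : (2⁻¹ : ℝ≥0∞) ^ (k * (m + 10)) ≤ P Wc := by
    calc (2⁻¹ : ℝ≥0∞) ^ (k * (m + 10))
        = (2⁻¹ : ℝ≥0∞) ^ k * ((2⁻¹ : ℝ≥0∞) ^ k * ((2⁻¹ : ℝ≥0∞) ^ (m + 8)) ^ k) := by
          rw [← pow_mul, ← pow_add, ← pow_add]; congr 1; ring
      _ ≤ (2⁻¹ : ℝ≥0∞) ^ k * P S := mul_le_mul_right hS _
      _ ≤ P Wc := hd.le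
  have hnear : ∀ V : Submodule ℝ E, finrank ℝ V ≤ k →
      P (Wc ∩ {s | ∃ p ∈ V, ‖s - p‖ < (1 / 2) ^ 11}) ≤ P Wc / 2 := by
    intro V hV
    have h3 := measure_near P V k hV ((1 / 2) ^ 9) (by positivity) (by norm_num) Wc S hsub hb _ h2
    have h4 : ((1 / 2 : ℝ) ^ 9) / 4 = (1 / 2) ^ 11 := by norm_num
    rw [h4] at h3
    refine le_trans h3 ?_
    have h5 : ENNReal.ofReal ((8 / (1 / 2 : ℝ) ^ 9) ^ k) = 2 ^ (12 * k) := by
      rw [show (8 / (1 / 2 : ℝ) ^ 9) = 2 ^ 12 by norm_num, ← pow_mul, ofReal_two_pow]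
    rw [h5]
    calc (2 : ℝ≥0∞) ^ (12 * k) * (((2⁻¹ : ℝ≥0∞) ^ m) ^ k
          * (2 ^ (2 * k + 2) * (2⁻¹ : ℝ≥0∞) ^ (27 * k)))
        = 2 ^ (14 * k + 2) * (2⁻¹ : ℝ≥0∞) ^ (m * k + 27 * k) := by
          rw [← pow_mul, pow_add (2⁻¹ : ℝ≥0∞), show 14 * k + 2 = 12 * k + (2 * k + 2) by ring,
            pow_add 2 (12 * k)]
          ring
      _ ≤ (2⁻¹ : ℝ≥0∞) ^ (k * (m + 10) + 1) := by
          apply pow_two_half
          nlinarith
      _ ≤ P Wc / 2 := by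
          rw [pow_succ, ENNReal.div_eq_inv_mul, mul_comm]
          exact mul_le_mul_right hlow _
  have hgen := generic_mass P k ((1 / 2) ^ 11) Wc hWc hnear (k + 1) le_rfl
  refine le_trans ?_ le_add_self
  calc P Wc = 2 ^ (k ^ 2 * (m + 10) + k + 1) *
        (P Wc * (2⁻¹ : ℝ≥0∞) ^ (k ^ 2 * (m + 10) + k + 1)) := by
        rw [mul_left_comm, two_mul_half_pow, mul_one]
    _ ≤ 2 ^ (k ^ 2 * (m + 10) + k + 1) * (P Wc / 2) ^ (k + 1) := by
        refine mul_le_mul_right ?_ _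
        rw [ENNReal.div_eq_inv_mul, mul_pow, pow_succ (P Wc), mul_comm (P Wc ^ k) (P Wc)]
        calc P Wc * (2⁻¹ : ℝ≥0∞) ^ (k ^ 2 * (m + 10) + k + 1)
            = (2⁻¹ : ℝ≥0∞) ^ (k + 1) * (P Wc * ((2⁻¹ : ℝ≥0∞) ^ (k * (m + 10))) ^ k) := by
              rw [← pow_mul, show k ^ 2 * (m + 10) + k + 1 = (k + 1) + k * (m + 10) * k by ring,
                pow_add]
              ring
          _ ≤ (2⁻¹ : ℝ≥0∞) ^ (k + 1) * (P Wc * P Wc ^ k) := by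
              refine mul_le_mul_right (mul_le_mul_right ?_ _) _
              exact pow_le_pow_left' hlow k
    _ ≤ _ := mul_le_mul_right hgen _

/-- the core estimate -/
lemma block_core {ι : Type*} [Fintype ι] (P : Measure E) [IsProbabilityMeasure P]
    (hP : P (closedBall 0 1)ᶜ = 0) (k : ℕ) (hk : 1 ≤ k)
    (hF : ∀ y : E, ∀ j : ℕ, P (closedBall y ((1 / 2) ^ j)) ≤ 2 * (2⁻¹ : ℝ≥0∞) ^ (4 * k * j))
    (W : ι → Set E) (hWm : ∀ i, MeasurableSet (W i))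
    (hW : ∀ i, P (W i) ≤ (2⁻¹ : ℝ≥0∞) ^ (22 * k + 1)) (hι : Fintype.card ι ≤ 2 ^ (k ^ 2))
    (m : ℕ) (D : Set ((Fin k → E) × E)) (hD : MeasurableSet D) (hDb : ∀ q ∈ D, ‖q.2‖ ≤ 1)
    (hDW : ∀ X : Fin k → E, ∀ s₀, (X, s₀) ∈ D → ∃ i, ∀ s, cell ((1 / 2) ^ m) X s
      = cell ((1 / 2) ^ m) X s₀ → (X, s) ∈ D → s ∈ W i) :
    ((rows E k).prod P) D ≤ 5 * (2⁻¹ : ℝ≥0∞) ^ k := by
  set τ : ℝ := (1 / 2) ^ m with hτdef
  have hτ : 0 < τ := by positivity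
  have hτ1 : τ ≤ 1 := pow_le_one₀ (by norm_num) (by norm_num)
  have hτo : ENNReal.ofReal τ = (2⁻¹ : ℝ≥0∞) ^ m := ofReal_half_pow m
  have hτ256 : ENNReal.ofReal (τ / 256) = (2⁻¹ : ℝ≥0∞) ^ (m + 8) := by
    rw [← ofReal_half_pow]
    congr 1
    rw [hτdef, pow_add]
    norm_num
    ring
  set Bad : Set ((Fin k → E) × E) :=
    {q | pc P τ q < (2⁻¹ : ℝ≥0∞) ^ k * ENNReal.ofReal (τ / 256) ^ k} ∪
    {q | ENNReal.ofReal τ ^ k * (2 ^ (2 * k + 2) * (2⁻¹ : ℝ≥0∞) ^ (27 * k))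
      ≤ pb P τ ((1 / 2) ^ 9) q} with hBad
  have hBadm : MeasurableSet Bad := by
    apply MeasurableSet.union
    · exact measurableSet_lt (measurable_pc P τ k) measurable_const
    · exact measurableSet_le measurable_const (measurable_pb P τ _ k)
  have hBad3 : ((rows E k).prod P) Bad ≤ 3 * (2⁻¹ : ℝ≥0∞) ^ k := by
    calc ((rows E k).prod P) Bad ≤ ((2⁻¹ : ℝ≥0∞) ^ k + (2⁻¹ : ℝ≥0∞) ^ k) + (2⁻¹ : ℝ≥0∞) ^ k := by
          refine le_trans (measure_union_le _ _) ?_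
          exact add_le_add (light_cells P hP τ hτ hτ1 k _) (heavy_balls P k hk hF τ hτ)
      _ = 3 * (2⁻¹ : ℝ≥0∞) ^ k := by ring
  have hDB : MeasurableSet (D \ Bad) := hD.diff hBadm
  -- the pieces
  set Wc : (Fin k → E) → (Fin k → ℤ) → Set E := fun X c => {s | cell τ X s = c ∧ (X, s) ∈ D \ Bad}
    with hWc
  have hcellm : ∀ X : Fin k → E, Measurable (fun s : E => cell τ X s) := fun X =>
    (measurable_cell τ k).comp (measurable_const.prodMk measurable_id)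
  have hcm : ∀ X : Fin k → E, ∀ c : Fin k → ℤ, MeasurableSet {s : E | cell τ X s = c} :=
    fun X c => (hcellm X) (measurableSet_singleton c)
  have hWcm : ∀ X c, MeasurableSet (Wc X c) := fun X c =>
    (hcm X c).inter (measurable_prodMk_left hDB)
  set Q : (Fin k → E) → (Fin k → ℤ) → ℝ≥0∞ := fun X c =>
    (Measure.pi fun _ : Fin (k + 1) => P) {t | (∀ l, t l ∈ Wc X c) ∧ Gen ((1 / 2) ^ 11) t} with hQ
  have hA : ∀ X c, P (Wc X c) ≤ (2⁻¹ : ℝ≥0∞) ^ k * P {s | cell τ X s = c} +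
      2 ^ (k ^ 2 * (m + 10) + k + 1) * Q X c := by
    intro X c
    apply dense_cell P k m hk (Wc X c) {s | cell τ X s = c} (hWcm X c)
    · intro s hs; exact hs.1
    · intro s hs; exact hDb _ hs.2.1
    · rintro ⟨s, hs1, -, hs3⟩
      have h3 : ¬ (pc P τ (X, s) < (2⁻¹ : ℝ≥0∞) ^ k * ENNReal.ofReal (τ / 256) ^ k) :=
        fun h => hs3 (Or.inl h)
      rw [not_lt, hτ256] at h3
      have h4 : pc P τ (X, s) = P {s | cell τ X s = c} := by
        unfold pc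
        simp only
        rw [hs1]
      rwa [h4] at h3
    · rintro s ⟨hs1, -, hs3⟩
      have h3 : ¬ (ENNReal.ofReal τ ^ k * (2 ^ (2 * k + 2) * (2⁻¹ : ℝ≥0∞) ^ (27 * k))
        ≤ pb P τ ((1 / 2) ^ 9) (X, s)) := fun h => hs3 (Or.inr h)
      rw [not_le, hτo] at h3
      refine le_trans (le_of_eq ?_) h3.le
      unfold pb
      simp only
      rw [hs1]
      rfl
  -- sum over the cells
  have hsplit : ∀ X, P (Prod.mk X ⁻¹' (D \ Bad)) = ∑' c, P (Wc X c) := by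
    intro X
    have : Prod.mk X ⁻¹' (D \ Bad) = ⋃ c, Wc X c := by
      ext s
      rw [mem_iUnion]
      constructor
      · intro hs; exact ⟨cell τ X s, rfl, hs⟩
      · rintro ⟨c, hc⟩; exact hc.2
    rw [this, measure_iUnion _ (hWcm X)]
    intro c c' hne
    rw [Function.onFun, Set.disjoint_left]
    rintro s ⟨h1, -⟩ ⟨h2, -⟩
    exact hne (h1.symm.trans h2)
  have hone : ∀ X, ∑' c : Fin k → ℤ, P {s | cell τ X s = c} = 1 := by
    intro X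
    rw [← measure_iUnion _ (hcm X)]
    · have : (⋃ c : Fin k → ℤ, {s : E | cell τ X s = c}) = univ := by
        ext s; simp
      rw [this, measure_univ]
    · intro c c' hne
      rw [Function.onFun, Set.disjoint_left]
      intro s h1 h2
      exact hne (Eq.trans (Eq.symm h1) h2)
  -- the tuples
  set GG : Set ((Fin k → E) × (Fin (k + 1) → E)) := {q | Gen ((1 / 2) ^ 11) q.2 ∧
    (∃ i, ∀ l, q.2 l ∈ W i) ∧ ∀ l, cell τ q.1 (q.2 l) = cell τ q.1 (q.2 0)} with hGG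
  have hWtm : MeasurableSet {t : Fin (k + 1) → E | ∃ i, ∀ l, t l ∈ W i} := by
    have : {t : Fin (k + 1) → E | ∃ i, ∀ l, t l ∈ W i}
        = ⋃ i, ⋂ l, (fun t : Fin (k + 1) → E => t l) ⁻¹' (W i) := by ext; simp
    rw [this]
    exact MeasurableSet.iUnion fun i => MeasurableSet.iInter fun l =>
      (measurable_pi_apply l) (hWm i)
  have hGGm : MeasurableSet GG := by
    have h1 : GG = (Prod.snd ⁻¹' {t : Fin (k + 1) → E | Gen ((1 / 2) ^ 11) t}) ∩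
        ((Prod.snd ⁻¹' {t : Fin (k + 1) → E | ∃ i, ∀ l, t l ∈ W i}) ∩
        ⋂ l, {q | cell τ q.1 (q.2 l) = cell τ q.1 (q.2 0)}) := by
      ext q; simp [hGG]
    rw [h1]
    refine (measurable_snd (isClosed_gen _ _).measurableSet).inter
      ((measurable_snd hWtm).inter (MeasurableSet.iInter fun l => ?_))
    have h2 : ∀ l : Fin (k + 1), Measurable (fun q : (Fin k → E) × (Fin (k + 1) → E) =>
        cell τ q.1 (q.2 l)) := by
      intro l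
      have h3 : Measurable (fun q : (Fin k → E) × (Fin (k + 1) → E) => (q.1, q.2 l)) := by
        fun_prop
      exact (measurable_cell τ k).comp h3
    exact measurableSet_eq_fun (h2 l) (h2 0)
  have hsumQ : ∀ X, ∑' c, Q X c ≤ (Measure.pi fun _ : Fin (k + 1) => P) (Prod.mk X ⁻¹' GG) := by
    intro X
    have hm : ∀ c, MeasurableSet {t : Fin (k + 1) → E | (∀ l, t l ∈ Wc X c) ∧
        Gen ((1 / 2) ^ 11) t} := by
      intro c
      have h1 : {t : Fin (k + 1) → E | (∀ l, t l ∈ Wc X c) ∧ Gen ((1 / 2) ^ 11) t}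
          = (⋂ l, (fun t : Fin (k + 1) → E => t l) ⁻¹' (Wc X c)) ∩
            {t : Fin (k + 1) → E | Gen ((1 / 2) ^ 11) t} := by
        ext; simp
      rw [h1]
      exact (MeasurableSet.iInter fun l => (measurable_pi_apply l) (hWcm X c)).inter
        (isClosed_gen _ _).measurableSet
    rw [hQ]
    simp only
    rw [← measure_iUnion _ hm]
    · apply measure_mono
      intro t ht
      rw [mem_iUnion] at ht
      obtain ⟨c, ht1, ht2⟩ := ht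
      refine ⟨ht2, ?_, ?_⟩
      · have h0 := ht1 0
        obtain ⟨i, hi⟩ := hDW X (t 0) h0.2.1
        refine ⟨i, fun l => hi (t l) ?_ (ht1 l).2.1⟩
        rw [(ht1 l).1, h0.1]
      · intro l
        exact ((ht1 l).1).trans ((ht1 0).1).symm
    · intro c c' hne
      rw [Function.onFun, Set.disjoint_left]
      rintro t ⟨h1, -⟩ ⟨h2, -⟩
      exact hne ((h1 0).1.symm.trans (h2 0).1)
  have hB : ∫⁻ X, (Measure.pi fun _ : Fin (k + 1) => P) (Prod.mk X ⁻¹' GG) ∂(rows E k)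
      ≤ (2 ^ (k ^ 2) * (2⁻¹ : ℝ≥0∞) ^ ((22 * k + 1) * (k + 1))) *
        (2 ^ (11 * k ^ 2) * (2⁻¹ : ℝ≥0∞) ^ (m * k ^ 2)) := by
    rw [← Measure.prod_apply hGGm, Measure.prod_apply_symm hGGm]
    have hτρ : ENNReal.ofReal (τ / (1 / 2) ^ 11) ^ (k * k)
        = 2 ^ (11 * k ^ 2) * (2⁻¹ : ℝ≥0∞) ^ (m * k ^ 2) := by
      have h1 : τ / (1 / 2) ^ 11 = 2 ^ 11 * (1 / 2) ^ m := by
        rw [hτdef]; ring
      rw [h1, ENNReal.ofReal_mul (by positivity), ofReal_two_pow, ofReal_half_pow, mul_pow,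
        ← pow_mul, ← pow_mul]
      congr 2 <;> ring
    have hpt : ∀ t : Fin (k + 1) → E, rows E k ((fun X => (X, t)) ⁻¹' GG) ≤
        {t : Fin (k + 1) → E | ∃ i, ∀ l, t l ∈ W i}.indicator
          (fun _ => 2 ^ (11 * k ^ 2) * (2⁻¹ : ℝ≥0∞) ^ (m * k ^ 2)) t := by
      intro t
      by_cases ht : Gen ((1 / 2) ^ 11) t ∧ ∃ i, ∀ l, t l ∈ W i
      · rw [indicator_of_mem (show t ∈ {t : Fin (k + 1) → E | ∃ i, ∀ l, t l ∈ W i} from ht.2),
          ← hτρ]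
        refine le_trans (measure_mono ?_) (cell_prob_tuple t τ ((1 / 2) ^ 11) hτ (by positivity)
          ht.1)
        intro X hX
        exact hX.2.2
      · have : (fun X => (X, t)) ⁻¹' GG = ∅ := by
          ext X
          simp only [mem_preimage, mem_empty_iff_false, iff_false]
          rintro ⟨h1, h2, -⟩
          exact ht ⟨h1, h2⟩
        rw [this, measure_empty]
        exact zero_le
    refine le_trans (lintegral_mono hpt) ?_
    rw [lintegral_indicator_const hWtm, mul_comm]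
    refine mul_le_mul_left ?_ _
    have h1 : {t : Fin (k + 1) → E | ∃ i, ∀ l, t l ∈ W i}
        = ⋃ i, Set.univ.pi (fun _ : Fin (k + 1) => W i) := by ext; simp
    rw [h1]
    calc (Measure.pi fun _ : Fin (k + 1) => P) (⋃ i, Set.univ.pi (fun _ : Fin (k + 1) => W i))
        ≤ ∑ i, (Measure.pi fun _ : Fin (k + 1) => P) (Set.univ.pi (fun _ : Fin (k + 1) => W i)) :=
          measure_iUnion_fintype_le _ _
      _ ≤ ∑ _i : ι, (2⁻¹ : ℝ≥0∞) ^ ((22 * k + 1) * (k + 1)) := by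
          refine Finset.sum_le_sum fun i _ => ?_
          rw [Measure.pi_pi, Finset.prod_const, Finset.card_univ, Fintype.card_fin, pow_mul]
          exact pow_le_pow_left' (hW i) _
      _ = (Fintype.card ι : ℝ≥0∞) * (2⁻¹ : ℝ≥0∞) ^ ((22 * k + 1) * (k + 1)) := by
          simp
      _ ≤ _ := by
          refine mul_le_mul_left ?_ _
          calc (Fintype.card ι : ℝ≥0∞) ≤ ((2 ^ (k ^ 2) : ℕ) : ℝ≥0∞) := by exact_mod_cast hι
            _ = 2 ^ (k ^ 2) := by push_cast; rfl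
  -- conclusion
  have hmain : ((rows E k).prod P) (D \ Bad) ≤ 2 * (2⁻¹ : ℝ≥0∞) ^ k := by
    rw [Measure.prod_apply hDB]
    calc ∫⁻ X, P (Prod.mk X ⁻¹' (D \ Bad)) ∂(rows E k)
        ≤ ∫⁻ X, ((2⁻¹ : ℝ≥0∞) ^ k + 2 ^ (k ^ 2 * (m + 10) + k + 1) *
          (Measure.pi fun _ : Fin (k + 1) => P) (Prod.mk X ⁻¹' GG)) ∂(rows E k) := by
          apply lintegral_mono
          intro X
          simp only
          rw [hsplit X]
          calc ∑' c, P (Wc X c) ≤ ∑' c, ((2⁻¹ : ℝ≥0∞) ^ k * P {s | cell τ X s = c} +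
                2 ^ (k ^ 2 * (m + 10) + k + 1) * Q X c) := ENNReal.tsum_le_tsum (hA X)
            _ = (2⁻¹ : ℝ≥0∞) ^ k + 2 ^ (k ^ 2 * (m + 10) + k + 1) * ∑' c, Q X c := by
                rw [ENNReal.tsum_add, ENNReal.tsum_mul_left, ENNReal.tsum_mul_left, hone, mul_one]
            _ ≤ _ := by
                refine add_le_add le_rfl (mul_le_mul_right (hsumQ X) _)
      _ = (2⁻¹ : ℝ≥0∞) ^ k + 2 ^ (k ^ 2 * (m + 10) + k + 1) *
          ∫⁻ X, (Measure.pi fun _ : Fin (k + 1) => P) (Prod.mk X ⁻¹' GG) ∂(rows E k) := by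
          rw [lintegral_add_left measurable_const, lintegral_const_mul' _ _
            (ENNReal.pow_ne_top (by norm_num))]
          simp
      _ ≤ (2⁻¹ : ℝ≥0∞) ^ k + 2 ^ (k ^ 2 * (m + 10) + k + 1) *
          ((2 ^ (k ^ 2) * (2⁻¹ : ℝ≥0∞) ^ ((22 * k + 1) * (k + 1))) *
            (2 ^ (11 * k ^ 2) * (2⁻¹ : ℝ≥0∞) ^ (m * k ^ 2))) := by
          refine add_le_add le_rfl (mul_le_mul_right hB _)
      _ = (2⁻¹ : ℝ≥0∞) ^ k + 2 ^ ((k ^ 2 * (m + 10) + k + 1) + k ^ 2 + 11 * k ^ 2) *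
          (2⁻¹ : ℝ≥0∞) ^ ((22 * k + 1) * (k + 1) + m * k ^ 2) := by
          rw [pow_add (2 : ℝ≥0∞) _ (11 * k ^ 2), pow_add (2 : ℝ≥0∞) _ (k ^ 2),
            pow_add (2⁻¹ : ℝ≥0∞) _ (m * k ^ 2)]
          ring
      _ ≤ (2⁻¹ : ℝ≥0∞) ^ k + (2⁻¹ : ℝ≥0∞) ^ k := by
          refine add_le_add le_rfl (pow_two_half ?_)
          nlinarith
      _ = 2 * (2⁻¹ : ℝ≥0∞) ^ k := by ring
  calc ((rows E k).prod P) D ≤ ((rows E k).prod P) (Bad ∪ (D \ Bad)) := by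
        apply measure_mono
        intro q hq
        by_cases h : q ∈ Bad
        · exact Or.inl h
        · exact Or.inr ⟨hq, h⟩
    _ ≤ 3 * (2⁻¹ : ℝ≥0∞) ^ k + 2 * (2⁻¹ : ℝ≥0∞) ^ k :=
        le_trans (measure_union_le _ _) (add_le_add hBad3 hmain)
    _ = 5 * (2⁻¹ : ℝ≥0∞) ^ k := by ring

end Vale.Agent.P309
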