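import Mathlib
import Vale.Agent.P309.Core

/-!
# P309: the block estimate for arbitrary measurable memory maps
-/

namespace Vale.Agent.P309

open MeasureTheory ProbabilityTheory Metric Set Module
open scoped ENNReal NNReal RealInnerProductSpace

variable {E : Type*} [NormedAddCommGroup E] [InnerProductSpace ℝ E] [FiniteDimensional ℝ E]
  [MeasurableSpace E] [BorelSpace E]

/-- the labels of `s` -/
noncomputable def labels {k : ℕ} (X : Fin k → E) (s : E) : Fin k → ℝ := fun j => ⟪X j, s⟫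

lemma measurable_labels (k : ℕ) :
    Measurable (fun q : (Fin k → E) × E => (q.1, labels q.1 q.2)) := by
  unfold labels
  fun_prop

/-- block estimate on the unit ball -/
lemma block_unit {ι : Type*} [Fintype ι] [MeasurableSpace ι] [MeasurableSingletonClass ι]
    (P : Measure E) [IsProbabilityMeasure P]
    (hP : P (closedBall 0 1)ᶜ = 0) (k : ℕ) (hk : 1 ≤ k)
    (hF : ∀ y : E, ∀ j : ℕ, P (closedBall y ((1 / 2) ^ j)) ≤ 2 * (2⁻¹ : ℝ≥0∞) ^ (4 * k * j))
    (W : ι → Set E) (hWm : ∀ i, MeasurableSet (W i))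
    (hW : ∀ i, P (W i) ≤ (2⁻¹ : ℝ≥0∞) ^ (22 * k + 1)) (hι : Fintype.card ι ≤ 2 ^ (k ^ 2))
    (f : (Fin k → E) × (Fin k → ℝ) → ι) (hf : Measurable f) :
    ((rows E k).prod P) {q | q.2 ∈ W (f (q.1, labels q.1 q.2))} ≤ 6 * (2⁻¹ : ℝ≥0∞) ^ k := by
  set ν : Measure ((Fin k → E) × (Fin k → ℝ)) :=
    ((rows E k).prod P).map (fun q => (q.1, labels q.1 q.2)) with hν
  have hνp : IsProbabilityMeasure ν :=
    Measure.isProbabilityMeasure_map (measurable_labels k).aemeasurable
  set ε : ℝ≥0∞ := (2⁻¹ : ℝ≥0∞) ^ k / (Fintype.card ι + 1) with hε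
  have hε0 : ε ≠ 0 := by
    rw [hε]
    refine ENNReal.div_ne_zero.2 ⟨pow_ne_zero _ (by simp), ?_⟩
    exact ENNReal.add_ne_top.2 ⟨ENNReal.natCast_ne_top _, ENNReal.one_ne_top⟩
  have hK : ∀ i : ι, ∃ K ⊆ f ⁻¹' {i}, IsCompact K ∧ ν ((f ⁻¹' {i}) \ K) < ε := by
    intro i
    exact MeasurableSet.exists_isCompact_sdiff_lt (hf (measurableSet_singleton i))
      (measure_ne_top _ _) hε0
  choose K hKsub hKc hKν using hK
  -- separation
  have hsep : ∃ m : ℕ, ∀ i j : ι, i ≠ j → ∀ x ∈ K i, ∀ y ∈ K j, (1 / 2 : ℝ) ^ m < dist x y := by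
    have hlim : Filter.Tendsto (fun m : ℕ => (1 / 2 : ℝ) ^ m) Filter.atTop (nhds 0) :=
      tendsto_pow_atTop_nhds_zero_of_lt_one (by norm_num) (by norm_num)
    have h1 : ∀ i j : ι, ∀ᶠ m : ℕ in Filter.atTop, i ≠ j → ∀ x ∈ K i, ∀ y ∈ K j,
        (1 / 2 : ℝ) ^ m < dist x y := by
      intro i j
      by_cases hij : i = j
      · exact Filter.Eventually.of_forall fun m h => absurd hij h
      · have hdisj : Disjoint (K i) (K j) := by
          rw [Set.disjoint_left]
          intro x hx hy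
          have h2 : f x = i := hKsub i hx
          have h3 : f x = j := hKsub j hy
          exact hij (h2.symm.trans h3)
        obtain ⟨δ, hδ, hdis⟩ := hdisj.exists_thickenings (hKc i) (hKc j).isClosed
        filter_upwards [hlim.eventually (gt_mem_nhds hδ)] with m hm _ x hx y hy
        by_contra hcon
        rw [not_lt] at hcon
        have h4 : y ∈ thickening δ (K i) := by
          rw [mem_thickening_iff]
          exact ⟨x, hx, by rw [dist_comm]; exact lt_of_le_of_lt hcon hm⟩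
        have h5 : y ∈ thickening δ (K j) := self_subset_thickening hδ _ hy
        exact Set.disjoint_left.1 hdis h4 h5
    have h2 : ∀ᶠ m : ℕ in Filter.atTop, ∀ i j : ι, i ≠ j → ∀ x ∈ K i, ∀ y ∈ K j,
        (1 / 2 : ℝ) ^ m < dist x y := by
      rw [Filter.eventually_all]
      intro i
      rw [Filter.eventually_all]
      exact h1 i
    exact h2.exists
  obtain ⟨m, hm⟩ := hsep
  set D : Set ((Fin k → E) × E) :=
    {q | ‖q.2‖ ≤ 1 ∧ ∃ i, (q.1, labels q.1 q.2) ∈ K i ∧ q.2 ∈ W i} with hD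
  have hDm : MeasurableSet D := by
    have h1 : D = {q : (Fin k → E) × E | ‖q.2‖ ≤ 1} ∩
        ⋃ i, ((fun q : (Fin k → E) × E => (q.1, labels q.1 q.2)) ⁻¹' (K i)) ∩
          (Prod.snd ⁻¹' (W i)) := by
      ext q; simp [hD]
    rw [h1]
    refine (measurableSet_le (by fun_prop) measurable_const).inter
      (MeasurableSet.iUnion fun i => ?_)
    exact ((measurable_labels k) (hKc i).measurableSet).inter (measurable_snd (hWm i))
  have hcore := block_core P hP k hk hF W hWm hW hι m D hDm (fun q hq => hq.1) (by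
    rintro X s₀ ⟨_, i₀, h1, h2⟩
    refine ⟨i₀, ?_⟩
    rintro s hs ⟨_, i, h3, h4⟩
    have hii : i = i₀ := by
      by_contra hne
      have h5 := hm i i₀ hne _ h3 _ h1
      have h6 : dist ((X, labels X s) : (Fin k → E) × (Fin k → ℝ)) (X, labels X s₀)
          ≤ (1 / 2) ^ m := by
        rw [Prod.dist_eq, dist_self]
        simp only
        apply max_le (by positivity)
        rw [dist_pi_le_iff (by positivity)]
        intro j
        have h7 := cell_eq (τ := (1 / 2) ^ m) (by positivity) hs j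
        rw [Real.dist_eq]
        unfold labels
        rw [← inner_sub_right, real_inner_comm]
        exact h7.le
      linarith
    rw [← hii]; exact h4)
  have hcomp : ((rows E k).prod P) {q | (q.1, labels q.1 q.2) ∉ ⋃ i, K i}
      ≤ (2⁻¹ : ℝ≥0∞) ^ k := by
    have h1 : ((rows E k).prod P) {q | (q.1, labels q.1 q.2) ∉ ⋃ i, K i}
        = ν (⋃ i, K i)ᶜ := by
      rw [hν, Measure.map_apply (measurable_labels k)
        (MeasurableSet.iUnion fun i => (hKc i).measurableSet).compl]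
      rfl
    rw [h1]
    have h2 : (⋃ i, K i)ᶜ ⊆ ⋃ i, (f ⁻¹' {i}) \ K i := by
      intro x hx
      rw [mem_compl_iff, mem_iUnion, not_exists] at hx
      rw [mem_iUnion]
      exact ⟨f x, rfl, hx (f x)⟩
    calc ν (⋃ i, K i)ᶜ ≤ ν (⋃ i, (f ⁻¹' {i}) \ K i) := measure_mono h2
      _ ≤ ∑ i, ν ((f ⁻¹' {i}) \ K i) := measure_iUnion_fintype_le _ _
      _ ≤ ∑ _i : ι, ε := Finset.sum_le_sum fun i _ => (hKν i).le
      _ = (Fintype.card ι : ℝ≥0∞) * ε := by simp
      _ ≤ (Fintype.card ι + 1) * ε := by gcongr; exact le_self_add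
      _ = (2⁻¹ : ℝ≥0∞) ^ k := by
          rw [hε]
          exact ENNReal.mul_div_cancel (by simp) (ENNReal.add_ne_top.2
            ⟨ENNReal.natCast_ne_top _, ENNReal.one_ne_top⟩)
  have hball : ((rows E k).prod P) {q | q.2 ∈ (closedBall (0 : E) 1)ᶜ} = 0 := by
    have h1 : {q : (Fin k → E) × E | q.2 ∈ (closedBall (0 : E) 1)ᶜ}
        = univ ×ˢ (closedBall (0 : E) 1)ᶜ := by ext q; simp
    rw [h1, Measure.prod_prod, hP, mul_zero]
  calc ((rows E k).prod P) {q | q.2 ∈ W (f (q.1, labels q.1 q.2))}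
      ≤ ((rows E k).prod P) ((D ∪ {q | (q.1, labels q.1 q.2) ∉ ⋃ i, K i}) ∪
          {q | q.2 ∈ (closedBall (0 : E) 1)ᶜ}) := by
        apply measure_mono
        intro q hq
        by_cases h1 : q.2 ∈ (closedBall (0 : E) 1)ᶜ
        · exact Or.inr h1
        left
        by_cases h2 : (q.1, labels q.1 q.2) ∉ ⋃ i, K i
        · exact Or.inr h2
        left
        rw [not_not, mem_iUnion] at h2
        obtain ⟨i, hi⟩ := h2
        have h3 : f (q.1, labels q.1 q.2) = i := hKsub i hi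
        refine ⟨?_, i, hi, ?_⟩
        · rw [mem_compl_iff, not_not, mem_closedBall, dist_zero_right] at h1
          exact h1
        · rw [← h3]; exact hq
    _ ≤ (5 * (2⁻¹ : ℝ≥0∞) ^ k + (2⁻¹ : ℝ≥0∞) ^ k) + 0 := by
        refine le_trans (measure_union_le _ _) (add_le_add ?_ hball.le)
        exact le_trans (measure_union_le _ _) (add_le_add hcore hcomp)
    _ = 6 * (2⁻¹ : ℝ≥0∞) ^ k := by ring

/-- block estimate on an arbitrary ball -/
lemma block_ball {ι : Type*} [Fintype ι] [MeasurableSpace ι] [MeasurableSingletonClass ι]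
    (P : Measure E) [IsProbabilityMeasure P] (z : E) (δ : ℝ) (hδ : 0 < δ)
    (hP : P (closedBall z δ)ᶜ = 0) (k : ℕ) (hk : 1 ≤ k)
    (hF : ∀ y : E, ∀ j : ℕ, P (closedBall y (δ * (1 / 2) ^ j)) ≤ 2 * (2⁻¹ : ℝ≥0∞) ^ (4 * k * j))
    (W : ι → Set E) (hWm : ∀ i, MeasurableSet (W i))
    (hW : ∀ i, P (W i) ≤ (2⁻¹ : ℝ≥0∞) ^ (22 * k + 1)) (hι : Fintype.card ι ≤ 2 ^ (k ^ 2))
    (f : (Fin k → E) × (Fin k → ℝ) → ι) (hf : Measurable f) :
    ((rows E k).prod P) {q | q.2 ∈ W (f (q.1, labels q.1 q.2))} ≤ 6 * (2⁻¹ : ℝ≥0∞) ^ k := by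
  have hφm : Measurable (fun s : E => δ⁻¹ • (s - z)) := by fun_prop
  have hψm : Measurable (fun u : E => z + δ • u) := by fun_prop
  have hinv : ∀ s : E, z + δ • (δ⁻¹ • (s - z)) = s := by
    intro s
    rw [smul_smul, mul_inv_cancel₀ hδ.ne', one_smul]; abel
  have hdist : ∀ s y : E, dist (δ⁻¹ • (s - z)) y = δ⁻¹ * dist s (z + δ • y) := by
    intro s y
    rw [dist_eq_norm, dist_eq_norm]
    have : δ⁻¹ • (s - z) - y = δ⁻¹ • (s - (z + δ • y)) := by
      rw [← sub_sub, smul_sub, smul_sub δ⁻¹ (s - z), smul_smul, inv_mul_cancel₀ hδ.ne', one_smul]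
      rw [smul_sub]
    rw [this, norm_smul, Real.norm_of_nonneg (inv_nonneg.2 hδ.le)]
  set P' : Measure E := P.map (fun s : E => δ⁻¹ • (s - z)) with hP'
  have hP'p : IsProbabilityMeasure P' := Measure.isProbabilityMeasure_map hφm.aemeasurable
  have hball : ∀ y : E, ∀ r : ℝ, P' (closedBall y r) = P (closedBall (z + δ • y) (δ * r)) := by
    intro y r
    rw [hP', Measure.map_apply hφm measurableSet_closedBall]
    congr 1
    ext s
    rw [mem_preimage, mem_closedBall, mem_closedBall, hdist, inv_mul_le_iff₀ hδ]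
  have h1 : P' (closedBall 0 1)ᶜ = 0 := by
    rw [prob_compl_eq_zero_iff measurableSet_closedBall, hball, smul_zero, add_zero, mul_one,
      ← prob_compl_eq_zero_iff measurableSet_closedBall]
    exact hP
  have h2 : ∀ y : E, ∀ j : ℕ, P' (closedBall y ((1 / 2) ^ j))
      ≤ 2 * (2⁻¹ : ℝ≥0∞) ^ (4 * k * j) := by
    intro y j
    rw [hball]
    exact hF _ j
  have h3 : ∀ i, MeasurableSet ((fun u : E => z + δ • u) ⁻¹' (W i)) := fun i => hψm (hWm i)
  have h4 : ∀ i, P' ((fun u : E => z + δ • u) ⁻¹' (W i)) ≤ (2⁻¹ : ℝ≥0∞) ^ (22 * k + 1) := by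
    intro i
    rw [hP', Measure.map_apply hφm (h3 i)]
    convert hW i using 2
    ext s
    simp only [mem_preimage]
    rw [hinv]
  set f' : (Fin k → E) × (Fin k → ℝ) → ι := fun q => f (q.1, fun j => ⟪q.1 j, z⟫ + δ * q.2 j)
    with hf'
  have h5 : Measurable f' := by
    apply hf.comp
    fun_prop
  have hmain := block_unit P' h1 k hk h2 (fun i => (fun u : E => z + δ • u) ⁻¹' (W i)) h3 h4 hι
    f' h5
  refine le_trans (le_of_eq ?_) hmain
  have hprod : (rows E k).prod P' = ((rows E k).prod P).map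
      (Prod.map id (fun s : E => δ⁻¹ • (s - z))) := by
    rw [hP', ← Measure.map_prod_map _ _ measurable_id hφm, Measure.map_id]
  have hm2 : MeasurableSet {q : (Fin k → E) × E |
      q.2 ∈ (fun u : E => z + δ • u) ⁻¹' (W (f' (q.1, labels q.1 q.2)))} := by
    have : {q : (Fin k → E) × E |
      q.2 ∈ (fun u : E => z + δ • u) ⁻¹' (W (f' (q.1, labels q.1 q.2)))}
        = ⋃ i, ((fun q : (Fin k → E) × E => f' (q.1, labels q.1 q.2)) ⁻¹' {i}) ∩
          (Prod.snd ⁻¹' ((fun u : E => z + δ • u) ⁻¹' (W i))) := by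
      ext q; simp
    rw [this]
    exact MeasurableSet.iUnion fun i => ((h5.comp (measurable_labels k))
      (measurableSet_singleton i)).inter (measurable_snd (h3 i))
  rw [hprod, Measure.map_apply (measurable_id.prodMap hφm) hm2]
  congr 1
  ext q
  simp only [mem_ofPred_eq, mem_preimage, Prod.map_fst, Prod.map_snd, id, hf']
  rw [hinv]
  have h6 : (fun j => ⟪q.1 j, z⟫ + δ * labels q.1 (δ⁻¹ • (q.2 - z)) j) = labels q.1 q.2 := by
    ext j
    unfold labels
    rw [real_inner_smul_right, inner_sub_right]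
    field_simp
    ring
  rw [h6]

end Vale.Agent.P309
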