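import Mathlib
import Vale.Agent.P309.Core

/-!
# P309: decomposition of a measure into pieces satisfying a Frostman condition
-/

namespace Vale.Agent.P309

open MeasureTheory Metric Set Module
open scoped ENNReal NNReal

variable {E : Type*} [NormedAddCommGroup E] [MeasurableSpace E] [BorelSpace E]

/-- Peeling off nearly maximal balls. `σ` is a measure with small balls, `μ` has bounded density and
sits in a ball of radius `2^{-i₀}`. If a functional is at most `β` times the mass on all pieces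
that satisfy a Frostman condition, then it is at most `(β + θ)` times the mass in total. -/
lemma decomp (σ : Measure E) (C : ℝ≥0∞) (hC : C ≠ ⊤) (e : ℕ)
    (hcap : ∀ z : E, ∀ j : ℕ, σ (closedBall z ((1 / 2) ^ j)) ≤ C * (2⁻¹ : ℝ≥0∞) ^ (e * j))
    (a : ℕ) (hae : a < e)
    (μ : Measure E) [IsFiniteMeasure μ] (D : ℝ≥0∞) (hD : D ≠ ⊤) (i₀ : ℕ) (z₀ : E)
    (hμσ : μ ≤ (D * 2 ^ (a * i₀) * μ univ) • σ) (hμ0 : μ univ ≠ 0)
    (hsupp : μ (closedBall z₀ ((1 / 2) ^ i₀))ᶜ = 0)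
    (g : E → ℝ≥0∞) (hg1 : ∀ s, g s ≤ 1) (θ : ℝ≥0∞) (hθ : θ ≠ 0) (β : ℝ≥0∞)
    (H : ∀ i, i₀ ≤ i → ∀ z : E, ∀ U : Set E, MeasurableSet U →
      μ (U ∩ closedBall z ((1 / 2) ^ i)) ≠ 0 →
      θ * (2⁻¹ : ℝ≥0∞) ^ (a * (i - i₀)) * μ univ ≤ 2 * μ (U ∩ closedBall z ((1 / 2) ^ i)) →
      (∀ y : E, ∀ j : ℕ, μ (U ∩ closedBall z ((1 / 2) ^ i) ∩ closedBall y ((1 / 2) ^ (i + j)))
        ≤ 2 * (2⁻¹ : ℝ≥0∞) ^ (a * j) * μ (U ∩ closedBall z ((1 / 2) ^ i))) →
      ∫⁻ s in U ∩ closedBall z ((1 / 2) ^ i), g s ∂μ ≤ β * μ (U ∩ closedBall z ((1 / 2) ^ i))) :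
    ∫⁻ s, g s ∂μ ≤ (β + θ) * μ univ := by
  have hMt : μ univ ≠ ⊤ := measure_ne_top _ _
  -- the value of a ball
  have hVle : ∀ U : Set E, ∀ z : E, ∀ i, i₀ ≤ i →
      2 ^ (a * (i - i₀)) * μ (U ∩ closedBall z ((1 / 2) ^ i))
        ≤ D * μ univ * C * (2⁻¹ : ℝ≥0∞) ^ ((e - a) * i) := by
    intro U z i hi
    have h1 : μ (U ∩ closedBall z ((1 / 2) ^ i)) ≤
        (D * 2 ^ (a * i₀) * μ univ) * (C * (2⁻¹ : ℝ≥0∞) ^ (e * i)) := by
      calc μ (U ∩ closedBall z ((1 / 2) ^ i)) ≤ μ (closedBall z ((1 / 2) ^ i)) :=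
            measure_mono inter_subset_right
        _ ≤ ((D * 2 ^ (a * i₀) * μ univ) • σ) (closedBall z ((1 / 2) ^ i)) := hμσ _
        _ = (D * 2 ^ (a * i₀) * μ univ) * σ (closedBall z ((1 / 2) ^ i)) := by
            rw [Measure.smul_apply, smul_eq_mul]
        _ ≤ _ := mul_le_mul_right (hcap z i) _
    calc 2 ^ (a * (i - i₀)) * μ (U ∩ closedBall z ((1 / 2) ^ i))
        ≤ 2 ^ (a * (i - i₀)) * ((D * 2 ^ (a * i₀) * μ univ) * (C * (2⁻¹ : ℝ≥0∞) ^ (e * i))) :=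
          mul_le_mul_right h1 _
      _ = D * μ univ * C * ((2 : ℝ≥0∞) ^ (a * i) * (2⁻¹ : ℝ≥0∞) ^ (e * i)) := by
          have h2 : (2 : ℝ≥0∞) ^ (a * i) = 2 ^ (a * (i - i₀)) * 2 ^ (a * i₀) := by
            rw [← pow_add, ← mul_add, Nat.sub_add_cancel hi]
          rw [h2]; ring
      _ ≤ D * μ univ * C * (2⁻¹ : ℝ≥0∞) ^ ((e - a) * i) := by
          refine mul_le_mul_right (pow_two_half ?_) _
          rw [← add_mul]
          apply Nat.mul_le_mul_right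
          omega
  -- levels of good pieces are bounded
  obtain ⟨imax, himax⟩ : ∃ imax : ℕ, ∀ i, imax ≤ i →
      2 * (D * μ univ * C * (2⁻¹ : ℝ≥0∞) ^ ((e - a) * i)) < θ * μ univ := by
    have hlim : Filter.Tendsto (fun i : ℕ => 2 * (D * μ univ * C) * (2⁻¹ : ℝ≥0∞) ^ i) Filter.atTop
        (nhds (2 * (D * μ univ * C) * 0)) := by
      apply ENNReal.Tendsto.const_mul
      · exact ENNReal.tendsto_pow_atTop_nhds_zero_of_lt_one (by
          rw [ENNReal.inv_lt_one]; exact ENNReal.one_lt_two)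
      · right
        exact ENNReal.mul_ne_top (by norm_num) (ENNReal.mul_ne_top (ENNReal.mul_ne_top hD hMt) hC)
    rw [mul_zero] at hlim
    have hpos : 0 < θ * μ univ := pos_iff_ne_zero.2 (mul_ne_zero hθ hμ0)
    obtain ⟨imax, h⟩ := Filter.eventually_atTop.1 (hlim.eventually (gt_mem_nhds hpos))
    refine ⟨imax, fun i hi => lt_of_le_of_lt ?_ (h i hi)⟩
    rw [← mul_assoc]
    refine mul_le_mul_right (pow_le_pow_right_of_le_one' (by simp) ?_) _
    have : 1 ≤ e - a := by omega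
    nlinarith
  set qmin : ℝ≥0∞ := θ * μ univ / 2 * (2⁻¹ : ℝ≥0∞) ^ (a * imax) with hqmin
  have hqmin0 : qmin ≠ 0 := by
    refine mul_ne_zero (ENNReal.div_ne_zero.2 ⟨mul_ne_zero hθ hμ0, by norm_num⟩)
      (pow_ne_zero _ (by simp))
  -- existence of a good piece
  have hpiece : ∀ U : Set E, MeasurableSet U → θ * μ univ < μ U →
      ∃ i, i₀ ≤ i ∧ ∃ z : E, qmin ≤ μ (U ∩ closedBall z ((1 / 2) ^ i)) ∧
        ∫⁻ s in U ∩ closedBall z ((1 / 2) ^ i), g s ∂μ
          ≤ β * μ (U ∩ closedBall z ((1 / 2) ^ i)) := by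
    intro U hU hμU
    set S : ℝ≥0∞ := ⨆ (p : {i // i₀ ≤ i} × E),
      2 ^ (a * ((p.1 : ℕ) - i₀)) * μ (U ∩ closedBall p.2 ((1 / 2) ^ (p.1 : ℕ))) with hS
    have hSle : ∀ i, i₀ ≤ i → ∀ z : E,
        2 ^ (a * (i - i₀)) * μ (U ∩ closedBall z ((1 / 2) ^ i)) ≤ S := by
      intro i hi z
      exact le_iSup (fun p : {i // i₀ ≤ i} × E =>
        2 ^ (a * ((p.1 : ℕ) - i₀)) * μ (U ∩ closedBall p.2 ((1 / 2) ^ (p.1 : ℕ)))) (⟨i, hi⟩, z)
    have hSt : S ≠ ⊤ := by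
      have : S ≤ D * μ univ * C := by
        apply iSup_le
        rintro ⟨⟨i, hi⟩, z⟩
        refine le_trans (hVle U z i hi) ?_
        calc D * μ univ * C * (2⁻¹ : ℝ≥0∞) ^ ((e - a) * i) ≤ D * μ univ * C * 1 := by
              refine mul_le_mul_right (pow_le_one' (by simp) _) _
          _ = _ := mul_one _
      exact ne_top_of_le_ne_top (ENNReal.mul_ne_top (ENNReal.mul_ne_top hD hMt) hC) this
    have hSU : μ U ≤ S := by
      have h1 := hSle i₀ le_rfl z₀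
      rw [Nat.sub_self, mul_zero, pow_zero, one_mul] at h1
      refine le_trans ?_ h1
      calc μ U ≤ μ (U ∩ closedBall z₀ ((1 / 2) ^ i₀)) + μ (closedBall z₀ ((1 / 2) ^ i₀))ᶜ := by
            refine le_trans (measure_mono ?_) (measure_union_le _ _)
            intro x hx
            by_cases h : x ∈ closedBall z₀ ((1 / 2) ^ i₀)
            · exact Or.inl ⟨hx, h⟩
            · exact Or.inr h
        _ = _ := by rw [hsupp, add_zero]
    have hS0 : S ≠ 0 := by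
      have : 0 < μ U := lt_of_le_of_lt zero_le hμU
      exact (lt_of_lt_of_le this hSU).ne'
    have hhalf : S / 2 < S := ENNReal.half_lt_self hS0 hSt
    obtain ⟨⟨⟨i, hi⟩, z⟩, hiz⟩ := lt_iSup_iff.1 hhalf
    simp only at hiz
    have hS2 : S ≤ 2 * (2 ^ (a * (i - i₀)) * μ (U ∩ closedBall z ((1 / 2) ^ i))) := by
      rw [← ENNReal.div_le_iff' (by norm_num) (by norm_num)]
      exact hiz.le
    have hthr : θ * μ univ ≤ 2 * (2 ^ (a * (i - i₀)) * μ (U ∩ closedBall z ((1 / 2) ^ i))) :=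
      le_trans hμU.le (le_trans hSU hS2)
    have hilt : i < imax := by
      by_contra hcon
      rw [not_lt] at hcon
      have h1 := himax i hcon
      have h2 := hVle U z i hi
      have h3 : θ * μ univ ≤ 2 * (D * μ univ * C * (2⁻¹ : ℝ≥0∞) ^ ((e - a) * i)) :=
        le_trans hthr (mul_le_mul_right h2 _)
      exact absurd h1 (not_lt.2 h3)
    have hthr2 : θ * (2⁻¹ : ℝ≥0∞) ^ (a * (i - i₀)) * μ univ
        ≤ 2 * μ (U ∩ closedBall z ((1 / 2) ^ i)) := by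
      calc θ * (2⁻¹ : ℝ≥0∞) ^ (a * (i - i₀)) * μ univ
          = (2⁻¹ : ℝ≥0∞) ^ (a * (i - i₀)) * (θ * μ univ) := by ring
        _ ≤ (2⁻¹ : ℝ≥0∞) ^ (a * (i - i₀)) *
            (2 * (2 ^ (a * (i - i₀)) * μ (U ∩ closedBall z ((1 / 2) ^ i)))) :=
            mul_le_mul_right hthr _
        _ = 2 * ((2 ^ (a * (i - i₀)) * (2⁻¹ : ℝ≥0∞) ^ (a * (i - i₀))) *
            μ (U ∩ closedBall z ((1 / 2) ^ i))) := by ring
        _ = _ := by rw [two_mul_half_pow, one_mul]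
    have hq : qmin ≤ μ (U ∩ closedBall z ((1 / 2) ^ i)) := by
      rw [hqmin]
      calc θ * μ univ / 2 * (2⁻¹ : ℝ≥0∞) ^ (a * imax)
          ≤ θ * μ univ / 2 * (2⁻¹ : ℝ≥0∞) ^ (a * (i - i₀)) := by
            refine mul_le_mul_right (pow_le_pow_right_of_le_one' (by simp) ?_) _
            apply Nat.mul_le_mul_left
            omega
        _ = (θ * (2⁻¹ : ℝ≥0∞) ^ (a * (i - i₀)) * μ univ) / 2 := by
            rw [ENNReal.div_eq_inv_mul, ENNReal.div_eq_inv_mul]; ring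
        _ ≤ (2 * μ (U ∩ closedBall z ((1 / 2) ^ i))) / 2 := ENNReal.div_le_div_right hthr2 _
        _ = _ := by
            rw [mul_comm, ENNReal.mul_div_cancel_right (by norm_num) (by norm_num)]
    refine ⟨i, hi, z, hq, H i hi z U hU ?_ hthr2 ?_⟩
    · exact (lt_of_lt_of_le (pos_iff_ne_zero.2 hqmin0) hq).ne'
    · intro y j
      have h1 := hSle (i + j) (by omega) y
      calc μ (U ∩ closedBall z ((1 / 2) ^ i) ∩ closedBall y ((1 / 2) ^ (i + j)))
          ≤ μ (U ∩ closedBall y ((1 / 2) ^ (i + j))) := by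
            apply measure_mono
            rintro x ⟨⟨h2, _⟩, h3⟩
            exact ⟨h2, h3⟩
        _ = (2⁻¹ : ℝ≥0∞) ^ (a * (i + j - i₀)) *
            (2 ^ (a * (i + j - i₀)) * μ (U ∩ closedBall y ((1 / 2) ^ (i + j)))) := by
            rw [← mul_assoc, mul_comm ((2⁻¹ : ℝ≥0∞) ^ _), two_mul_half_pow, one_mul]
        _ ≤ (2⁻¹ : ℝ≥0∞) ^ (a * (i + j - i₀)) *
            (2 * (2 ^ (a * (i - i₀)) * μ (U ∩ closedBall z ((1 / 2) ^ i)))) :=
            mul_le_mul_right (le_trans h1 hS2) _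
        _ = 2 * (2⁻¹ : ℝ≥0∞) ^ (a * j) * μ (U ∩ closedBall z ((1 / 2) ^ i)) := by
            have h2 : (2⁻¹ : ℝ≥0∞) ^ (a * (i + j - i₀))
                = (2⁻¹ : ℝ≥0∞) ^ (a * (i - i₀)) * (2⁻¹ : ℝ≥0∞) ^ (a * j) := by
              rw [← pow_add, ← mul_add]; congr 2; omega
            rw [h2]
            calc (2⁻¹ : ℝ≥0∞) ^ (a * (i - i₀)) * (2⁻¹ : ℝ≥0∞) ^ (a * j) *
                (2 * (2 ^ (a * (i - i₀)) * μ (U ∩ closedBall z ((1 / 2) ^ i))))
                = (2 ^ (a * (i - i₀)) * (2⁻¹ : ℝ≥0∞) ^ (a * (i - i₀))) *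
                  (2 * (2⁻¹ : ℝ≥0∞) ^ (a * j) * μ (U ∩ closedBall z ((1 / 2) ^ i))) := by ring
              _ = _ := by rw [two_mul_half_pow, one_mul]
  -- exhaustion
  have hind : ∀ N : ℕ, ∀ U : Set E, MeasurableSet U → μ U ≤ θ * μ univ + N * qmin →
      ∫⁻ s in U, g s ∂μ ≤ β * μ U + θ * μ univ := by
    have hsmall : ∀ U : Set E, μ U ≤ θ * μ univ → ∫⁻ s in U, g s ∂μ ≤ β * μ U + θ * μ univ := by
      intro U hU
      calc ∫⁻ s in U, g s ∂μ ≤ ∫⁻ _ in U, 1 ∂μ := lintegral_mono hg1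
        _ = μ U := by rw [setLIntegral_const, one_mul]
        _ ≤ θ * μ univ := hU
        _ ≤ _ := le_add_self
    intro N
    induction N with
    | zero =>
      intro U _ hU2
      apply hsmall
      simpa using hU2
    | succ N ih =>
      intro U hU hU2
      by_cases hlt : μ U ≤ θ * μ univ
      · exact hsmall U hlt
      rw [not_le] at hlt
      obtain ⟨i, _, z, hq, hint⟩ := hpiece U hU hlt
      set B := closedBall z ((1 / 2 : ℝ) ^ i) with hB
      have hBm : MeasurableSet B := measurableSet_closedBall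
      have hsplit : μ (U ∩ B) + μ (U \ B) = μ U := measure_inter_add_sdiff U hBm
      have hUB : μ (U \ B) ≤ θ * μ univ + N * qmin := by
        have h1 : μ (U \ B) + qmin ≤ (θ * μ univ + N * qmin) + qmin := by
          calc μ (U \ B) + qmin ≤ μ (U \ B) + μ (U ∩ B) := by gcongr
            _ = μ U := by rw [add_comm]; exact hsplit
            _ ≤ θ * μ univ + ((N + 1 : ℕ) : ℝ≥0∞) * qmin := hU2
            _ = _ := by push_cast; ring
        have hqt : qmin ≠ ⊤ := ne_top_of_le_ne_top (measure_ne_top μ _) hq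
        exact (ENNReal.add_le_add_iff_right hqt).1 h1
      have h2 := ih (U \ B) (hU.diff hBm) hUB
      have hset : U = (U ∩ B) ∪ (U \ B) := (inter_union_sdiff U B).symm
      calc ∫⁻ s in U, g s ∂μ = ∫⁻ s in (U ∩ B) ∪ (U \ B), g s ∂μ := by rw [← hset]
        _ ≤ ∫⁻ s in U ∩ B, g s ∂μ + ∫⁻ s in U \ B, g s ∂μ := lintegral_union_le _ _ _
        _ ≤ β * μ (U ∩ B) + (β * μ (U \ B) + θ * μ univ) := add_le_add hint h2
        _ = β * μ U + θ * μ univ := by rw [← hsplit]; ring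
  obtain ⟨N, hN⟩ := ENNReal.exists_nat_mul_gt hqmin0 hMt
  have := hind N univ MeasurableSet.univ (le_trans hN.le le_add_self)
  rw [Measure.restrict_univ] at this
  rw [add_mul]
  exact this

end Vale.Agent.P309
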