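import Mathlib
import Vale.Agent.P309.Block
import Vale.Agent.P309.Decomp

/-!
# P309: induction over the blocks
-/

namespace Vale.Agent.P309

open MeasureTheory ProbabilityTheory Metric Set Module
open scoped ENNReal NNReal RealInnerProductSpace

variable {E : Type*} [NormedAddCommGroup E] [InnerProductSpace ℝ E] [FiniteDimensional ℝ E]
  [MeasurableSpace E] [BorelSpace E]
variable {ι : Type*} [Fintype ι] [MeasurableSpace ι] [MeasurableSingletonClass ι]

/-- success probability given the signal `s`, with `n` blocks to go, current state `m`,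
block maps `F (n-1), …, F 0` and terminal functional `g` -/
noncomputable def suc {k : ℕ} (F : ℕ → ι → ((Fin k → E) × (Fin k → ℝ)) → ι)
    (g : ι → E → ℝ≥0∞) : ℕ → ι → E → ℝ≥0∞
  | 0, m, s => g m s
  | n + 1, m, s => ∫⁻ X, suc F g n (F n m (X, labels X s)) s ∂(rows E k)

omit [Fintype ι] [MeasurableSpace ι] [MeasurableSingletonClass ι] in
lemma suc_le_one {k : ℕ} (F : ℕ → ι → ((Fin k → E) × (Fin k → ℝ)) → ι)
    (g : ι → E → ℝ≥0∞) (hg : ∀ m s, g m s ≤ 1) : ∀ n m s, suc F g n m s ≤ 1 := by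
  intro n
  induction n with
  | zero => exact hg
  | succ n ih =>
    intro m s
    unfold suc
    calc _ ≤ ∫⁻ _, (1 : ℝ≥0∞) ∂(rows E k) := lintegral_mono fun X => ih _ _
      _ = 1 := by simp

/-- transition probabilities given the signal -/
noncomputable def trans {k : ℕ} (f : ((Fin k → E) × (Fin k → ℝ)) → ι) (i : ι) (s : E) : ℝ≥0∞ :=
  rows E k {X | f (X, labels X s) = i}

omit [Fintype ι] [MeasurableSingletonClass ι] in
lemma measurable_label_comp {k : ℕ} (f : ((Fin k → E) × (Fin k → ℝ)) → ι) (hf : Measurable f) :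
    Measurable (fun q : (Fin k → E) × E => f (q.1, labels q.1 q.2)) :=
  hf.comp (measurable_labels k)

omit [Fintype ι] in
lemma measurable_trans {k : ℕ} (f : ((Fin k → E) × (Fin k → ℝ)) → ι) (hf : Measurable f)
    (i : ι) : Measurable (trans f i) := by
  have h : MeasurableSet {q : E × (Fin k → E) | f (q.2, labels q.2 q.1) = i} :=
    (((measurable_label_comp f hf).comp measurable_swap) (measurableSet_singleton i))
  exact measurable_measure_prodMk_left h

lemma suc_succ {k : ℕ} (F : ℕ → ι → ((Fin k → E) × (Fin k → ℝ)) → ι)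
    (hF : ∀ n m, Measurable (F n m)) (g : ι → E → ℝ≥0∞) (n : ℕ) (m : ι) (s : E) :
    suc F g (n + 1) m s = ∑ i, trans (F n m) i s * suc F g n i s := by
  have h1 : ∀ X : Fin k → E, suc F g n (F n m (X, labels X s)) s
      = ∑ i, {X : Fin k → E | F n m (X, labels X s) = i}.indicator
        (fun _ => suc F g n i s) X := by
    intro X
    rw [Finset.sum_eq_single (F n m (X, labels X s))]
    · rw [indicator_of_mem]
      rfl
    · intro i _ hi
      rw [indicator_of_notMem]
      intro h; exact hi h.symm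
    · intro h; exact absurd (Finset.mem_univ _) h
  have hm : ∀ i, MeasurableSet {X : Fin k → E | F n m (X, labels X s) = i} := by
    intro i
    have : Measurable (fun X : Fin k → E => (X, s)) := by fun_prop
    exact ((measurable_label_comp (F n m) (hF n m)).comp this) (measurableSet_singleton i)
  show ∫⁻ X, suc F g n (F n m (X, labels X s)) s ∂(rows E k) = _
  simp_rw [h1]
  rw [lintegral_finsetSum _ (fun i _ => (measurable_const.indicator (hm i)))]
  refine Finset.sum_congr rfl fun i _ => ?_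
  rw [lintegral_indicator_const (hm i), mul_comm]
  rfl

lemma measurable_suc {k : ℕ} (F : ℕ → ι → ((Fin k → E) × (Fin k → ℝ)) → ι)
    (hF : ∀ n m, Measurable (F n m)) (g : ι → E → ℝ≥0∞) (hg : ∀ m, Measurable (g m)) :
    ∀ n m, Measurable (suc F g n m) := by
  intro n
  induction n with
  | zero => exact hg
  | succ n ih =>
    intro m
    have : suc F g (n + 1) m = fun s => ∑ i, trans (F n m) i s * suc F g n i s := by
      ext s; exact suc_succ F hF g n m s
    rw [this]
    exact Finset.measurable_sum _ fun i _ => (measurable_trans _ (hF n m) i).mul (ih i)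

lemma sum_trans {k : ℕ} (f : ((Fin k → E) × (Fin k → ℝ)) → ι) (hf : Measurable f) (s : E) :
    ∑ i, trans f i s = 1 := by
  have hm : Measurable (fun X : Fin k → E => f (X, labels X s)) := by
    have : Measurable (fun X : Fin k → E => (X, s)) := by fun_prop
    exact (measurable_label_comp f hf).comp this
  have h := sum_measure_preimage_singleton (μ := rows E k) (Finset.univ : Finset ι)
    (f := fun X : Fin k → E => f (X, labels X s)) (fun y _ => hm (measurableSet_singleton y))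
  simp only [Finset.coe_univ, preimage_univ, measure_univ] at h
  exact h

/-- one block step for a probability measure satisfying the Frostman condition -/
lemma block_step (P : Measure E) [IsProbabilityMeasure P] (z : E) (δ : ℝ) (hδ : 0 < δ)
    (hP : P (closedBall z δ)ᶜ = 0) (k : ℕ) (hk : 1 ≤ k)
    (hF : ∀ y : E, ∀ j : ℕ, P (closedBall y (δ * (1 / 2) ^ j)) ≤ 2 * (2⁻¹ : ℝ≥0∞) ^ (4 * k * j))
    (hι : Fintype.card ι ≤ 2 ^ (k ^ 2))
    (f : (Fin k → E) × (Fin k → ℝ) → ι) (hf : Measurable f)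
    (h : ι → E → ℝ≥0∞) (hm : ∀ i, Measurable (h i)) (h1 : ∀ i s, h i s ≤ 1) (B : ℝ≥0∞)
    (hstep : ∀ i : ι, ∀ ν : Measure E, IsFiniteMeasure ν → ν univ ≠ 0 →
      ν ≤ (2 ^ (22 * k + 2) * ν univ) • P → ∫⁻ s, h i s ∂ν ≤ B * ν univ) :
    ∫⁻ s, ∑ i, trans f i s * h i s ∂P ≤ 12 * (2⁻¹ : ℝ≥0∞) ^ k + B := by
  set p : ι → ℝ≥0∞ := fun i => ∫⁻ s, trans f i s ∂P with hp
  have htm := fun i => measurable_trans f hf i
  set W : ι → Set E := fun i => {s | 2 ^ (22 * k + 1) * p i < trans f i s} with hW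
  have hWm : ∀ i, MeasurableSet (W i) := fun i => measurableSet_lt measurable_const (htm i)
  have hpsum : ∑ i, p i = 1 := by
    rw [hp]
    simp only
    rw [← lintegral_finsetSum _ (fun i _ => htm i)]
    simp_rw [sum_trans f hf]
    simp
  have hp1 : ∀ i, p i ≤ 1 := by
    intro i
    rw [← hpsum]
    exact Finset.single_le_sum (fun _ _ => zero_le) (Finset.mem_univ i)
  have hpt : ∀ i, p i ≠ ⊤ := fun i => ne_top_of_le_ne_top ENNReal.one_ne_top (hp1 i)
  have hWP : ∀ i, P (W i) ≤ (2⁻¹ : ℝ≥0∞) ^ (22 * k + 1) := by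
    intro i
    by_cases hpi : p i = 0
    · have h2 : trans f i =ᵐ[P] 0 := (lintegral_eq_zero_iff (htm i)).1 hpi
      have h3 : P (W i) = 0 := by
        rw [hW]
        simp only
        rw [hpi, mul_zero]
        have : ∀ᵐ s ∂P, s ∉ {s | 0 < trans f i s} := by
          filter_upwards [h2] with s hs
          simp [hs]
        exact measure_eq_zero_iff_ae_notMem.2 this
      rw [h3]; exact zero_le
    · have h2 := mul_meas_ge_le_lintegral (μ := P) (htm i) (2 ^ (22 * k + 1) * p i)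
      have h3 : 2 ^ (22 * k + 1) * p i * P (W i) ≤ p i := by
        refine le_trans (mul_le_mul_right (measure_mono ?_) _) h2
        intro s hs
        have hs' : 2 ^ (22 * k + 1) * p i < trans f i s := hs
        exact hs'.le
      have h4 : p i * (2 ^ (22 * k + 1) * P (W i)) ≤ p i * 1 := by
        calc _ = 2 ^ (22 * k + 1) * p i * P (W i) := by ring
          _ ≤ p i := h3
          _ = p i * 1 := (mul_one _).symm
      have h5 : 2 ^ (22 * k + 1) * P (W i) ≤ 1 :=
        (ENNReal.mul_le_mul_iff_right hpi (hpt i)).1 h4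
      calc P (W i) = (2⁻¹ : ℝ≥0∞) ^ (22 * k + 1) * (2 ^ (22 * k + 1) * P (W i)) := by
            rw [← mul_assoc, mul_comm ((2⁻¹ : ℝ≥0∞) ^ _), two_mul_half_pow, one_mul]
        _ ≤ (2⁻¹ : ℝ≥0∞) ^ (22 * k + 1) * 1 := mul_le_mul_right h5 _
        _ = _ := mul_one _
  -- the exceptional part
  have hexc : ∑ i, ∫⁻ s in W i, trans f i s ∂P ≤ 6 * (2⁻¹ : ℝ≥0∞) ^ k := by
    refine le_trans (le_of_eq ?_) (block_ball P z δ hδ hP k hk hF W hWm hWP hι f hf)
    have hset : {q : (Fin k → E) × E | q.2 ∈ W (f (q.1, labels q.1 q.2))}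
        = ⋃ i, {q : (Fin k → E) × E | f (q.1, labels q.1 q.2) = i ∧ q.2 ∈ W i} := by
      ext q; simp
    have hmi : ∀ i, MeasurableSet {q : (Fin k → E) × E | f (q.1, labels q.1 q.2) = i ∧
        q.2 ∈ W i} := fun i =>
      ((measurable_label_comp f hf) (measurableSet_singleton i)).inter (measurable_snd (hWm i))
    rw [hset, measure_iUnion _ hmi, tsum_fintype]
    · refine Finset.sum_congr rfl fun i _ => ?_
      rw [Measure.prod_apply_symm (hmi i), ← lintegral_indicator (hWm i)]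
      congr 1; ext s
      by_cases hs : s ∈ W i
      · rw [indicator_of_mem hs]
        unfold trans
        congr 1; ext X
        simp [hs]
      · rw [indicator_of_notMem hs]
        have : ((fun X => (X, s)) ⁻¹' {q : (Fin k → E) × E | f (q.1, labels q.1 q.2) = i ∧
          q.2 ∈ W i}) = ∅ := by
          ext X; simp [hs]
        rw [this, measure_empty]
    · intro i j hij
      rw [Function.onFun, Set.disjoint_left]
      rintro q ⟨h2, -⟩ ⟨h3, -⟩
      exact hij (h2.symm.trans h3)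
  -- the regular part
  have hreg : ∀ i, ∫⁻ s in (W i)ᶜ, trans f i s * h i s ∂P
      ≤ B * p i + ∫⁻ s in W i, trans f i s ∂P := by
    intro i
    set ν : Measure E := (P.restrict (W i)ᶜ).withDensity (trans f i) with hν
    have hνu : ν univ = ∫⁻ s in (W i)ᶜ, trans f i s ∂P := by
      rw [hν, withDensity_apply _ MeasurableSet.univ, Measure.restrict_univ]
    have hνp : ν univ ≤ p i := by
      rw [hνu]
      exact setLIntegral_le_lintegral _ _
    have hνfin : IsFiniteMeasure ν := ⟨lt_of_le_of_lt (le_trans hνp (hp1 i)) ENNReal.one_lt_top⟩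
    have hint : ∫⁻ s in (W i)ᶜ, trans f i s * h i s ∂P = ∫⁻ s, h i s ∂ν := by
      rw [hν, lintegral_withDensity_eq_lintegral_mul _ (htm i) (hm i)]
      rfl
    rw [hint]
    have hadd : ν univ + ∫⁻ s in W i, trans f i s ∂P = p i := by
      rw [hνu, add_comm]
      exact lintegral_add_compl _ (hWm i)
    have hle1 : ∫⁻ s, h i s ∂ν ≤ ν univ := by
      calc ∫⁻ s, h i s ∂ν ≤ ∫⁻ _, 1 ∂ν := lintegral_mono (h1 i)
        _ = ν univ := by rw [lintegral_const, one_mul]
    by_cases hbig : p i ≤ 2 * ν univ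
    · by_cases hν0 : ν univ = 0
      · rw [hν0] at hle1
        exact le_trans hle1 zero_le
      · refine le_trans (hstep i ν hνfin hν0 ?_) ?_
        · rw [Measure.le_iff]
          intro A hA
          rw [hν, withDensity_apply _ hA, Measure.smul_apply, smul_eq_mul, ← hν,
            Measure.restrict_restrict hA]
          calc ∫⁻ s in A ∩ (W i)ᶜ, trans f i s ∂P
              ≤ ∫⁻ _ in A ∩ (W i)ᶜ, 2 ^ (22 * k + 1) * p i ∂P := by
                apply setLIntegral_mono' (hA.inter (hWm i).compl)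
                rintro s ⟨_, hs⟩
                exact not_lt.1 hs
            _ = 2 ^ (22 * k + 1) * p i * P (A ∩ (W i)ᶜ) := by rw [setLIntegral_const]
            _ ≤ 2 ^ (22 * k + 1) * (2 * ν univ) * P A := by
                gcongr
                exact inter_subset_left
            _ = 2 ^ (22 * k + 2) * ν univ * P A := by
                rw [show 22 * k + 2 = (22 * k + 1) + 1 by ring, pow_succ (2 : ℝ≥0∞) (22 * k + 1)]
                ring
        · refine le_trans (mul_le_mul_right hνp _) le_self_add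
    · rw [not_le] at hbig
      refine le_trans hle1 ?_
      have h2 : ν univ ≤ ∫⁻ s in W i, trans f i s ∂P := by
        have h3 : ν univ + ∫⁻ s in W i, trans f i s ∂P > ν univ + ν univ := by
          rw [hadd, ← two_mul]; exact hbig
        exact (ENNReal.add_lt_add_iff_left (measure_ne_top _ _)).1 h3 |>.le
      exact le_trans h2 le_add_self
  -- sum
  have hthm : ∀ i, Measurable (fun s => trans f i s * h i s) := fun i => (htm i).mul (hm i)
  rw [lintegral_finsetSum _ (fun i _ => hthm i)]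
  calc ∑ i, ∫⁻ s, trans f i s * h i s ∂P
      = ∑ i, (∫⁻ s in W i, trans f i s * h i s ∂P + ∫⁻ s in (W i)ᶜ, trans f i s * h i s ∂P) := by
        refine Finset.sum_congr rfl fun i _ => ?_
        exact (lintegral_add_compl _ (hWm i)).symm
    _ ≤ ∑ i, (∫⁻ s in W i, trans f i s ∂P + (B * p i + ∫⁻ s in W i, trans f i s ∂P)) := by
        refine Finset.sum_le_sum fun i _ => add_le_add ?_ (hreg i)
        apply lintegral_mono
        intro s
        calc trans f i s * h i s ≤ trans f i s * 1 := mul_le_mul_right (h1 i s) _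
          _ = _ := mul_one _
    _ = 2 * ∑ i, ∫⁻ s in W i, trans f i s ∂P + B * ∑ i, p i := by
        rw [Finset.sum_add_distrib, Finset.sum_add_distrib, ← Finset.mul_sum]
        ring
    _ ≤ 2 * (6 * (2⁻¹ : ℝ≥0∞) ^ k) + B * 1 := by rw [hpsum]; gcongr
    _ = _ := by ring

/-- the induction: success mass for measures of bounded density in a small ball -/
theorem main_induct (σ : Measure E) (C : ℝ≥0∞) (hC : C ≠ ⊤) (e : ℕ)
    (hcap : ∀ z : E, ∀ j : ℕ, σ (closedBall z ((1 / 2) ^ j)) ≤ C * (2⁻¹ : ℝ≥0∞) ^ (e * j))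
    (k : ℕ) (hk : 1 ≤ k) (hke : 8 * k ≤ e) (hι : Fintype.card ι ≤ 2 ^ (k ^ 2))
    (F : ℕ → ι → ((Fin k → E) × (Fin k → ℝ)) → ι) (hF : ∀ n m, Measurable (F n m))
    (g : ι → E → ℝ≥0∞) (hg : ∀ m, Measurable (g m)) (hg1 : ∀ m s, g m s ≤ 1) (κ : ℝ≥0∞)
    (hκ : ∀ m, ∫⁻ s, g m s ∂σ ≤ κ) :
    ∀ n : ℕ, ∀ m : ι, ∀ D : ℝ≥0∞, D ≠ ⊤ → ∀ i₀ : ℕ, ∀ z₀ : E, ∀ μ : Measure E,
      IsFiniteMeasure μ → μ ≤ (D * 2 ^ (4 * k * i₀) * μ univ) • σ → μ univ ≠ 0 →
      μ (closedBall z₀ ((1 / 2) ^ i₀))ᶜ = 0 →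
      ∫⁻ s, suc F g n m s ∂μ ≤
        (13 * n * (2⁻¹ : ℝ≥0∞) ^ k + D ^ 2 * (2 ^ (23 * k + 3)) ^ (2 * n) * (C * κ)) * μ univ := by
  intro n
  induction n with
  | zero =>
    intro m D hD i₀ z₀ μ hfin hμσ hμ0 hsupp
    have hMt : μ univ ≠ ⊤ := measure_ne_top _ _
    -- level bound
    have hlev : (2 : ℝ≥0∞) ^ (4 * k * i₀) ≤ D * C := by
      have h1 : μ univ ≤ (D * 2 ^ (4 * k * i₀) * μ univ) * (C * (2⁻¹ : ℝ≥0∞) ^ (e * i₀)) := by
        calc μ univ ≤ μ (closedBall z₀ ((1 / 2) ^ i₀)) + μ (closedBall z₀ ((1 / 2) ^ i₀))ᶜ :=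
              le_trans (measure_mono (by intro x _; exact em _)) (measure_union_le _ _)
          _ = μ (closedBall z₀ ((1 / 2) ^ i₀)) := by rw [hsupp, add_zero]
          _ ≤ ((D * 2 ^ (4 * k * i₀) * μ univ) • σ) (closedBall z₀ ((1 / 2) ^ i₀)) := hμσ _
          _ = (D * 2 ^ (4 * k * i₀) * μ univ) * σ (closedBall z₀ ((1 / 2) ^ i₀)) := by
              rw [Measure.smul_apply, smul_eq_mul]
          _ ≤ _ := mul_le_mul_right (hcap _ _) _
      have h2 : μ univ * 1 ≤ μ univ * (D * C * (2 ^ (4 * k * i₀) * (2⁻¹ : ℝ≥0∞) ^ (e * i₀))) := by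
        rw [mul_one]
        refine le_trans h1 (le_of_eq ?_)
        ring
      have h3 : 1 ≤ D * C * (2 ^ (4 * k * i₀) * (2⁻¹ : ℝ≥0∞) ^ (e * i₀)) :=
        (ENNReal.mul_le_mul_iff_right hμ0 hMt).1 h2
      calc (2 : ℝ≥0∞) ^ (4 * k * i₀) = 2 ^ (4 * k * i₀) * 1 := (mul_one _).symm
        _ ≤ 2 ^ (4 * k * i₀) * (D * C * (2 ^ (4 * k * i₀) * (2⁻¹ : ℝ≥0∞) ^ (e * i₀))) :=
            mul_le_mul_right h3 _
        _ = D * C * (2 ^ (4 * k * i₀ + 4 * k * i₀) * (2⁻¹ : ℝ≥0∞) ^ (e * i₀)) := by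
            rw [pow_add]; ring
        _ ≤ D * C * (2⁻¹ : ℝ≥0∞) ^ 0 := by
            refine mul_le_mul_right (pow_two_half ?_) _
            rw [add_zero, ← add_mul]
            apply Nat.mul_le_mul_right
            omega
        _ = D * C := by rw [pow_zero, mul_one]
    calc ∫⁻ s, suc F g 0 m s ∂μ ≤ ∫⁻ s, g m s ∂((D * 2 ^ (4 * k * i₀) * μ univ) • σ) :=
          lintegral_mono' hμσ le_rfl
      _ = (D * 2 ^ (4 * k * i₀) * μ univ) * ∫⁻ s, g m s ∂σ := by
          rw [lintegral_smul_measure, smul_eq_mul]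
      _ ≤ (D * (D * C) * μ univ) * κ := by
          gcongr
          exact hκ m
      _ = _ := by simp; ring
  | succ n ih =>
    intro m D hD i₀ z₀ μ hfin hμσ hμ0 hsupp
    have hsm := measurable_suc F hF g hg
    have hs1 := suc_le_one F g hg1
    set B : ℝ≥0∞ := 13 * n * (2⁻¹ : ℝ≥0∞) ^ k +
      (2 ^ (23 * k + 3) * D) ^ 2 * (2 ^ (23 * k + 3)) ^ (2 * n) * (C * κ) with hB
    have hdec := decomp σ C hC e hcap (4 * k) (by omega) μ D hD i₀ z₀ hμσ hμ0 hsupp
      (suc F g (n + 1) m) (hs1 (n + 1) m) ((2⁻¹ : ℝ≥0∞) ^ k) (pow_ne_zero _ (by simp))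
      (12 * (2⁻¹ : ℝ≥0∞) ^ k + B) ?_
    · refine le_trans hdec (le_of_eq ?_)
      congr 1
      rw [hB]
      push_cast
      ring
    · intro i hi z U hU hq0 hthr hfrost
      set A : Set E := U ∩ closedBall z ((1 / 2) ^ i) with hA
      have hAm : MeasurableSet A := hU.inter measurableSet_closedBall
      set q : ℝ≥0∞ := μ A with hq
      have hqt : q ≠ ⊤ := measure_ne_top _ _
      set P : Measure E := q⁻¹ • μ.restrict A with hP
      have hPprob : IsProbabilityMeasure P := by
        constructor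
        rw [hP, Measure.smul_apply, smul_eq_mul, Measure.restrict_apply_univ]
        exact ENNReal.inv_mul_cancel hq0 hqt
      have hPapp : ∀ S : Set E, MeasurableSet S → P S = q⁻¹ * μ (A ∩ S) := by
        intro S hS
        rw [hP, Measure.smul_apply, smul_eq_mul, Measure.restrict_apply hS, inter_comm]
      have hPsupp : P (closedBall z ((1 / 2) ^ i))ᶜ = 0 := by
        rw [hPapp _ measurableSet_closedBall.compl]
        have : A ∩ (closedBall z ((1 / 2) ^ i))ᶜ = ∅ := by
          ext x; simp [hA]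
        rw [this, measure_empty, mul_zero]
      have hPfrost : ∀ y : E, ∀ j : ℕ, P (closedBall y ((1 / 2) ^ i * (1 / 2) ^ j))
          ≤ 2 * (2⁻¹ : ℝ≥0∞) ^ (4 * k * j) := by
        intro y j
        rw [hPapp _ measurableSet_closedBall, ← pow_add]
        calc q⁻¹ * μ (A ∩ closedBall y ((1 / 2) ^ (i + j)))
            ≤ q⁻¹ * (2 * (2⁻¹ : ℝ≥0∞) ^ (4 * k * j) * q) := mul_le_mul_right (hfrost y j) _
          _ = 2 * (2⁻¹ : ℝ≥0∞) ^ (4 * k * j) * (q⁻¹ * q) := by ring
          _ = _ := by rw [ENNReal.inv_mul_cancel hq0 hqt, mul_one]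
      -- density of P
      have hPσ : P ≤ (2 ^ (k + 1) * D * 2 ^ (4 * k * i)) • σ := by
        rw [Measure.le_iff]
        intro S hS
        rw [hPapp S hS, Measure.smul_apply, smul_eq_mul]
        have h1 : μ (A ∩ S) ≤ (D * 2 ^ (4 * k * i₀) * μ univ) * σ S := by
          calc μ (A ∩ S) ≤ μ S := measure_mono inter_subset_right
            _ ≤ ((D * 2 ^ (4 * k * i₀) * μ univ) • σ) S := hμσ S
            _ = _ := by rw [Measure.smul_apply, smul_eq_mul]
        have h2 : μ univ ≤ 2 ^ (k + 1) * 2 ^ (4 * k * (i - i₀)) * q := by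
          calc μ univ = (2 ^ k * (2⁻¹ : ℝ≥0∞) ^ k) * (2 ^ (4 * k * (i - i₀)) *
                (2⁻¹ : ℝ≥0∞) ^ (4 * k * (i - i₀))) * μ univ := by
                rw [two_mul_half_pow, two_mul_half_pow, one_mul, one_mul]
            _ = 2 ^ k * 2 ^ (4 * k * (i - i₀)) *
                ((2⁻¹ : ℝ≥0∞) ^ k * (2⁻¹ : ℝ≥0∞) ^ (4 * k * (i - i₀)) * μ univ) := by ring
            _ ≤ 2 ^ k * 2 ^ (4 * k * (i - i₀)) * (2 * q) := mul_le_mul_right hthr _
            _ = _ := by rw [pow_succ]; ring
        have h3 : (2 : ℝ≥0∞) ^ (4 * k * i) = 2 ^ (4 * k * (i - i₀)) * 2 ^ (4 * k * i₀) := by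
          rw [← pow_add, ← mul_add, Nat.sub_add_cancel hi]
        calc q⁻¹ * μ (A ∩ S) ≤ q⁻¹ * ((D * 2 ^ (4 * k * i₀) * μ univ) * σ S) :=
              mul_le_mul_right h1 _
          _ ≤ q⁻¹ * ((D * 2 ^ (4 * k * i₀) * (2 ^ (k + 1) * 2 ^ (4 * k * (i - i₀)) * q)) * σ S) := by
              gcongr
          _ = (2 ^ (k + 1) * D * (2 ^ (4 * k * (i - i₀)) * 2 ^ (4 * k * i₀))) * σ S * (q⁻¹ * q) := by
              ring
          _ = _ := by rw [ENNReal.inv_mul_cancel hq0 hqt, mul_one, h3]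
      have hstep := block_step P z ((1 / 2) ^ i) (by positivity) hPsupp k hk hPfrost hι (F n m)
        (hF n m) (suc F g n) (hsm n) (hs1 n) B ?_
      · have h1 : ∫⁻ s, suc F g (n + 1) m s ∂P ≤ 12 * (2⁻¹ : ℝ≥0∞) ^ k + B := by
          simp_rw [suc_succ F hF g n m]
          exact hstep
        have h2 : ∫⁻ s in A, suc F g (n + 1) m s ∂μ = q * ∫⁻ s, suc F g (n + 1) m s ∂P := by
          rw [hP, lintegral_smul_measure, smul_eq_mul, ← mul_assoc,
            ENNReal.mul_inv_cancel hq0 hqt, one_mul]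
        rw [h2, mul_comm]
        exact mul_le_mul_left h1 _
      · intro i' ν hνfin hν0 hνP
        have h1 : ν ≤ ((2 ^ (23 * k + 3) * D) * 2 ^ (4 * k * i) * ν univ) • σ := by
          rw [Measure.le_iff]
          intro S hS
          calc ν S ≤ ((2 ^ (22 * k + 2) * ν univ) • P) S := hνP S
            _ = (2 ^ (22 * k + 2) * ν univ) * P S := by rw [Measure.smul_apply, smul_eq_mul]
            _ ≤ (2 ^ (22 * k + 2) * ν univ) * (((2 ^ (k + 1) * D * 2 ^ (4 * k * i)) • σ) S) :=
                mul_le_mul_right (hPσ S) _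
            _ = _ := by
                rw [Measure.smul_apply, Measure.smul_apply, smul_eq_mul, smul_eq_mul,
                  show 23 * k + 3 = (22 * k + 2) + (k + 1) by ring, pow_add 2 (22 * k + 2)]
                ring
        have h2 : ν (closedBall z ((1 / 2) ^ i))ᶜ = 0 := by
          have h3 := hνP (closedBall z ((1 / 2) ^ i))ᶜ
          rw [Measure.smul_apply, smul_eq_mul, hPsupp, mul_zero] at h3
          exact le_antisymm h3 zero_le
        exact ih i' (2 ^ (23 * k + 3) * D) (ENNReal.mul_ne_top (ENNReal.pow_ne_top (by norm_num)) hD)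
          i z ν hνfin h1 hν0 h2

end Vale.Agent.P309
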