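import Mathlib
import Vale.Agent.P309.Induct

/-!
# P309: deterministic finite-state machines reading the samples one by one
-/

namespace Vale.Agent.P309

open MeasureTheory ProbabilityTheory Metric Set Module
open scoped ENNReal NNReal RealInnerProductSpace

variable {E : Type*} [NormedAddCommGroup E] [InnerProductSpace ℝ E] [FiniteDimensional ℝ E]
  [MeasurableSpace E] [BorelSpace E]
variable {ι : Type*} [Fintype ι] [MeasurableSpace ι] [MeasurableSingletonClass ι]

/-- run of a machine on `n` samples -/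
def iter (G : ι → E × ℝ → ι) : (n : ℕ) → (Fin n → E) → (Fin n → ℝ) → ι → ι
  | 0, _, _, c => c
  | n + 1, x, y, c => iter G n (Fin.tail x) (Fin.tail y) (G c (x 0, y 0))

/-- expected terminal value after `n` samples, for the signal `s` -/
noncomputable def val (G : ι → E × ℝ → ι) (g : ι → E → ℝ≥0∞) : ℕ → ι → E → ℝ≥0∞
  | 0, c, s => g c s
  | n + 1, c, s => ∫⁻ x, val G g n (G c (x, ⟪x, s⟫)) s ∂(stdGaussian E)

set_option linter.unusedSectionVars false in
lemma measurable_iter (G : ι → E × ℝ → ι) (hG : ∀ c, Measurable (G c)) :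
    ∀ n : ℕ, ∀ c : ι, Measurable (fun q : (Fin n → E) × (Fin n → ℝ) => iter G n q.1 q.2 c) := by
  intro n
  induction n with
  | zero => intro c; exact measurable_const
  | succ n ih =>
    intro c
    have h1 : Measurable (fun q : (Fin (n + 1) → E) × (Fin (n + 1) → ℝ) =>
        ((Fin.tail q.1, Fin.tail q.2), G c (q.1 0, q.2 0))) := by
      refine Measurable.prodMk (Measurable.prodMk ?_ ?_) ((hG c).comp (by fun_prop))
      · unfold Fin.tail; fun_prop
      · unfold Fin.tail; fun_prop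
    have h2 : Measurable (fun r : ((Fin n → E) × (Fin n → ℝ)) × ι => iter G n r.1.1 r.1.2 r.2) :=
      measurable_from_prod_countable_left ih
    exact h2.comp h1

/-- splitting off the first row -/
lemma rows_succ (n : ℕ) (f : (Fin (n + 1) → E) → ℝ≥0∞) (hf : Measurable f) :
    ∫⁻ X, f X ∂(rows E (n + 1))
      = ∫⁻ x, ∫⁻ X, f (Fin.cons x X : Fin (n + 1) → E) ∂(rows E n) ∂(stdGaussian E) := by
  have hmp := (measurePreserving_piFinSuccAbove (fun _ : Fin (n + 1) => stdGaussian E) 0).symm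
  unfold rows
  rw [← hmp.lintegral_comp hf]
  have h := lintegral_prod (μ := stdGaussian E) (ν := Measure.pi fun _ : Fin n => stdGaussian E)
    (fun a => f ((MeasurableEquiv.piFinSuccAbove (fun _ => E) 0).symm a))
    (hf.comp hmp.measurable).aemeasurable
  rw [h]
  congr 1; ext x
  congr 1; ext X
  congr 1; ext i
  refine Fin.cases ?_ (fun j => ?_) i <;> simp [MeasurableEquiv.piFinSuccAbove, Fin.insertNthEquiv]

lemma val_eq (G : ι → E × ℝ → ι) (hG : ∀ c, Measurable (G c)) (g : ι → E → ℝ≥0∞) (s : E) :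
    ∀ n : ℕ, ∀ c : ι, val G g n c s = ∫⁻ X, g (iter G n X (labels X s) c) s ∂(rows E n) := by
  intro n
  induction n with
  | zero =>
    intro c
    simp [val, iter]
  | succ n ih =>
    intro c
    have hm : Measurable (fun X : Fin (n + 1) → E => g (iter G (n + 1) X (labels X s) c) s) := by
      have h1 : Measurable (fun X : Fin (n + 1) → E => (X, labels X s)) := by
        unfold labels; fun_prop
      have h2 := (measurable_iter G hG (n + 1) c).comp h1
      exact (measurable_of_finite (fun c' : ι => g c' s)).comp h2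
    rw [rows_succ n _ hm]
    show ∫⁻ x, val G g n (G c (x, ⟪x, s⟫)) s ∂(stdGaussian E) = _
    congr 1; ext x
    rw [ih]
    congr 1

omit [Fintype ι] [MeasurableSpace ι] [MeasurableSingletonClass ι] [BorelSpace E] in
lemma val_val (G : ι → E × ℝ → ι) (g : ι → E → ℝ≥0∞) (n₂ : ℕ) :
    ∀ n₁ : ℕ, ∀ c s, val G (val G g n₂) n₁ c s = val G g (n₂ + n₁) c s := by
  intro n₁
  induction n₁ with
  | zero => intro c s; rfl
  | succ n ih =>
    intro c s
    show ∫⁻ x, val G (val G g n₂) n (G c (x, ⟪x, s⟫)) s ∂(stdGaussian E) = _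
    simp_rw [ih]
    rfl

lemma suc_eq_val (G : ι → E × ℝ → ι) (hG : ∀ c, Measurable (G c)) (g : ι → E → ℝ≥0∞) (k : ℕ) :
    ∀ n : ℕ, ∀ c s, suc (k := k) (fun _ m q => iter G k q.1 q.2 m) g n c s
      = val G g (k * n) c s := by
  intro n
  induction n with
  | zero => intro c s; rfl
  | succ n ih =>
    intro c s
    show ∫⁻ X, suc (k := k) (fun _ m q => iter G k q.1 q.2 m) g n
      (iter G k X (labels X s) c) s ∂(rows E k) = _
    simp_rw [ih]
    rw [show k * (n + 1) = k * n + k by ring, ← val_val G g (k * n) k c s,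
      val_eq G hG (val G g (k * n)) s k c]

omit [Fintype ι] [MeasurableSpace ι] [MeasurableSingletonClass ι] in
/-- after the machine is frozen nothing changes -/
lemma val_frozen (G : ι → E × ℝ → ι) (g : ι → E → ℝ≥0∞) (r : ι → ℕ)
    (h0 : ∀ c, r c = 0 → ∀ q, G c q = c) (h1 : ∀ c q, r (G c q) ≤ r c - 1) (s : E) :
    ∀ n : ℕ, ∀ c, r c ≤ n → ∀ j, val G g (n + j) c s = val G g n c s := by
  intro n
  induction n with
  | zero =>
    intro c hc j
    have hc0 : r c = 0 := by omega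
    rw [zero_add]
    induction j with
    | zero => rfl
    | succ j ih =>
      show ∫⁻ x, val G g j (G c (x, ⟪x, s⟫)) s ∂(stdGaussian E) = _
      simp_rw [h0 c hc0]
      rw [ih]
      simp
  | succ n ih =>
    intro c hc j
    rw [show n + 1 + j = (n + j) + 1 by ring]
    show ∫⁻ x, val G g (n + j) (G c (x, ⟪x, s⟫)) s ∂(stdGaussian E)
      = ∫⁻ x, val G g n (G c (x, ⟪x, s⟫)) s ∂(stdGaussian E)
    congr 1; ext x
    refine ih _ ?_ j
    have := h1 c (x, ⟪x, s⟫)
    omega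

omit [MeasurableSpace ι] [MeasurableSingletonClass ι] in
/-- trivial bound by the number of states -/
lemma val_le_sum (G : ι → E × ℝ → ι) (g : ι → E → ℝ≥0∞) (s : E) :
    ∀ n : ℕ, ∀ c, val G g n c s ≤ ∑ c', g c' s := by
  intro n
  induction n with
  | zero => intro c; exact Finset.single_le_sum (f := fun c' => g c' s)
              (fun _ _ => zero_le) (Finset.mem_univ c)
  | succ n ih =>
    intro c
    show ∫⁻ x, val G g n (G c (x, ⟪x, s⟫)) s ∂(stdGaussian E) ≤ _
    calc _ ≤ ∫⁻ _, ∑ c', g c' s ∂(stdGaussian E) := lintegral_mono fun x => ih _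
      _ = _ := by simp

omit [MeasurableSpace ι] [MeasurableSingletonClass ι] in
/-- memory bound -/
lemma memory_bound (σ : Measure E) (G : ι → E × ℝ → ι) (g : ι → E → ℝ≥0∞)
    (hg : ∀ c, Measurable (g c)) (κ : ℝ≥0∞) (hκ : ∀ c, ∫⁻ s, g c s ∂σ ≤ κ) (n : ℕ) (c : ι) :
    ∫⁻ s, val G g n c s ∂σ ≤ Fintype.card ι * κ := by
  calc ∫⁻ s, val G g n c s ∂σ ≤ ∫⁻ s, ∑ c', g c' s ∂σ := lintegral_mono fun s => val_le_sum G g s n c
    _ = ∑ c', ∫⁻ s, g c' s ∂σ := lintegral_finsetSum _ fun c' _ => hg c'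
    _ ≤ ∑ _c' : ι, κ := Finset.sum_le_sum fun c' _ => hκ c'
    _ = _ := by simp

/-- sample bound -/
theorem sample_bound (σ : Measure E) [IsProbabilityMeasure σ] (C : ℝ≥0∞) (hC : C ≠ ⊤) (e : ℕ)
    (hcap : ∀ z : E, ∀ j : ℕ, σ (closedBall z ((1 / 2) ^ j)) ≤ C * (2⁻¹ : ℝ≥0∞) ^ (e * j))
    (hσ : σ (closedBall 0 1)ᶜ = 0)
    (k : ℕ) (hk : 1 ≤ k) (hke : 8 * k ≤ e) (hι : Fintype.card ι ≤ 2 ^ (k ^ 2))
    (G : ι → E × ℝ → ι) (hG : ∀ c, Measurable (G c))
    (g : ι → E → ℝ≥0∞) (hg : ∀ m, Measurable (g m)) (hg1 : ∀ m s, g m s ≤ 1) (κ : ℝ≥0∞)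
    (hκ : ∀ m, ∫⁻ s, g m s ∂σ ≤ κ) (r : ι → ℕ)
    (h0 : ∀ c, r c = 0 → ∀ q, G c q = c) (h1 : ∀ c q, r (G c q) ≤ r c - 1)
    (T B : ℕ) (hTB : T ≤ k * B) (c : ι) (hc : r c ≤ T) :
    ∫⁻ s, val G g T c s ∂σ ≤
      13 * B * (2⁻¹ : ℝ≥0∞) ^ k + (2 ^ (23 * k + 3)) ^ (2 * B) * (C * κ) := by
  have hF : ∀ (n : ℕ) (m : ι), Measurable ((fun (_ : ℕ) (m : ι) (q : (Fin k → E) × (Fin k → ℝ)) =>
      iter G k q.1 q.2 m) n m) := fun n m => measurable_iter G hG k m
  have hmain := main_induct σ C hC e hcap k hk hke hι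
    (fun _ m q => iter G k q.1 q.2 m) hF g hg hg1 κ hκ B c 1 (by norm_num) 0 0 σ inferInstance
    (by simp) (by simp) (by simpa using hσ)
  have heq : ∀ s, val G g T c s = suc (k := k) (fun _ m q => iter G k q.1 q.2 m) g B c s := by
    intro s
    rw [suc_eq_val G hG g k B c s]
    obtain ⟨j, hj⟩ := Nat.exists_eq_add_of_le hTB
    rw [hj, val_frozen G g r h0 h1 s T c hc j]
  simp_rw [heq]
  simpa using hmain

end Vale.Agent.P309
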