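import Mathlib

/-!
# P309: the uniform measure on the sphere
-/

namespace Vale.Agent.P309

open MeasureTheory Metric Set Module
open scoped ENNReal NNReal Pointwise

variable {E : Type*} [NormedAddCommGroup E] [NormedSpace ℝ E] [FiniteDimensional ℝ E]
  [MeasurableSpace E] [BorelSpace E]

/-- small caps have small measure -/
lemma cap_aux [Nontrivial E] (μ : Measure E) [μ.IsAddHaarMeasure] (z : E) (ρ : ℝ) (hρ : 0 < ρ)
    (hρ1 : ρ ≤ 1) :
    μ.toSphere {s : sphere (0 : E) 1 | (s : E) ∈ closedBall z ρ} ≤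
      (2 * 3 ^ finrank ℝ E * ENNReal.ofReal ρ ^ (finrank ℝ E - 1)) * μ.toSphere univ := by
  have hm : MeasurableSet {s : sphere (0 : E) 1 | (s : E) ∈ closedBall z ρ} :=
    measurable_subtype_coe measurableSet_closedBall
  rw [Measure.toSphere_apply' _ hm, Measure.toSphere_apply_univ]
  set A : Set (sphere (0 : E) 1) := {s | (s : E) ∈ closedBall z ρ} with hA
  rcases A.eq_empty_or_nonempty with hAe | ⟨z', hz'⟩
  · rw [hAe]
    simp
  have hd : 1 ≤ finrank ℝ E := finrank_pos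
  -- the covering
  set N : ℕ := ⌈1 / ρ⌉₊ with hN
  have hN1 : 1 / ρ ≤ N := Nat.le_ceil _
  have hNpos : (0 : ℝ) < N := lt_of_lt_of_le (by positivity) hN1
  have hN2 : (N : ℝ) ≤ 2 / ρ := by
    have h1 := Nat.ceil_lt_add_one (show (0 : ℝ) ≤ 1 / ρ by positivity)
    have h2 : (1 : ℝ) ≤ 1 / ρ := by rw [le_div_iff₀ hρ]; linarith
    have h3 : 2 / ρ = 1 / ρ + 1 / ρ := by ring
    rw [h3]
    linarith
  have hcov : Ioo (0 : ℝ) 1 • ((↑) '' A : Set E) ⊆
      ⋃ j ∈ Finset.range N, closedBall (((j : ℝ) / N) • (z' : E)) (3 * ρ) := by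
    rintro _ ⟨t, ⟨ht0, ht1⟩, _, ⟨s, hs, rfl⟩, rfl⟩
    rw [mem_iUnion₂]
    refine ⟨⌊t * N⌋₊, ?_, ?_⟩
    · rw [Finset.mem_range, Nat.floor_lt (by positivity)]
      nlinarith
    · rw [mem_closedBall, dist_eq_norm]
      simp only
      have h1 : t • (s : E) - ((⌊t * N⌋₊ : ℝ) / N) • (z' : E)
          = t • ((s : E) - z') + (t - (⌊t * N⌋₊ : ℝ) / N) • (z' : E) := by
        rw [smul_sub, sub_smul]; abel
      rw [h1]
      refine le_trans (norm_add_le _ _) ?_
      rw [norm_smul, norm_smul, norm_eq_of_mem_sphere z', mul_one]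
      have h2 : ‖(s : E) - z'‖ ≤ 2 * ρ := by
        have h3 : (s : E) - z' = ((s : E) - z) - ((z' : E) - z) := by abel
        have h4 : ‖(s : E) - z‖ ≤ ρ := by rw [← dist_eq_norm]; exact hs
        have h5 : ‖(z' : E) - z‖ ≤ ρ := by rw [← dist_eq_norm]; exact hz'
        rw [h3]
        refine le_trans (norm_sub_le _ _) ?_
        linarith
      have h6 : ‖t - (⌊t * N⌋₊ : ℝ) / N‖ ≤ ρ := by
        have h7 := Nat.floor_le (show 0 ≤ t * N by positivity)
        have h8 := Nat.lt_floor_add_one (t * N)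
        rw [Real.norm_eq_abs, abs_le]
        have h9 : 1 ≤ ρ * N := by
          rw [div_le_iff₀ hρ] at hN1; linarith
        constructor
        · have : (⌊t * N⌋₊ : ℝ) / N ≤ t := by rw [div_le_iff₀ hNpos]; exact h7
          linarith
        · have : t - ρ ≤ (⌊t * N⌋₊ : ℝ) / N := by
            rw [le_div_iff₀ hNpos]; nlinarith
          linarith
      rw [Real.norm_of_nonneg ht0.le]
      have h10 : t * ‖(s : E) - z'‖ ≤ 1 * (2 * ρ) :=
        mul_le_mul ht1.le h2 (norm_nonneg _) (by norm_num)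
      linarith
  have hvol : μ (Ioo (0 : ℝ) 1 • ((↑) '' A : Set E)) ≤
      (2 * 3 ^ finrank ℝ E * ENNReal.ofReal ρ ^ (finrank ℝ E - 1)) * μ (ball 0 1) := by
    calc μ (Ioo (0 : ℝ) 1 • ((↑) '' A : Set E))
        ≤ μ (⋃ j ∈ Finset.range N, closedBall (((j : ℝ) / N) • (z' : E)) (3 * ρ)) :=
          measure_mono hcov
      _ ≤ ∑ j ∈ Finset.range N, μ (closedBall (((j : ℝ) / N) • (z' : E)) (3 * ρ)) :=
          measure_biUnion_finset_le _ _
      _ = (N : ℝ≥0∞) * (ENNReal.ofReal ((3 * ρ) ^ finrank ℝ E) * μ (ball 0 1)) := by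
          simp [Measure.addHaar_closedBall μ _ (show 0 ≤ 3 * ρ by positivity)]
      _ ≤ ENNReal.ofReal (2 / ρ) * (ENNReal.ofReal ((3 * ρ) ^ finrank ℝ E) * μ (ball 0 1)) := by
          gcongr
          rw [← ENNReal.ofReal_natCast]
          exact ENNReal.ofReal_le_ofReal hN2
      _ = (2 * 3 ^ finrank ℝ E * ENNReal.ofReal ρ ^ (finrank ℝ E - 1)) * μ (ball 0 1) := by
          rw [← mul_assoc]
          congr 1
          rw [← ENNReal.ofReal_mul (by positivity), ← ENNReal.ofReal_pow hρ.le]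
          have h1 : 2 / ρ * (3 * ρ) ^ finrank ℝ E
              = 2 * 3 ^ finrank ℝ E * ρ ^ (finrank ℝ E - 1) := by
            obtain ⟨n, hn⟩ : ∃ n, finrank ℝ E = n + 1 := ⟨finrank ℝ E - 1, by omega⟩
            rw [hn]
            simp only [Nat.add_sub_cancel]
            rw [mul_pow, pow_succ ρ n]
            field_simp
          rw [h1, ENNReal.ofReal_mul (by positivity), ENNReal.ofReal_mul (by norm_num),
            ENNReal.ofReal_pow (by norm_num : (0 : ℝ) ≤ 3)]
          norm_num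
  calc (finrank ℝ E : ℝ≥0∞) * μ (Ioo (0 : ℝ) 1 • ((↑) '' A : Set E))
      ≤ (finrank ℝ E : ℝ≥0∞) * ((2 * 3 ^ finrank ℝ E * ENNReal.ofReal ρ ^ (finrank ℝ E - 1)) *
          μ (ball 0 1)) := by gcongr
    _ = _ := by ring

/-- the uniform distribution on the unit sphere -/
noncomputable def unifSphere (μ : Measure E) : Measure (sphere (0 : E) 1) :=
  (μ.toSphere univ)⁻¹ • μ.toSphere

lemma unifSphere_prob [Nontrivial E] (μ : Measure E) [μ.IsAddHaarMeasure] :
    IsProbabilityMeasure (unifSphere μ) := by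
  constructor
  unfold unifSphere
  rw [Measure.smul_apply, smul_eq_mul]
  apply ENNReal.inv_mul_cancel
  · rw [Ne, Measure.measure_univ_eq_zero]
    exact Measure.toSphere_ne_zero μ
  · exact measure_ne_top _ _

/-- cap bound -/
lemma cap_bound [Nontrivial E] (μ : Measure E) [μ.IsAddHaarMeasure] (z : E) (ρ : ℝ) (hρ : 0 < ρ)
    (hρ1 : ρ ≤ 1) :
    ((unifSphere μ).map Subtype.val) (closedBall z ρ) ≤
      2 * 3 ^ finrank ℝ E * ENNReal.ofReal ρ ^ (finrank ℝ E - 1) := by
  rw [Measure.map_apply measurable_subtype_coe measurableSet_closedBall]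
  unfold unifSphere
  rw [Measure.smul_apply, smul_eq_mul]
  have h0 : μ.toSphere univ ≠ 0 := by
    rw [Ne, Measure.measure_univ_eq_zero]
    exact Measure.toSphere_ne_zero μ
  have ht : μ.toSphere univ ≠ ⊤ := measure_ne_top _ _
  calc (μ.toSphere univ)⁻¹ * μ.toSphere (Subtype.val ⁻¹' closedBall z ρ)
      ≤ (μ.toSphere univ)⁻¹ * ((2 * 3 ^ finrank ℝ E * ENNReal.ofReal ρ ^ (finrank ℝ E - 1)) *
          μ.toSphere univ) := by
        gcongr
        exact cap_aux μ z ρ hρ hρ1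
    _ = _ := by
        rw [mul_comm (μ.toSphere univ)⁻¹, mul_assoc, ENNReal.mul_inv_cancel h0 ht, mul_one]

end Vale.Agent.P309
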