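import Mathlib
import Vale.Agent.P309.Machine
import Vale.Agent.P309.Sphere
import Vale.Agent.P309.Defs

/-!
# P309: from learners to deterministic machines
-/

namespace Vale.Agent.P309

open MeasureTheory ProbabilityTheory Metric Set Module
open scoped ENNReal NNReal RealInnerProductSpace

variable {d N : ℕ} (L : Learner d N)

namespace Learner

lemma measurable_advance (c : Fin N × ℕ × Bool) :
    Measurable (fun p : L.Seed × EuclideanSpace ℝ (Fin d) × EuclideanSpace ℝ (Fin d) =>
      L.advance p.1 p.2.1 p.2.2 c) := by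
  unfold advance
  by_cases hc : c.2.2 = true
  · simp only [hc, if_true]
    exact measurable_const
  · simp only [hc]
    have h1 : Measurable (fun p : L.Seed × EuclideanSpace ℝ (Fin d) × EuclideanSpace ℝ (Fin d) =>
        (p.1, p.2.2, ⟪p.2.2, p.2.1⟫)) := by fun_prop
    exact ((L.step_meas c.2.1 c.1).comp h1).prodMk
      (measurable_const.prodMk ((L.stop_meas c.2.1 c.1).comp h1))

lemma measurable_run : ∀ n : ℕ, ∀ c : Fin N × ℕ × Bool,
    Measurable (fun p : L.Seed × EuclideanSpace ℝ (Fin d) × (Fin n → EuclideanSpace ℝ (Fin d)) =>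
      L.run p.1 p.2.1 n p.2.2 c) := by
  intro n
  induction n with
  | zero => intro c; exact measurable_const
  | succ n ih =>
    intro c
    have h1 : Measurable (fun p : L.Seed × EuclideanSpace ℝ (Fin d) ×
        (Fin (n + 1) → EuclideanSpace ℝ (Fin d)) =>
        ((p.1, p.2.1, Fin.tail p.2.2), L.advance p.1 p.2.1 (p.2.2 0) c)) := by
      refine Measurable.prodMk ?_ ?_
      · unfold Fin.tail; fun_prop
      · have h3 : Measurable (fun p : L.Seed × EuclideanSpace ℝ (Fin d) ×
          (Fin (n + 1) → EuclideanSpace ℝ (Fin d)) => (p.1, p.2.1, p.2.2 0)) := by fun_prop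
        exact (L.measurable_advance c).comp h3
    have h2 : Measurable (fun r : (L.Seed × EuclideanSpace ℝ (Fin d) ×
        (Fin n → EuclideanSpace ℝ (Fin d))) × (Fin N × ℕ × Bool) =>
        L.run r.1.1 r.1.2.1 n r.1.2.2 r.2) := measurable_from_prod_countable_left ih
    exact h2.comp h1

lemma measurable_output (T : ℕ) :
    Measurable (fun p : L.Seed × EuclideanSpace ℝ (Fin d) × (Fin T → EuclideanSpace ℝ (Fin d)) =>
      L.output T p.1 p.2.1 p.2.2) := by
  have h1 : Measurable (fun r : (L.Seed × EuclideanSpace ℝ (Fin d) ×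
        (Fin T → EuclideanSpace ℝ (Fin d))) × (Fin N × ℕ × Bool) =>
        L.run r.1.1 r.1.2.1 T r.1.2.2 r.2) :=
    measurable_from_prod_countable_left (L.measurable_run T)
  have h2 : Measurable (fun p : L.Seed × EuclideanSpace ℝ (Fin d) ×
      (Fin T → EuclideanSpace ℝ (Fin d)) =>
      L.run p.1 p.2.1 T p.2.2 (L.init p.1, 0, false)) := by
    have h3 : Measurable (fun p : L.Seed × EuclideanSpace ℝ (Fin d) ×
      (Fin T → EuclideanSpace ℝ (Fin d)) => (p, ((L.init p.1, 0, false) : Fin N × ℕ × Bool))) := by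
      refine measurable_id.prodMk (Measurable.prodMk ?_ measurable_const)
      exact L.init_meas.comp measurable_fst
    exact h1.comp h3
  have h4 : Measurable (fun r : L.Seed × (Fin N × ℕ × Bool) => L.out r.2.2.1 r.1 r.2.1) :=
    measurable_from_prod_countable_left fun c => L.out_meas c.2.1 c.1
  exact h4.comp (measurable_fst.prodMk h2)

/-- transition of the finite machine with horizon `T` -/
noncomputable def mach (T : ℕ) (ω : L.Seed) (c : Fin N × Fin (T + 1) × Bool)
    (q : EuclideanSpace ℝ (Fin d) × ℝ) : Fin N × Fin (T + 1) × Bool :=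
  if c.2.2 = true then c
  else if h : (c.2.1 : ℕ) < T then
    (L.step c.2.1 ω c.1 q.1 q.2, ⟨c.2.1 + 1, by omega⟩, L.stop c.2.1 ω c.1 q.1 q.2)
  else c

lemma measurable_mach (T : ℕ) (ω : L.Seed) (c : Fin N × Fin (T + 1) × Bool) :
    Measurable (L.mach T ω c) := by
  unfold mach
  by_cases hc : c.2.2 = true
  · simp only [hc, if_true]
    exact measurable_const
  · by_cases h : (c.2.1 : ℕ) < T
    · simp only [hc, h, dif_pos, if_false, Bool.false_eq_true]
      have h1 : Measurable (fun q : EuclideanSpace ℝ (Fin d) × ℝ => (ω, q.1, q.2)) := by fun_prop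
      exact ((L.step_meas c.2.1 c.1).comp h1).prodMk
        (measurable_const.prodMk ((L.stop_meas c.2.1 c.1).comp h1))
    · simp only [hc, h, dif_neg, if_false, Bool.false_eq_true, not_false_eq_true]
      exact measurable_const

/-- remaining number of active steps -/
def rem (N T : ℕ) (c : Fin N × Fin (T + 1) × Bool) : ℕ := if c.2.2 = true then 0 else T - c.2.1

lemma rem_zero (T : ℕ) (ω : L.Seed) (c : Fin N × Fin (T + 1) × Bool) (h : rem N T c = 0)
    (q : EuclideanSpace ℝ (Fin d) × ℝ) : L.mach T ω c q = c := by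
  unfold rem at h
  unfold mach
  by_cases hc : c.2.2 = true
  · simp [hc]
  · simp only [hc] at h ⊢
    have : ¬ (c.2.1 : ℕ) < T := by
      have := c.2.1.isLt
      simp only [Bool.false_eq_true, if_false] at h
      omega
    simp [this]

lemma rem_step (T : ℕ) (ω : L.Seed) (c : Fin N × Fin (T + 1) × Bool)
    (q : EuclideanSpace ℝ (Fin d) × ℝ) : rem N T (L.mach T ω c q) ≤ rem N T c - 1 := by
  by_cases h0 : rem N T c = 0
  · rw [L.rem_zero T ω c h0 q]; omega
  · unfold rem at h0
    by_cases hc : c.2.2 = true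
    · simp [hc] at h0
    · simp only [hc, if_false, Bool.false_eq_true] at h0
      have h1 : (c.2.1 : ℕ) < T := by omega
      unfold mach
      simp only [hc, h1, dif_pos, if_false, Bool.false_eq_true]
      unfold rem
      simp only [hc, if_false, Bool.false_eq_true]
      split_ifs
      · omega
      · omega

/-- the embedding of finite configurations -/
def emb (N T : ℕ) (c : Fin N × Fin (T + 1) × Bool) : Fin N × ℕ × Bool := (c.1, (c.2.1 : ℕ), c.2.2)

lemma run_eq (T : ℕ) (ω : L.Seed) (s : EuclideanSpace ℝ (Fin d)) :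
    ∀ n : ℕ, ∀ x : Fin n → EuclideanSpace ℝ (Fin d), ∀ c : Fin N × Fin (T + 1) × Bool,
      (c.2.2 = false → (c.2.1 : ℕ) + n ≤ T) →
      emb N T (iter (L.mach T ω) n x (labels x s) c) = L.run ω s n x (emb N T c) := by
  intro n
  induction n with
  | zero => intro x c _; rfl
  | succ n ih =>
    intro x c hc
    show emb N T (iter (L.mach T ω) n (Fin.tail x) (Fin.tail (labels x s))
      (L.mach T ω c (x 0, labels x s 0))) = L.run ω s n (Fin.tail x)
        (L.advance ω s (x 0) (emb N T c))
    have h1 : Fin.tail (labels x s) = labels (Fin.tail x) s := rfl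
    have h2 : emb N T (L.mach T ω c (x 0, labels x s 0)) = L.advance ω s (x 0) (emb N T c) := by
      by_cases hb : c.2.2 = true
      · unfold mach advance emb
        simp [hb]
      · have hb' : c.2.2 = false := by simpa using hb
        have h3 : (c.2.1 : ℕ) < T := by have := hc hb'; omega
        unfold mach advance emb labels
        simp [hb', h3]
    rw [h1, ← h2]
    apply ih
    intro hb
    by_cases hb' : c.2.2 = true
    · exfalso
      unfold mach at hb
      simp [hb'] at hb
    · have hb'' : c.2.2 = false := by simpa using hb'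
      have h4 := hc hb''
      have h3 : (c.2.1 : ℕ) < T := by omega
      unfold mach
      simp only [hb', h3, dif_pos, if_false, Bool.false_eq_true]
      omega

/-- terminal value -/
noncomputable def goal (T : ℕ) (ω : L.Seed) (ε : ℝ) (c : Fin N × Fin (T + 1) × Bool) :
    EuclideanSpace ℝ (Fin d) → ℝ≥0∞ :=
  {s | Real.arccos ⟪(L.out c.2.1 ω c.1 : EuclideanSpace ℝ (Fin d)), s⟫ ≤ ε}.indicator 1

lemma measurableSet_goal (o : EuclideanSpace ℝ (Fin d)) (ε : ℝ) :
    MeasurableSet {s : EuclideanSpace ℝ (Fin d) | Real.arccos ⟪o, s⟫ ≤ ε} := by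
  apply IsClosed.measurableSet
  apply isClosed_le _ continuous_const
  exact Real.continuous_arccos.comp (by fun_prop)

/-- a successful learner yields a successful deterministic machine -/
lemma exists_seed (T : ℕ) (ε : ℝ) (h : L.Succeeds T ε) :
    ∃ ω : L.Seed, 2 / 3 ≤ ∫⁻ s, val (L.mach T ω) (L.goal T ω ε) T (L.init ω, 0, false) s
      ∂((signalLaw d).map Subtype.val) := by
  unfold Succeeds at h
  set A : Set (L.Seed × (sphere (0 : EuclideanSpace ℝ (Fin d)) 1) ×
    (Fin T → EuclideanSpace ℝ (Fin d))) :=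
    {p | Real.arccos ⟪(L.output T p.1 (p.2.1 : EuclideanSpace ℝ (Fin d)) p.2.2 :
      EuclideanSpace ℝ (Fin d)), (p.2.1 : EuclideanSpace ℝ (Fin d))⟫ ≤ ε} with hA
  have hAm : MeasurableSet A := by
    have h1 : Measurable (fun p : L.Seed × (sphere (0 : EuclideanSpace ℝ (Fin d)) 1) ×
        (Fin T → EuclideanSpace ℝ (Fin d)) =>
        (L.output T p.1 (p.2.1 : EuclideanSpace ℝ (Fin d)) p.2.2 :
          EuclideanSpace ℝ (Fin d))) := by
      have h2 : Measurable (fun p : L.Seed × (sphere (0 : EuclideanSpace ℝ (Fin d)) 1) ×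
        (Fin T → EuclideanSpace ℝ (Fin d)) =>
          (p.1, (p.2.1 : EuclideanSpace ℝ (Fin d)), p.2.2)) := by fun_prop
      exact measurable_subtype_coe.comp ((L.measurable_output T).comp h2)
    apply measurableSet_le _ measurable_const
    apply Real.continuous_arccos.measurable.comp
    exact h1.inner (by fun_prop)
  have hfs : IsFiniteMeasure (signalLaw d) := by
    unfold signalLaw
    constructor
    rw [Measure.smul_apply, smul_eq_mul]
    by_cases h0 : (volume : Measure (EuclideanSpace ℝ (Fin d))).toSphere univ = 0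
    · rw [h0]; simp
    · rw [ENNReal.inv_mul_cancel h0 (measure_ne_top _ _)]
      exact ENNReal.one_lt_top
  have hfr : IsProbabilityMeasure (rowLaw d T) := by unfold rowLaw; infer_instance
  rw [Measure.prod_apply hAm] at h
  have hfin : ∫⁻ ω, ((signalLaw d).prod (rowLaw d T)) (Prod.mk ω ⁻¹' A) ∂L.seedLaw ≠ ⊤ := by
    have : ∀ ω : L.Seed, ((signalLaw d).prod (rowLaw d T)) (Prod.mk ω ⁻¹' A)
        ≤ ((signalLaw d).prod (rowLaw d T)) univ := fun ω => measure_mono (subset_univ _)
    refine ne_top_of_le_ne_top ?_ (lintegral_mono this)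
    rw [lintegral_const]
    exact ENNReal.mul_ne_top (measure_ne_top _ _) (measure_ne_top _ _)
  obtain ⟨ω, hω⟩ := exists_lintegral_le hfin
  refine ⟨ω, le_trans h (le_trans hω (le_of_eq ?_))⟩
  have hAω : MeasurableSet (Prod.mk ω ⁻¹' A) := measurable_prodMk_left hAm
  rw [Measure.prod_apply hAω]
  have hgm : ∀ c, Measurable (L.goal T ω ε c) := fun c =>
    measurable_one.indicator (measurableSet_goal _ ε)
  have hval : Measurable (val (L.mach T ω) (L.goal T ω ε) T
      ((L.init ω, 0, false) : Fin N × Fin (T + 1) × Bool)) := by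
    have h1 := measurable_suc (k := 1) (fun _ m q => iter (L.mach T ω) 1 q.1 q.2 m)
      (fun n m => measurable_iter (L.mach T ω) (L.measurable_mach T ω) 1 m) (L.goal T ω ε) hgm T
      ((L.init ω, 0, false) : Fin N × Fin (T + 1) × Bool)
    have h2 : suc (k := 1) (fun _ m q => iter (L.mach T ω) 1 q.1 q.2 m) (L.goal T ω ε) T
        ((L.init ω, 0, false) : Fin N × Fin (T + 1) × Bool)
        = val (L.mach T ω) (L.goal T ω ε) T ((L.init ω, 0, false) : Fin N × Fin (T + 1) × Bool) := by
      ext s
      rw [suc_eq_val (L.mach T ω) (L.measurable_mach T ω), one_mul]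
    rwa [h2] at h1
  rw [lintegral_map hval measurable_subtype_coe]
  congr 1; ext s
  rw [val_eq (L.mach T ω) (L.measurable_mach T ω)]
  have hset : ∀ x : Fin T → EuclideanSpace ℝ (Fin d),
      L.goal T ω ε (iter (L.mach T ω) T x (labels x (s : EuclideanSpace ℝ (Fin d)))
        (L.init ω, 0, false)) (s : EuclideanSpace ℝ (Fin d))
      = (Prod.mk s ⁻¹' (Prod.mk ω ⁻¹' A)).indicator 1 x := by
    intro x
    have h1 := L.run_eq T ω (s : EuclideanSpace ℝ (Fin d)) T x
      ((L.init ω, 0, false) : Fin N × Fin (T + 1) × Bool) (by intro _; simp)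
    have h2 : emb N T ((L.init ω, 0, false) : Fin N × Fin (T + 1) × Bool)
        = (L.init ω, 0, false) := rfl
    rw [h2] at h1
    have hout : L.output T ω (s : EuclideanSpace ℝ (Fin d)) x
        = L.out (iter (L.mach T ω) T x (labels x (s : EuclideanSpace ℝ (Fin d)))
          (L.init ω, 0, false)).2.1 ω (iter (L.mach T ω) T x
            (labels x (s : EuclideanSpace ℝ (Fin d))) (L.init ω, 0, false)).1 := by
      unfold output
      rw [← h1]
      rfl
    by_cases hx : Real.arccos ⟪(L.output T ω (s : EuclideanSpace ℝ (Fin d)) x :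
        EuclideanSpace ℝ (Fin d)), (s : EuclideanSpace ℝ (Fin d))⟫ ≤ ε
    · have h3 : x ∈ (Prod.mk s ⁻¹' (Prod.mk ω ⁻¹' A)) := hx
      rw [indicator_of_mem h3]
      rw [hout] at hx
      unfold goal
      exact indicator_of_mem (s := {s' : EuclideanSpace ℝ (Fin d) | Real.arccos
        ⟪(L.out (iter (L.mach T ω) T x (labels x (s : EuclideanSpace ℝ (Fin d)))
          (L.init ω, 0, false)).2.1 ω (iter (L.mach T ω) T x
            (labels x (s : EuclideanSpace ℝ (Fin d))) (L.init ω, 0, false)).1 :
              EuclideanSpace ℝ (Fin d)), s'⟫ ≤ ε}) hx 1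
    · have h3 : x ∉ (Prod.mk s ⁻¹' (Prod.mk ω ⁻¹' A)) := hx
      rw [indicator_of_notMem h3]
      rw [hout] at hx
      unfold goal
      exact indicator_of_notMem (s := {s' : EuclideanSpace ℝ (Fin d) | Real.arccos
        ⟪(L.out (iter (L.mach T ω) T x (labels x (s : EuclideanSpace ℝ (Fin d)))
          (L.init ω, 0, false)).2.1 ω (iter (L.mach T ω) T x
            (labels x (s : EuclideanSpace ℝ (Fin d))) (L.init ω, 0, false)).1 :
              EuclideanSpace ℝ (Fin d)), s'⟫ ≤ ε}) hx 1
  simp_rw [hset]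
  rw [lintegral_indicator_one (measurable_prodMk_left hAω)]
  rfl

end Learner

end Vale.Agent.P309
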