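import Mathlib
import Vale.Agent.P309.Reduction

/-!
# P309: assembling the bounds for a learner
-/

namespace Vale.Agent.P309

open MeasureTheory ProbabilityTheory Metric Set Module
open scoped ENNReal NNReal RealInnerProductSpace

/-- chord at most angle -/
lemma chord_le {E : Type*} [NormedAddCommGroup E] [InnerProductSpace ℝ E] (o s : E) (ho : ‖o‖ = 1)
    (hs : ‖s‖ = 1) (ε : ℝ) (hε : 0 < ε) (h : Real.arccos ⟪o, s⟫ ≤ ε) : dist s o ≤ ε := by
  have h1 : |⟪o, s⟫| ≤ 1 := by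
    have := abs_real_inner_le_norm o s
    rwa [ho, hs, one_mul] at this
  have h2 := abs_le.1 h1
  have h3 : Real.cos (Real.arccos ⟪o, s⟫) = ⟪o, s⟫ := Real.cos_arccos h2.1 h2.2
  have h4 := Real.one_sub_sq_div_two_le_cos (x := Real.arccos ⟪o, s⟫)
  rw [h3] at h4
  have h5 : 0 ≤ Real.arccos ⟪o, s⟫ := Real.arccos_nonneg _
  have h6 : Real.arccos ⟪o, s⟫ ^ 2 ≤ ε ^ 2 := pow_le_pow_left₀ h5 h 2
  have h7 : ‖s - o‖ ^ 2 = 2 - 2 * ⟪o, s⟫ := by
    rw [norm_sub_sq_real, ho, hs, real_inner_comm]; ring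
  rw [dist_eq_norm]
  apply le_of_sq_le_sq _ hε.le
  rw [h7]; linarith

variable {d N : ℕ} (L : Learner d N)

lemma nontrivial_of_pos (hd : 1 ≤ d) : Nontrivial (EuclideanSpace ℝ (Fin d)) := by
  apply Module.nontrivial_of_finrank_pos (R := ℝ)
  simp; omega

lemma goal_bound (hd : 1 ≤ d) (T : ℕ) (ω : L.Seed) (ε : ℝ) (hε : 0 < ε) (hε1 : ε ≤ 1)
    (c : Fin N × Fin (T + 1) × Bool) :
    ∫⁻ s, L.goal T ω ε c s ∂((signalLaw d).map Subtype.val)
      ≤ 2 * 3 ^ d * ENNReal.ofReal ε ^ (d - 1) := by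
  have := nontrivial_of_pos hd
  unfold Learner.goal
  rw [lintegral_indicator_one (Learner.measurableSet_goal _ ε)]
  have h1 := cap_bound (volume : Measure (EuclideanSpace ℝ (Fin d)))
    (L.out c.2.1 ω c.1 : EuclideanSpace ℝ (Fin d)) ε hε hε1
  rw [finrank_euclideanSpace_fin] at h1
  refine le_trans ?_ h1
  show (signalLaw d).map Subtype.val _ ≤ (signalLaw d).map Subtype.val _
  rw [Measure.map_apply measurable_subtype_coe (Learner.measurableSet_goal _ ε),
    Measure.map_apply measurable_subtype_coe measurableSet_closedBall]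
  apply measure_mono
  intro s hs
  have h2 : Real.arccos ⟪(L.out c.2.1 ω c.1 : EuclideanSpace ℝ (Fin d)),
    (s : EuclideanSpace ℝ (Fin d))⟫ ≤ ε := hs
  have h3 : ‖(s : EuclideanSpace ℝ (Fin d))‖ = 1 := mem_sphere_zero_iff_norm.1 s.2
  have h4 : ‖(L.out c.2.1 ω c.1 : EuclideanSpace ℝ (Fin d))‖ = 1 :=
    mem_sphere_zero_iff_norm.1 (L.out c.2.1 ω c.1).2
  exact chord_le _ _ h4 h3 ε hε h2

lemma prob_signal (hd : 1 ≤ d) :
    IsProbabilityMeasure ((signalLaw d).map (Subtype.val :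
      sphere (0 : EuclideanSpace ℝ (Fin d)) 1 → EuclideanSpace ℝ (Fin d))) := by
  have := nontrivial_of_pos hd
  have : IsProbabilityMeasure (signalLaw d) :=
    unifSphere_prob (volume : Measure (EuclideanSpace ℝ (Fin d)))
  exact Measure.isProbabilityMeasure_map measurable_subtype_coe.aemeasurable

/-- memory-only bound -/
theorem memory_main (hd : 1 ≤ d) (T : ℕ) (ε : ℝ) (hε : 0 < ε) (hε1 : ε ≤ 1)
    (h : L.Succeeds T ε) :
    (2 / 3 : ℝ≥0∞) ≤ (N * (T + 1) * 2 : ℕ) * (2 * 3 ^ d * ENNReal.ofReal ε ^ (d - 1)) := by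
  obtain ⟨ω, hω⟩ := L.exists_seed T ε h
  refine le_trans hω ?_
  have hg : ∀ c, Measurable (L.goal T ω ε c) := fun c =>
    measurable_one.indicator (Learner.measurableSet_goal _ ε)
  have h1 := memory_bound ((signalLaw d).map Subtype.val) (L.mach T ω) (L.goal T ω ε) hg
    (2 * 3 ^ d * ENNReal.ofReal ε ^ (d - 1)) (fun c => goal_bound L hd T ω ε hε hε1 c) T
    (L.init ω, 0, false)
  refine le_trans h1 (le_of_eq ?_)
  congr 1
  simp only [Fintype.card_prod, Fintype.card_fin, Fintype.card_bool]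
  push_cast
  ring

/-- memory-sample bound -/
theorem sample_main (hd : 1 ≤ d) (T : ℕ) (ε : ℝ) (hε : 0 < ε) (hε1 : ε ≤ 1)
    (h : L.Succeeds T ε) (k : ℕ) (hk : 1 ≤ k) (hkd : 8 * k ≤ d - 1)
    (hN : N * (T + 1) * 2 ≤ 2 ^ (k ^ 2)) (B : ℕ) (hTB : T ≤ k * B) :
    (2 / 3 : ℝ≥0∞) ≤ 13 * B * (2⁻¹ : ℝ≥0∞) ^ k + (2 ^ (23 * k + 3)) ^ (2 * B) *
      (2 * 3 ^ d * (2 * 3 ^ d * ENNReal.ofReal ε ^ (d - 1))) := by
  have := nontrivial_of_pos hd
  have := prob_signal (d := d) hd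
  obtain ⟨ω, hω⟩ := L.exists_seed T ε h
  refine le_trans hω ?_
  have hg : ∀ c, Measurable (L.goal T ω ε c) := fun c =>
    measurable_one.indicator (Learner.measurableSet_goal _ ε)
  refine sample_bound ((signalLaw d).map Subtype.val) (2 * 3 ^ d) (by finiteness) (d - 1) ?_ ?_
    k hk hkd ?_ (L.mach T ω) (L.measurable_mach T ω) (L.goal T ω ε) hg ?_
    (2 * 3 ^ d * ENNReal.ofReal ε ^ (d - 1)) (fun c => goal_bound L hd T ω ε hε hε1 c)
    (Learner.rem N T) (fun c hc q => L.rem_zero T ω c hc q) (fun c q => L.rem_step T ω c q)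
    T B hTB (L.init ω, 0, false) ?_
  · intro z j
    have h1 := cap_bound (volume : Measure (EuclideanSpace ℝ (Fin d))) z ((1 / 2) ^ j)
      (by positivity) (pow_le_one₀ (by norm_num) (by norm_num))
    rw [finrank_euclideanSpace_fin, ofReal_half_pow, ← pow_mul, mul_comm j] at h1
    exact h1
  · rw [Measure.map_apply measurable_subtype_coe measurableSet_closedBall.compl]
    have : (Subtype.val ⁻¹' (closedBall (0 : EuclideanSpace ℝ (Fin d)) 1)ᶜ :
        Set (sphere (0 : EuclideanSpace ℝ (Fin d)) 1)) = ∅ := by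
      ext s
      simp
    rw [this, measure_empty]
  · simp only [Fintype.card_prod, Fintype.card_fin, Fintype.card_bool]
    calc N * ((T + 1) * 2) = N * (T + 1) * 2 := by ring
      _ ≤ _ := hN
  · intro c s
    unfold Learner.goal
    apply indicator_le
    intro _ _; exact le_rfl
  · unfold Learner.rem
    simp

end Vale.Agent.P309
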