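import Mathlib
import Vale.Agent.P309.Final

/-!
# P309: arithmetic
-/

namespace Vale.Agent.P309

open MeasureTheory Set
open scoped ENNReal NNReal

lemma cube_le (k : ℕ) (hk : 24 ≤ k) : k ^ 3 ≤ 2 ^ k := by
  induction k, hk using Nat.le_induction with
  | base => norm_num
  | succ k hk ih =>
    have h1 : (k + 1) ^ 3 ≤ 2 * k ^ 3 := by
      obtain ⟨m, rfl⟩ := Nat.exists_eq_add_of_le hk
      ring_nf
      nlinarith [sq_nonneg m, Nat.zero_le m, Nat.zero_le (m ^ 3)]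
    calc (k + 1) ^ 3 ≤ 2 * k ^ 3 := h1
      _ ≤ 2 * 2 ^ k := Nat.mul_le_mul_left 2 ih
      _ = 2 ^ (k + 1) := by ring

lemma log_three_le : Real.log 3 ≤ 1.1 := by
  have h1 : (3 : ℝ) ^ 10 ≤ Real.exp 1 ^ 11 := by
    have h2 : (2.7182818283 : ℝ) ≤ Real.exp 1 := Real.exp_one_gt_d9.le
    calc (3 : ℝ) ^ 10 ≤ 2.7182818283 ^ 11 := by norm_num
      _ ≤ Real.exp 1 ^ 11 := pow_le_pow_left₀ (by norm_num) h2 11
  have h3 := Real.log_le_log (by norm_num) h1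
  rw [Real.log_pow, Real.log_pow, Real.log_exp] at h3
  push_cast at h3
  linarith

lemma toReal_memory (d n : ℕ) (ε : ℝ) (hε : 0 < ε)
    (h : (2 / 3 : ℝ≥0∞) ≤ (n : ℕ) * (2 * 3 ^ d * ENNReal.ofReal ε ^ (d - 1))) :
    (2 / 3 : ℝ) ≤ n * (2 * 3 ^ d * ε ^ (d - 1)) := by
  have h1 := ENNReal.toReal_mono (by finiteness) h
  simpa [ENNReal.toReal_mul, ENNReal.toReal_pow, ENNReal.toReal_ofReal hε.le,
    ENNReal.toReal_div] using h1

lemma toReal_sample (d B k m : ℕ) (ε : ℝ) (hε : 0 < ε)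
    (h : (2 / 3 : ℝ≥0∞) ≤ 13 * B * (2⁻¹ : ℝ≥0∞) ^ k + (2 ^ m) ^ (2 * B) *
      (2 * 3 ^ d * (2 * 3 ^ d * ENNReal.ofReal ε ^ (d - 1)))) :
    (2 / 3 : ℝ) ≤ 13 * B * (2⁻¹ : ℝ) ^ k + (2 ^ m) ^ (2 * B) *
      (2 * 3 ^ d * (2 * 3 ^ d * ε ^ (d - 1))) := by
  have h1 := ENNReal.toReal_mono (by finiteness) h
  rw [ENNReal.toReal_add (by finiteness) (by finiteness)] at h1
  simpa [ENNReal.toReal_mul, ENNReal.toReal_pow, ENNReal.toReal_ofReal hε.le,
    ENNReal.toReal_div] using h1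

lemma eps_pow (ε : ℝ) (hε : 0 < ε) (n : ℕ) : ε ^ n = Real.exp (-(n * Real.log (1 / ε))) := by
  rw [one_div, Real.log_inv, mul_neg, neg_neg, ← Real.log_pow, Real.exp_log (by positivity)]

/-- the memory-only bound gives `log (1/ε) ≤ d` -/
lemma ell_le (d N T : ℕ) (ε : ℝ) (hd : 200 ≤ d) (hε : 0 < ε)
    (hN : (N : ℝ) ≤ 2 ^ ((d : ℝ) ^ 2 / 100)) (hT : (T : ℝ) < d * Real.log (1 / ε) / 100)
    (h : (2 / 3 : ℝ) ≤ (N * (T + 1) * 2 : ℕ) * (2 * 3 ^ d * ε ^ (d - 1))) :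
    Real.log (1 / ε) ≤ d := by
  set l := Real.log (1 / ε) with hl
  have hd' : (200 : ℝ) ≤ d := by exact_mod_cast hd
  have hlog2 : Real.log 2 ≤ 0.7 := by linarith [Real.log_two_lt_d9]
  have h1 : (2 : ℝ) ^ ((d : ℝ) ^ 2 / 100) ≤ Real.exp (0.007 * (d : ℝ) ^ 2) := by
    rw [Real.rpow_def_of_pos (by norm_num)]
    apply Real.exp_le_exp.2
    nlinarith [sq_nonneg (d : ℝ)]
  have h2 : (T : ℝ) + 1 ≤ Real.exp T := Real.add_one_le_exp _
  have h3 : (3 : ℝ) ^ d ≤ Real.exp (1.1 * d) := by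
    rw [← Real.exp_log (show (0 : ℝ) < 3 ^ d by positivity), Real.log_pow]
    apply Real.exp_le_exp.2
    nlinarith [log_three_le]
  have h4 : (4 : ℝ) ≤ Real.exp 2 := by
    have : Real.exp 2 = Real.exp 1 ^ 2 := by rw [← Real.exp_nat_mul]; norm_num
    rw [this]
    nlinarith [Real.exp_one_gt_d9]
  have h5 : Real.exp (-1) ≤ 2 / 3 := by
    rw [Real.exp_neg]
    rw [inv_le_comm₀ (Real.exp_pos _) (by norm_num)]
    linarith [Real.exp_one_gt_d9]
  have h6 : ε ^ (d - 1) = Real.exp (-(((d - 1 : ℕ) : ℝ) * l)) := eps_pow ε hε (d - 1)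
  have h7 : ((N * (T + 1) * 2 : ℕ) : ℝ) * (2 * 3 ^ d * ε ^ (d - 1))
      ≤ Real.exp (0.007 * (d : ℝ) ^ 2 + T + 2 + 1.1 * d - ((d - 1 : ℕ) : ℝ) * l) := by
    push_cast
    calc (N : ℝ) * (T + 1) * 2 * (2 * 3 ^ d * ε ^ (d - 1))
        = N * (T + 1) * 4 * 3 ^ d * ε ^ (d - 1) := by ring
      _ ≤ Real.exp (0.007 * (d : ℝ) ^ 2) * Real.exp T * Real.exp 2 * Real.exp (1.1 * d)
          * Real.exp (-(((d - 1 : ℕ) : ℝ) * l)) := by
          rw [h6]
          gcongr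
          exact hN.trans h1
      _ = _ := by
          rw [← Real.exp_add, ← Real.exp_add, ← Real.exp_add, ← Real.exp_add]
          congr 1
  have h8 := Real.exp_le_exp.1 (h5.trans (h.trans h7))
  have h9 : ((d - 1 : ℕ) : ℝ) = d - 1 := by
    rw [Nat.cast_sub (by omega)]; norm_num
  rw [h9] at h8
  by_contra hcon
  push Not at hcon
  have h10 : 0 ≤ (d : ℝ) := by linarith
  nlinarith [mul_lt_mul_of_pos_left hcon (show (0 : ℝ) < 0.99 * d - 1 by linarith)]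

/-- passing to exponents in the sample bound -/
lemma exps (d k B : ℕ) (ε l : ℝ) (hε : 0 < ε) (hldef : l = Real.log (1 / ε))
    (hhalf : (1 / 2 : ℝ) ≤ (2 ^ (23 * k + 3)) ^ (2 * B) *
      (2 * 3 ^ d * (2 * 3 ^ d * ε ^ (d - 1)))) :
    -1 ≤ 0.6932 * (((46 : ℝ) * k + 6) * B) + 2 + 1.1 * d + 1.1 * d
        - ((d - 1 : ℕ) : ℝ) * l := by
  have hlog2 : Real.log 2 ≤ 0.6932 := by linarith [Real.log_two_lt_d9]
  have h3 : (3 : ℝ) ^ d ≤ Real.exp (1.1 * d) := by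
    rw [← Real.exp_log (show (0 : ℝ) < 3 ^ d by positivity), Real.log_pow]
    apply Real.exp_le_exp.2
    nlinarith [log_three_le]
  have h4 : (4 : ℝ) ≤ Real.exp 2 := by
    have : Real.exp 2 = Real.exp 1 ^ 2 := by rw [← Real.exp_nat_mul]; norm_num
    rw [this]
    nlinarith [Real.exp_one_gt_d9]
  have h5 : Real.exp (-1) ≤ 1 / 2 := by
    rw [Real.exp_neg]
    rw [inv_le_comm₀ (Real.exp_pos _) (by norm_num)]
    linarith [Real.exp_one_gt_d9]
  have h6 : ε ^ (d - 1) = Real.exp (-(((d - 1 : ℕ) : ℝ) * l)) := by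
    rw [hldef]; exact eps_pow ε hε (d - 1)
  have h7 : ((2 : ℝ) ^ (23 * k + 3)) ^ (2 * B) ≤ Real.exp (0.6932 * ((46 * k + 6) * B)) := by
    rw [← pow_mul, ← Real.exp_log (show (0 : ℝ) < 2 ^ ((23 * k + 3) * (2 * B)) by positivity),
      Real.log_pow]
    apply Real.exp_le_exp.2
    push_cast
    have h8 : (0 : ℝ) ≤ (46 * k + 6) * B := by positivity
    calc ((23 : ℝ) * k + 3) * (2 * B) * Real.log 2 = ((46 * k + 6) * B) * Real.log 2 := by ring
      _ ≤ ((46 * k + 6) * B) * 0.6932 := mul_le_mul_of_nonneg_left hlog2 h8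
      _ = _ := by ring
  have h8 : ((2 : ℝ) ^ (23 * k + 3)) ^ (2 * B) * (2 * 3 ^ d * (2 * 3 ^ d * ε ^ (d - 1)))
      ≤ Real.exp (0.6932 * ((46 * k + 6) * B) + 2 + 1.1 * d + 1.1 * d
        - ((d - 1 : ℕ) : ℝ) * l) := by
    calc ((2 : ℝ) ^ (23 * k + 3)) ^ (2 * B) * (2 * 3 ^ d * (2 * 3 ^ d * ε ^ (d - 1)))
        = ((2 : ℝ) ^ (23 * k + 3)) ^ (2 * B) * 4 * 3 ^ d * 3 ^ d * ε ^ (d - 1) := by ring
      _ ≤ Real.exp (0.6932 * ((46 * k + 6) * B)) * Real.exp 2 * Real.exp (1.1 * d)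
          * Real.exp (1.1 * d) * Real.exp (-(((d - 1 : ℕ) : ℝ) * l)) := by
          rw [h6]
          gcongr
      _ = _ := by
          rw [← Real.exp_add, ← Real.exp_add, ← Real.exp_add, ← Real.exp_add]
          congr 1
  exact Real.exp_le_exp.1 (h5.trans (hhalf.trans h8))

/-- the arithmetic of the sample bound -/
lemma contra (d T k B : ℕ) (ε l : ℝ) (hd : 200 ≤ d) (hε : 0 < ε) (hl12 : 12 < l)
    (hldef : l = Real.log (1 / ε))
    (hk : k = (d - 1) / 8) (hB : B = T / k + 1)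
    (hT : (T : ℝ) < d * l / 100) (hl : l ≤ d)
    (h : (2 / 3 : ℝ) ≤ 13 * B * (2⁻¹ : ℝ) ^ k + (2 ^ (23 * k + 3)) ^ (2 * B) *
      (2 * 3 ^ d * (2 * 3 ^ d * ε ^ (d - 1)))) : False := by
  have hd' : (200 : ℝ) ≤ d := by exact_mod_cast hd
  have hk24 : 24 ≤ k := by omega
  have hk24' : (24 : ℝ) ≤ k := by exact_mod_cast hk24
  have hdk : (d : ℝ) ≤ 8 * k + 8 := by
    have : d ≤ 8 * k + 8 := by omega
    exact_mod_cast this
  have hkd : (8 : ℝ) * k ≤ ((d - 1 : ℕ) : ℝ) := by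
    have : 8 * k ≤ d - 1 := by omega
    exact_mod_cast this
  have hkB : (k : ℝ) * B ≤ T + k := by
    have : k * B ≤ T + k := by
      rw [hB, Nat.mul_add, Nat.mul_one]
      exact Nat.add_le_add_right (Nat.mul_div_le T k) k
    exact_mod_cast this
  have hTk : (T : ℝ) ≤ 0.08334 * (k * l) := by
    have : (d : ℝ) * l ≤ (8.334 * k) * l := by
      apply mul_le_mul_of_nonneg_right _ (by linarith)
      linarith
    linarith
  have hTd : (T : ℝ) ≤ 0.64 * (k + 1) ^ 2 := by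
    have h1 : (d : ℝ) * l ≤ d * d := mul_le_mul_of_nonneg_left hl (by linarith)
    have h2 : (d : ℝ) * d ≤ (8 * k + 8) * (8 * k + 8) :=
      mul_le_mul hdk hdk (by linarith) (by linarith)
    have h3 : ((8 : ℝ) * k + 8) * (8 * k + 8) = 64 * (k + 1) ^ 2 := by ring
    linarith
  have hBk : (B : ℝ) ≤ k := by
    have h1 : (k : ℝ) * B ≤ k * k := by nlinarith
    exact le_of_mul_le_mul_left h1 (by linarith)
  have hcube : (k : ℝ) ^ 3 ≤ 2 ^ k := by exact_mod_cast cube_le k hk24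
  have hfirst : 13 * (B : ℝ) * (2⁻¹ : ℝ) ^ k ≤ 1 / 6 := by
    rw [inv_pow, ← div_eq_mul_inv, div_le_iff₀ (by positivity)]
    have h1 : 13 * (B : ℝ) ≤ 1 / 6 * (k : ℝ) ^ 3 := by
      have h2 : (78 : ℝ) ≤ k ^ 2 := by nlinarith
      have h3 : (78 : ℝ) * k ≤ k ^ 2 * k := mul_le_mul_of_nonneg_right h2 (by linarith)
      have h4 : (k : ℝ) ^ 3 = k ^ 2 * k := by ring
      linarith
    linarith
  have hhalf : (1 / 2 : ℝ) ≤ (2 ^ (23 * k + 3)) ^ (2 * B) *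
      (2 * 3 ^ d * (2 * 3 ^ d * ε ^ (d - 1))) := by linarith
  have h9 := exps d k B ε l hε hldef hhalf
  have h10 : (8 : ℝ) * (k * l) ≤ ((d - 1 : ℕ) : ℝ) * l := by
    have := mul_le_mul_of_nonneg_right hkd (show 0 ≤ l by linarith)
    linarith
  have h11 : ((46 : ℝ) * k + 6) * B ≤ 46.25 * (k * B) := by
    have h12 : (6 : ℝ) * B ≤ 0.25 * k * B :=
      mul_le_mul_of_nonneg_right (by linarith) (Nat.cast_nonneg B)
    linarith
  have h13 : (k : ℝ) * 12 < k * l := mul_lt_mul_of_pos_left hl12 (by linarith)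
  linarith

/-- the number of configurations fits in `k ^ 2` bits -/
lemma card_le (d N T k : ℕ) (l : ℝ) (hd : 200 ≤ d)
    (hN : (N : ℝ) ≤ 2 ^ ((d : ℝ) ^ 2 / 100)) (hk : k = (d - 1) / 8)
    (hT : (T : ℝ) < d * l / 100) (hl : l ≤ d) : N * (T + 1) * 2 ≤ 2 ^ (k ^ 2) := by
  have hd' : (200 : ℝ) ≤ d := by exact_mod_cast hd
  have hk24 : 24 ≤ k := by omega
  have hk24' : (24 : ℝ) ≤ k := by exact_mod_cast hk24
  have hdk : (d : ℝ) ≤ 8 * k + 8 := by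
    have : d ≤ 8 * k + 8 := by omega
    exact_mod_cast this
  have h2 : (d : ℝ) * d ≤ (8 * k + 8) * (8 * k + 8) :=
    mul_le_mul hdk hdk (by linarith) (by linarith)
  have h3 : ((8 : ℝ) * k + 8) * (8 * k + 8) = 64 * (k + 1) ^ 2 := by ring
  have hTd : (T : ℝ) ≤ 0.64 * (k + 1) ^ 2 := by
    have h1 : (d : ℝ) * l ≤ d * d := mul_le_mul_of_nonneg_left hl (by linarith)
    linarith
  have hcube : (k : ℝ) ^ 3 ≤ 2 ^ k := by exact_mod_cast cube_le k hk24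
  have h4 : (N : ℝ) ≤ 2 ^ (k * (k - 1)) := by
    refine hN.trans ?_
    rw [← Real.rpow_natCast 2 (k * (k - 1))]
    apply Real.rpow_le_rpow_of_exponent_le (by norm_num)
    push_cast [Nat.cast_sub (show 1 ≤ k by omega)]
    nlinarith
  have h5 : ((T : ℝ) + 1) * 2 ≤ 2 ^ k := by
    refine le_trans ?_ hcube
    have h6 : (k : ℝ) ^ 3 = k ^ 2 * k := by ring
    nlinarith [mul_le_mul_of_nonneg_left hk24' (sq_nonneg (k : ℝ))]
  have h7 : (k ^ 2 : ℕ) = k * (k - 1) + k := by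
    obtain ⟨m, rfl⟩ := Nat.exists_eq_add_of_le hk24
    have : 24 + m - 1 = 23 + m := by omega
    rw [this]; ring
  have h8 : ((N * (T + 1) * 2 : ℕ) : ℝ) ≤ ((2 ^ (k ^ 2) : ℕ) : ℝ) := by
    rw [h7, pow_add]
    push_cast
    calc (N : ℝ) * (T + 1) * 2 = N * ((T + 1) * 2) := by ring
      _ ≤ 2 ^ (k * (k - 1)) * 2 ^ k := by gcongr
  exact_mod_cast h8

/-- the memory-sample tradeoff -/
theorem tradeoff (d N T : ℕ) (ε : ℝ) (hd : 200 ≤ d) (hε : 0 < ε) (hε' : ε < Real.exp (-12))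
    (hN : (N : ℝ) ≤ 2 ^ ((d : ℝ) ^ 2 / 100)) (L : Learner d N) (h : L.Succeeds T ε) :
    (d : ℝ) * Real.log (1 / ε) / 100 ≤ T := by
  by_contra hcon
  push Not at hcon
  have hε1 : ε ≤ 1 := by
    refine hε'.le.trans ?_
    rw [Real.exp_le_one_iff]; norm_num
  have hl12 : 12 < Real.log (1 / ε) := by
    rw [one_div, Real.log_inv]
    have := Real.log_lt_log hε hε'
    rw [Real.log_exp] at this
    linarith
  have hd1 : 1 ≤ d := by omega
  have h1 := toReal_memory d _ ε hε (memory_main L hd1 T ε hε hε1 h)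
  have hl := ell_le d N T ε hd hε hN hcon h1
  have h2 := card_le d N T _ _ hd hN rfl hcon hl
  have h3 := sample_main L hd1 T ε hε hε1 h ((d - 1) / 8) (by omega) (by omega) h2
    (T / ((d - 1) / 8) + 1) (by
      have h4 : 0 < (d - 1) / 8 := by omega
      have h5 := Nat.lt_mul_div_succ T h4
      exact h5.le)
  exact contra d T _ _ ε _ hd hε hl12 rfl rfl rfl hcon hl (toReal_sample d _ _ _ ε hε h3)

end Vale.Agent.P309
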